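import Vale.Agent.P091.H409.Two

set_option linter.all false

/-! Nested blocks. -/

open MeasureTheory AddCircle Finset
open scoped Real

namespace Vale.Agent.P091.H409

variable {T : ℝ} [hT : Fact (0 < T)]

/-- data of the basic factor at a fixed number of levels -/
def BasicAt (T : ℝ) [Fact (0 < T)] (J₁ : ℕ) (H₁ v₁ : ℝ) : Prop :=
  ∃ (N : AddCircle T → ℤ) (B : Set (AddCircle T)),
    Measurable N ∧ (∀ x, |N x| ≤ J₁) ∧
    MeasurableSet B ∧ (1 / 16 : ℝ) ≤ (haarAddCircle B).toReal ∧
    ∀ ε τ : ℝ, 0 < ε → 0 < τ → ∃ (ρ : ℤ →₀ (ℤ →₀ ℂ)) (O : Set (AddCircle T)),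
      (∀ k : ℤ, (J₁ : ℤ) < |k| → ρ k = 0) ∧
      (∀ x y : AddCircle T, (ev2 ρ x y).im = 0 ∧ 0 ≤ (ev2 ρ x y).re ∧
        (ev2 ρ x y).re ≤ H₁) ∧
      (ρ 0) 0 = 1 ∧
      (∀ x : AddCircle T, (ev (ρ 0) x).im = 0 ∧ 0 ≤ (ev (ρ 0) x).re ∧
        (ev (ρ 0) x).re ≤ 4) ∧
      MeasurableSet O ∧ (1 - ε) / 4 ≤ (haarAddCircle O).toReal ∧
      (haarAddCircle O).toReal ≤ 1 / 4 ∧ Disjoint O B ∧
      (∀ x ∈ O, 4 * (1 - ε) ≤ (ev (ρ 0) x).re) ∧
      (∀ x ∈ B, (ev (ρ 0) x).re ≤ τ ∧ v₁ ≤ (ev (trunc 0 (ρ (N x))) x).im)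

/-- A nested block: `R` is a nonnegative two variable polynomial of mean one, `N` the selected
`y`-frequency, `U` the size. -/
def BlockSt (T : ℝ) [Fact (0 < T)] (J : ℕ) (H v a b : ℝ) : Prop :=
  ∀ τ : ℝ, 0 < τ → ∃ (R : ℤ →₀ (ℤ →₀ ℂ)) (N : AddCircle T → ℤ) (U : AddCircle T → ℝ) (C : ℝ),
    (∀ k : ℤ, (J : ℤ) < |k| → R k = 0) ∧
    (∀ x y : AddCircle T, (ev2 R x y).im = 0) ∧ (∀ x y : AddCircle T, 0 ≤ (ev2 R x y).re) ∧
    (∀ x y : AddCircle T, (ev2 R x y).re ≤ H) ∧
    (R 0) 0 = 1 ∧ Measurable N ∧ (∀ x, |N x| ≤ J) ∧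
    Measurable U ∧ (∀ x, 0 ≤ U x) ∧ (∀ x, U x ≤ C) ∧ (∀ x, U x ≠ 0 → 1 ≤ U x) ∧
    (∀ x, U x ≠ 0 → (ev (R 0) x).re ≤ τ) ∧
    (∀ x, U x ≠ 0 → v * U x ≤ (ev (trunc 0 (R (N x))) x).im) ∧
    a ≤ ∫ x, U x ∂haarAddCircle ∧ ∫ x, (U x) ^ 2 ∂haarAddCircle ≤ b

lemma blockSt_zero (v : ℝ) : BlockSt T 0 1 v 0 0 := by
  intro τ hτ
  have hev2 : ∀ x y : AddCircle T,
      ev2 (Finsupp.single 0 (Finsupp.single 0 1) : ℤ →₀ (ℤ →₀ ℂ)) x y = 1 := by
    intro x y
    rw [ev2_single, ev_single]; simp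
  refine ⟨Finsupp.single 0 (Finsupp.single 0 1), fun _ => 0, fun _ => 0, 0, ?_, ?_, ?_, ?_, ?_,
    measurable_const, ?_, measurable_const, ?_, ?_, ?_, ?_, ?_, ?_, ?_⟩
  · intro k hk
    rw [Finsupp.single_apply, if_neg]
    rintro rfl
    simp at hk
  · intro x y; rw [hev2]; simp
  · intro x y; rw [hev2]; simp
  · intro x y; rw [hev2]; simp
  · simp
  · intro x; simp
  · intro x; exact le_rfl
  · intro x; exact le_rfl
  · intro x h; exact absurd rfl h
  · intro x h; exact absurd rfl h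
  · intro x h; exact absurd rfl h
  · simp
  · simp

lemma toReal_le_one (A : Set (AddCircle T)) : (haarAddCircle A).toReal ≤ 1 := by
  have := prob_le_one (μ := haarAddCircle (T := T)) (s := A)
  exact ENNReal.toReal_mono ENNReal.one_ne_top this |>.trans (by simp)

/-- Chebyshev's inequality for a polynomial -/
lemma cheb_ev (p : ℤ →₀ ℂ) {lam : ℝ} (hlam : 0 < lam) :
    (haarAddCircle {x : AddCircle T | ¬ ‖ev p x‖ ≤ lam}).toReal ≤ l2 p / lam ^ 2 := by
  have hint : Integrable (fun x : AddCircle T => ‖ev p x‖ ^ 2) haarAddCircle :=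
    integrable_cont ((continuous_ev p).norm.pow 2)
  have h := mul_meas_ge_le_integral_of_nonneg (μ := haarAddCircle (T := T))
    (f := fun x : AddCircle T => ‖ev p x‖ ^ 2)
    (Filter.Eventually.of_forall fun x => by positivity) hint (lam ^ 2)
  rw [integral_norm_sq_ev] at h
  have h2 : (haarAddCircle {x : AddCircle T | ¬ ‖ev p x‖ ≤ lam}).toReal ≤
      (haarAddCircle (T := T)).real {x : AddCircle T | lam ^ 2 ≤ ‖ev p x‖ ^ 2} := by
    apply ENNReal.toReal_mono (measure_ne_top _ _)
    apply measure_mono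
    intro x hx
    simp only [Set.mem_setOf_eq, not_le] at hx ⊢
    exact pow_le_pow_left₀ hlam.le hx.le 2
  rw [le_div_iff₀ (by positivity)]
  nlinarith [mul_le_mul_of_nonneg_left h2 (by positivity : (0 : ℝ) ≤ lam ^ 2)]

open Classical in
theorem block_step {J₁ J : ℕ} {H₁ v₁ H v a b ε : ℝ} (hb : BasicAt T J₁ H₁ v₁)
    (hst : BlockSt T J H v a b) (hv₁ : 0 < v₁) (hv : 0 ≤ v) (ha : 0 ≤ a) (hε : 0 < ε)
    (hε2 : ε ≤ 1 / 2) :
    BlockSt T ((2 * J + 1) * (J₁ + 1)) (H₁ * H) (min (v₁ / 2) ((1 - ε) * v - 1 / √ε))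
      (1 / 32 + (1 - 2 * ε) * a) (2 + 4 * b) := by
  intro τ hτ
  obtain ⟨R, N, U, C, hR1, hR2, hR3, hR4, hR5, hN1, hN2, hU1, hU2, hU3, hU4, hsm, hlg, hUa, hUb⟩ :=
    hst (τ / 4) (by positivity)
  obtain ⟨N₁, B₁, hN₁, hN₁J, hB₁, hB₁m, hbas⟩ := hb
  set q : ℝ := l1 (R 0) + 1 with hq
  have hq0 : 0 < q := by have := l1_nonneg (R 0); rw [hq]; linarith
  obtain ⟨ρ, O, hρ1, hρ2, hρ3, hρ4, hO1, hO2, hO3, hOB, hO5, hρB⟩ :=
    hbas ε (min (v₁ / (2 * q)) (τ / q)) hε (lt_min (by positivity) (by positivity))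
  set lam : ℝ := 4 / √ε with hlam
  have hsq : 0 < √ε := Real.sqrt_pos.mpr hε
  have hlam0 : 0 < lam := by positivity
  have hlam2 : lam ^ 2 = 16 / ε := by rw [hlam, div_pow, Real.sq_sqrt hε.le]; norm_num
  -- the set where the negative part of `ρ 0` is moderate
  set Λ : Set (AddCircle T) := {x | ‖ev (trunc 0 (ρ 0)) x‖ ≤ lam} with hΛ
  have hΛm : MeasurableSet Λ :=
    (isClosed_le (continuous_ev _).norm continuous_const).measurableSet
  have hΛc : (haarAddCircle Λᶜ).toReal ≤ ε / 4 := by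
    have h1 := cheb_ev (T := T) (trunc 0 (ρ 0)) hlam0
    have h2 : l2 (trunc 0 (ρ 0)) ≤ 4 := by
      refine (l2_trunc_le 0 (ρ 0)).trans ?_
      rw [← integral_norm_sq_ev (T := T)]
      have h3 : ∀ x : AddCircle T, ‖ev (ρ 0) x‖ ^ 2 ≤ 4 * (ev (ρ 0) x).re := by
        intro x
        obtain ⟨i1, i2, i3⟩ := hρ4 x
        have h4 : ev (ρ 0) x = (((ev (ρ 0) x).re : ℝ) : ℂ) := by
          apply Complex.ext
          · simp
          · rw [i1]; simp
        rw [h4, Complex.norm_real, Real.norm_of_nonneg i2, Complex.ofReal_re]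
        nlinarith
      calc ∫ x : AddCircle T, ‖ev (ρ 0) x‖ ^ 2 ∂haarAddCircle
          ≤ ∫ x : AddCircle T, 4 * (ev (ρ 0) x).re ∂haarAddCircle :=
            integral_mono (integrable_cont ((continuous_ev _).norm.pow 2))
              ((integrable_cont (Complex.continuous_re.comp (continuous_ev _))).const_mul 4) h3
        _ = 4 * (∫ x : AddCircle T, ev (ρ 0) x ∂haarAddCircle).re := by
            rw [integral_const_mul]
            congr 1
            exact integral_re (integrable_ev _)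
        _ = 4 := by rw [integral_ev, hρ3]; simp
    have h3 : (haarAddCircle Λᶜ).toReal ≤ l2 (trunc 0 (ρ 0)) / lam ^ 2 := h1
    refine h3.trans ?_
    rw [hlam2, div_div_eq_mul_div, div_le_iff₀ (by norm_num : (0 : ℝ) < 16)]
    nlinarith
  set O' : Set (AddCircle T) := O ∩ Λ with hO'
  have hO'm : MeasurableSet O' := hO1.inter hΛm
  have hO'lo : (1 - 2 * ε) / 4 ≤ (haarAddCircle O').toReal := by
    have h1 : (haarAddCircle O).toReal ≤ (haarAddCircle O').toReal + (haarAddCircle Λᶜ).toReal := by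
      rw [← ENNReal.toReal_add (measure_ne_top _ _) (measure_ne_top _ _)]
      apply ENNReal.toReal_mono (by finiteness)
      refine (measure_mono ?_).trans (measure_union_le _ _)
      intro x hx
      by_cases h : x ∈ Λ
      · exact Or.inl ⟨hx, h⟩
      · exact Or.inr h
    linarith
  have hO'hi : (haarAddCircle O').toReal ≤ 1 / 4 := by
    refine le_trans ?_ hO3
    apply ENNReal.toReal_mono (measure_ne_top _ _)
    exact measure_mono Set.inter_subset_left
  have hC0 : 0 ≤ C := (hU2 0).trans (hU3 0)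
  have hind : Integrable (O'.indicator (fun _ => (1 : ℝ))) (haarAddCircle (T := T)) :=
    (integrable_const (1 : ℝ)).indicator hO'm
  have hindint : ∫ x, O'.indicator (fun _ => (1 : ℝ)) x ∂haarAddCircle =
      (haarAddCircle O').toReal := by
    rw [integral_indicator hO'm]; simp [Measure.real]
  obtain ⟨M1, hM1⟩ := mixing (T := T) hind hU1 (B := C)
    (fun x => by rw [abs_of_nonneg (hU2 x)]; exact hU3 x) (ε := 1 / 128) (by norm_num)
  obtain ⟨M2, hM2⟩ := mixing (T := T) hind (hU1.pow_const 2) (B := C ^ 2)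
    (fun x => by
      rw [abs_of_nonneg (by positivity)]; exact pow_le_pow_left₀ (hU2 x) (hU3 x) 2)
    (ε := 1 / 128) (by norm_num)
  choose Ms hMs using fun k => exists_small (ρ k)
  set M : ℕ := M1 + M2 + (∑ k ∈ ρ.support, Ms k) + 1 with hM
  have hM0 : M ≠ 0 := by omega
  have hsmall : ∀ k, Small M (ρ k) := by
    intro k
    by_cases hk : k ∈ ρ.support
    · apply hMs k
      have : Ms k ≤ ∑ k ∈ ρ.support, Ms k :=
        Finset.single_le_sum (f := Ms) (fun _ _ => Nat.zero_le _) hk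
      exact_mod_cast (by omega : Ms k ≤ M)
    · rw [Finsupp.notMem_support_iff.mp hk]; exact small_zero
  have hmix1 := hM1 M (by omega)
  have hmix2 := hM2 M (by omega)
  rw [hindint] at hmix1 hmix2
  have hRs : ∀ b ∈ R.support, 2 * |b| < ((2 * J + 1 : ℕ) : ℤ) := by
    intro b hb
    have : ¬ (J : ℤ) < |b| := fun h => Finsupp.mem_support_iff.mp hb (hR1 b h)
    push_cast; omega
  have happ : ∀ a b : ℤ, |b| ≤ J →
      tens M ((2 * J + 1 : ℕ) : ℤ) ρ R (b + ((2 * J + 1 : ℕ) : ℤ) * a) = join M (ρ a) (R b) := by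
    intro a b hb
    exact tens_apply hRs (by push_cast; omega)
  have hmp := (mp_nsmul (T := T) hM0).measurable
  refine ⟨tens M ((2 * J + 1 : ℕ) : ℤ) ρ R,
    fun x => if x ∈ B₁ then ((2 * J + 1 : ℕ) : ℤ) * N₁ x else N (M • x),
    fun x => B₁.indicator (fun _ => (1 : ℝ)) x + 4 * (O'.indicator (fun _ => (1 : ℝ)) x * U (M • x)),
    1 + 4 * C, ?_, ?_, ?_, ?_, ?_, ?_, ?_, ?_, ?_, ?_, ?_, ?_, ?_, ?_, ?_⟩
  · intro k hk
    have := tens_eq_zero (M := M) hρ1 hR1 hk
    push_cast
    exact this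
  · intro x y
    rw [ev2_tens, Complex.mul_im, hR2, (hρ2 _ _).1]
    ring
  · intro x y
    rw [ev2_tens, Complex.mul_re, hR2, (hρ2 _ _).1]
    have h1 := (hρ2 x ((2 * J + 1) • y)).2.1
    have h2 := hR3 (M • x) y
    have := mul_nonneg h1 h2
    linarith
  · intro x y
    rw [ev2_tens, Complex.mul_re, hR2, (hρ2 _ _).1]
    have h1 := (hρ2 x ((2 * J + 1) • y)).2
    have h2 := hR3 (M • x) y
    have h3 := hR4 (M • x) y
    have h4 := mul_le_mul h1.2 h3 h2 (h1.1.trans h1.2)
    linarith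
  · have h1 := happ 0 0 (by simp)
    rw [mul_zero, add_zero] at h1
    rw [h1]
    have h2 := join_coeff (M := M) (q := R 0) (hsmall 0) (a := 0) (k := 0)
      (by have : (0 : ℤ) < M := by exact_mod_cast Nat.pos_of_ne_zero hM0
          simpa using this)
    rw [mul_zero, add_zero] at h2
    rw [h2, hρ3, hR5, one_mul]
  · exact Measurable.ite hB₁ (hN₁.const_mul _) (hN1.comp hmp)
  · intro x
    simp only
    push_cast
    split_ifs
    · rw [abs_mul, abs_of_nonneg (by positivity : (0 : ℤ) ≤ 2 * (J : ℤ) + 1)]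
      have := hN₁J x
      nlinarith [abs_nonneg (N₁ x)]
    · have := hN2 (M • x)
      nlinarith
  · exact (measurable_const.indicator hB₁).add
      (((measurable_const.indicator hO'm).mul (hU1.comp hmp)).const_mul 4)
  · intro x
    have h1 : 0 ≤ B₁.indicator (fun _ => (1 : ℝ)) x := Set.indicator_nonneg (fun _ _ => zero_le_one) x
    have h2 : 0 ≤ O'.indicator (fun _ => (1 : ℝ)) x := Set.indicator_nonneg (fun _ _ => zero_le_one) x
    have h3 := hU2 (M • x)
    positivity
  · intro x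
    have h1 : B₁.indicator (fun _ => (1 : ℝ)) x ≤ 1 :=
      Set.indicator_le_self' (fun _ _ => zero_le_one) x
    have h2 : O'.indicator (fun _ => (1 : ℝ)) x ≤ 1 :=
      Set.indicator_le_self' (fun _ _ => zero_le_one) x
    have h3 := hU2 (M • x)
    have h4 := hU3 (M • x)
    have h5 : 0 ≤ O'.indicator (fun _ => (1 : ℝ)) x := Set.indicator_nonneg (fun _ _ => zero_le_one) x
    have h6 : O'.indicator (fun _ => (1 : ℝ)) x * U (M • x) ≤ 1 * C :=
      mul_le_mul h2 h4 h3 zero_le_one
    linarith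
  · intro x hx
    simp only at hx ⊢
    by_cases h1 : x ∈ B₁
    · rw [Set.indicator_of_mem h1]
      have h2 : 0 ≤ O'.indicator (fun _ => (1 : ℝ)) x :=
        Set.indicator_nonneg (fun _ _ => zero_le_one) x
      have h3 := hU2 (M • x)
      have := mul_nonneg h2 h3
      linarith
    · rw [Set.indicator_of_notMem h1] at hx ⊢
      by_cases h2 : x ∈ O'
      · rw [Set.indicator_of_mem h2] at hx ⊢
        have h3 : U (M • x) ≠ 0 := by
          intro h; rw [h] at hx; simp at hx
        have := hU4 _ h3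
        linarith
      · rw [Set.indicator_of_notMem h2] at hx; simp at hx
  · -- smallness of the zeroth coefficient
    intro x hx
    simp only at hx
    have h1 := happ 0 0 (by simp)
    rw [mul_zero, add_zero] at h1
    rw [h1, ev_join, Complex.mul_re, (hρ4 x).1]
    have hR0 : 0 ≤ (ev (R 0) (M • x)).re :=
      (norm_nonneg _).trans (norm_coeff_le_zero hR2 hR3 0 (M • x))
    by_cases h2 : x ∈ B₁
    · have h3 := (hρB x h2).1
      have h4 : (ev (R 0) (M • x)).re ≤ q := by
        have := (Complex.re_le_norm _).trans (norm_ev_le (R 0) (M • x))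
        rw [hq]; linarith
      have h5 : (ev (ρ 0) x).re ≤ τ / q := h3.trans (min_le_right _ _)
      have h6 : (ev (ρ 0) x).re * (ev (R 0) (M • x)).re ≤ (τ / q) * q :=
        mul_le_mul h5 h4 hR0 (by positivity)
      rw [div_mul_cancel₀ _ hq0.ne'] at h6
      linarith
    · rw [Set.indicator_of_notMem h2] at hx
      by_cases h3 : x ∈ O'
      · rw [Set.indicator_of_mem h3] at hx
        have h4 : U (M • x) ≠ 0 := by
          intro h; rw [h] at hx; simp at hx
        have h5 := hsm _ h4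
        have h6 := (hρ4 x).2
        have h7 := mul_le_mul h6.2 h5 hR0 (by norm_num)
        linarith
      · rw [Set.indicator_of_notMem h3] at hx; simp at hx
  · -- the lower bound
    intro x hx
    simp only at hx ⊢
    by_cases h2 : x ∈ B₁
    · have hxO : x ∉ O' := fun h => Set.disjoint_left.mp hOB h.1 h2
      rw [if_pos h2, Set.indicator_of_mem h2, Set.indicator_of_notMem hxO, zero_mul, mul_zero,
        add_zero, mul_one]
      have h1 := happ (N₁ x) 0 (by simp)
      rw [zero_add] at h1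
      rw [h1]
      have h3 := ev_trunc_join (M := M) (q := R 0) (hsmall (N₁ x)) (n := 0) (s := 0)
        (by have : (0 : ℤ) < M := by exact_mod_cast Nat.pos_of_ne_zero hM0
            simpa using this) x
      rw [mul_zero, add_zero, hR5, fourier_zero, one_mul, one_mul] at h3
      rw [h3, Complex.add_im]
      have h4 := (hρB x h2).2
      have h5 : ‖ev (ρ (N₁ x)) x‖ ≤ v₁ / (2 * q) := by
        refine (norm_coeff_le_zero (fun x y => (hρ2 x y).1) (fun x y => (hρ2 x y).2.1) _ _).trans ?_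
        exact (hρB x h2).1.trans (min_le_left _ _)
      have h6 : ‖ev (trunc 0 (R 0)) (M • x)‖ ≤ q :=
        (norm_ev_trunc_le _ _ _).trans (by rw [hq]; linarith)
      have h7 : |(ev (ρ (N₁ x)) x * ev (trunc 0 (R 0)) (M • x)).im| ≤ v₁ / 2 := by
        refine (Complex.abs_im_le_norm _).trans ?_
        rw [norm_mul]
        refine (mul_le_mul h5 h6 (norm_nonneg _) (by positivity)).trans (le_of_eq ?_)
        field_simp
      have h8 := (abs_le.mp h7).1
      refine (min_le_left _ _).trans ?_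
      linarith
    · rw [if_neg h2, Set.indicator_of_notMem h2, zero_add]
      rw [Set.indicator_of_notMem h2, zero_add] at hx
      have h3 : x ∈ O' := by
        by_contra h
        rw [Set.indicator_of_notMem h] at hx; simp at hx
      rw [Set.indicator_of_mem h3, one_mul] at hx ⊢
      have h4 : U (M • x) ≠ 0 := by
        intro h; rw [h] at hx; simp at hx
      have hU1' := hU4 _ h4
      have h1 := happ 0 (N (M • x)) (hN2 _)
      rw [mul_zero, add_zero] at h1
      rw [h1]
      have h5 := ev_trunc_join (M := M) (q := R (N (M • x))) (hsmall 0) (n := 0) (s := 0)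
        (by have : (0 : ℤ) < M := by exact_mod_cast Nat.pos_of_ne_zero hM0
            simpa using this) x
      rw [mul_zero, add_zero, fourier_zero, mul_one] at h5
      rw [h5, Complex.add_im, Complex.mul_im, (hρ4 x).1, zero_mul, add_zero]
      have h6 := hlg _ h4
      have h7 := hO5 x h3.1
      have h8 : |((R (N (M • x))) 0 * ev (trunc 0 (ρ 0)) x).im| ≤ lam := by
        refine (Complex.abs_im_le_norm _).trans ?_
        rw [norm_mul]
        have h9 := norm_coeff_zero_le hR2 hR3 hR5 (N (M • x))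
        have h10 : ‖ev (trunc 0 (ρ 0)) x‖ ≤ lam := h3.2
        calc _ ≤ 1 * lam := mul_le_mul h9 h10 (norm_nonneg _) zero_le_one
          _ = lam := one_mul _
      have h9 := (abs_le.mp h8).1
      have h10 : 4 * (1 - ε) * (v * U (M • x)) ≤
          (ev (ρ 0) x).re * (ev (trunc 0 (R (N (M • x)))) (M • x)).im := by
        apply mul_le_mul h7 h6 (mul_nonneg hv (hU2 _))
        exact (mul_nonneg (by norm_num) (by linarith)).trans h7
      have h11 : min (v₁ / 2) ((1 - ε) * v - 1 / √ε) * (4 * U (M • x)) ≤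
          ((1 - ε) * v - 1 / √ε) * (4 * U (M • x)) :=
        mul_le_mul_of_nonneg_right (min_le_right _ _) (by linarith)
      refine h11.trans ?_
      have h12 : lam = 4 * (1 / √ε) := by rw [hlam]; ring
      have h13 : 0 < 1 / √ε := by positivity
      nlinarith
  · -- mean
    have h1 : ∫ x, (B₁.indicator (fun _ => (1 : ℝ)) x +
        4 * (O'.indicator (fun _ => (1 : ℝ)) x * U (M • x))) ∂haarAddCircle =
        (haarAddCircle B₁).toReal +
        4 * ∫ x, O'.indicator (fun _ => (1 : ℝ)) x * U (M • x) ∂haarAddCircle := by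
      rw [integral_add, integral_const_mul, integral_indicator hB₁]
      · simp [Measure.real]
      · exact (integrable_const (1 : ℝ)).indicator hB₁
      · refine Integrable.const_mul ?_ _
        exact hind.mul_bdd (c := C) (hU1.comp hmp).aestronglyMeasurable
          (Filter.Eventually.of_forall fun x => by
            rw [Real.norm_of_nonneg (hU2 _)]; exact hU3 _)
    rw [h1]
    have h2 := (abs_le.mp hmix1).1
    have h3 : (1 - 2 * ε) / 4 * a ≤ (haarAddCircle O').toReal * ∫ x, U x ∂haarAddCircle :=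
      mul_le_mul hO'lo hUa ha (by positivity)
    linarith
  · have h0 : ∀ x, (B₁.indicator (fun _ => (1 : ℝ)) x +
        4 * (O'.indicator (fun _ => (1 : ℝ)) x * U (M • x))) ^ 2 =
        B₁.indicator (fun _ => (1 : ℝ)) x +
        16 * (O'.indicator (fun _ => (1 : ℝ)) x * (U (M • x)) ^ 2) := by
      intro x
      by_cases h2 : x ∈ B₁
      · have hxO : x ∉ O' := fun h => Set.disjoint_left.mp hOB h.1 h2
        rw [Set.indicator_of_mem h2, Set.indicator_of_notMem hxO]; ring
      · rw [Set.indicator_of_notMem h2]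
        by_cases h3 : x ∈ O'
        · rw [Set.indicator_of_mem h3]; ring
        · rw [Set.indicator_of_notMem h3]; ring
    simp only [h0]
    have h1 : ∫ x, (B₁.indicator (fun _ => (1 : ℝ)) x +
        16 * (O'.indicator (fun _ => (1 : ℝ)) x * (U (M • x)) ^ 2)) ∂haarAddCircle =
        (haarAddCircle B₁).toReal +
        16 * ∫ x, O'.indicator (fun _ => (1 : ℝ)) x * (U (M • x)) ^ 2 ∂haarAddCircle := by
      rw [integral_add, integral_const_mul, integral_indicator hB₁]
      · simp [Measure.real]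
      · exact (integrable_const (1 : ℝ)).indicator hB₁
      · refine Integrable.const_mul ?_ _
        exact hind.mul_bdd (c := C ^ 2) ((hU1.comp hmp).pow_const 2).aestronglyMeasurable
          (Filter.Eventually.of_forall fun x => by
            rw [Real.norm_of_nonneg (by positivity)]
            exact pow_le_pow_left₀ (hU2 _) (hU3 _) 2)
    rw [h1]
    have h2 := (abs_le.mp hmix2).2
    have h3 : 0 ≤ ∫ x, (U x) ^ 2 ∂(haarAddCircle (T := T)) := integral_nonneg fun x => by positivity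
    have h4 : (haarAddCircle O').toReal * ∫ x, (U x) ^ 2 ∂haarAddCircle ≤ 1 / 4 * b :=
      mul_le_mul hO'hi hUb h3 (by norm_num)
    have h5 := toReal_le_one (T := T) B₁
    linarith

end Vale.Agent.P091.H409
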