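import Vale.Agent.P091.H409.Block

set_option linter.all false

/-! Iterating the block step. -/

open MeasureTheory AddCircle Finset
open scoped Real

namespace Vale.Agent.P091.H409

variable {T : ℝ} [hT : Fact (0 < T)]

lemma BlockSt.mono {J : ℕ} {H v a b H' v' a' b' : ℝ} (h : BlockSt T J H v a b)
    (hH : H ≤ H') (hv : v' ≤ v) (ha : a' ≤ a) (hb : b ≤ b') : BlockSt T J H' v' a' b' := by
  intro τ hτ
  obtain ⟨R, N, U, C, hR1, hR2, hR3, hR4, hR5, hN1, hN2, hU1, hU2, hU3, hU4, hsm, hlg, hUa, hUb⟩ :=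
    h τ hτ
  refine ⟨R, N, U, C, hR1, hR2, hR3, fun x y => (hR4 x y).trans hH, hR5, hN1, hN2, hU1, hU2, hU3,
    hU4, hsm, fun x hx => ?_, ha.trans hUa, hUb.trans hb⟩
  exact (mul_le_mul_of_nonneg_right hv (hU2 x)).trans (hlg x hx)

theorem block_iter {J₁ : ℕ} {H₁ v₁ ε r : ℝ} (hb : BasicAt T J₁ H₁ v₁)
    (hv₁ : 0 < v₁) (hε : 0 < ε) (hε2 : ε ≤ 1 / 2) (hr : 1 / √ε ≤ r) :
    ∀ l : ℕ, 2 * ε * l ≤ 1 → 0 ≤ v₁ / 2 * (1 - ε * l) - l * r →
      ∃ J : ℕ, J + 1 ≤ (2 * (J₁ + 1)) ^ l ∧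
        BlockSt T J (H₁ ^ l) (v₁ / 2 * (1 - ε * l) - l * r) (l / 32 * (1 - 2 * ε * l))
          (4 ^ l - 1) := by
  have hsq : 0 < √ε := Real.sqrt_pos.mpr hε
  have hr0 : 0 < r := lt_of_lt_of_le (by positivity) hr
  intro l
  induction l with
  | zero =>
    intro _ _
    refine ⟨0, by simp, ?_⟩
    have h := blockSt_zero (T := T) (v₁ / 2 * (1 - ε * ((0 : ℕ) : ℝ)) - ((0 : ℕ) : ℝ) * r)
    exact h.mono (by simp) le_rfl (by simp) (by simp)
  | succ l ih =>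
    intro h1 h2
    have hlnn : (0 : ℝ) ≤ l := Nat.cast_nonneg l
    have hl1 : 2 * ε * (l : ℝ) ≤ 1 := by
      refine le_trans ?_ h1
      push_cast
      nlinarith
    have hl2 : 0 ≤ v₁ / 2 * (1 - ε * (l : ℝ)) - l * r := by
      refine h2.trans ?_
      push_cast
      have : 0 < v₁ * ε := by positivity
      nlinarith
    obtain ⟨J, hJ, hst⟩ := ih hl1 hl2
    have ha : 0 ≤ (l : ℝ) / 32 * (1 - 2 * ε * l) := by
      have : 0 ≤ 1 - 2 * ε * (l : ℝ) := by linarith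
      positivity
    refine ⟨(2 * J + 1) * (J₁ + 1), ?_, ?_⟩
    · rw [pow_succ]
      nlinarith
    · have h := block_step hb hst hv₁ hl2 ha hε hε2
      refine h.mono (le_of_eq (by rw [pow_succ]; ring)) (le_min ?_ ?_) ?_ ?_
      · -- v₁ / 2
        have h3 : 0 ≤ v₁ * (ε * ((l + 1 : ℕ) : ℝ)) := by positivity
        have h4 : 0 ≤ ((l + 1 : ℕ) : ℝ) * r := by positivity
        nlinarith
      · push_cast
        have h5 : 0 ≤ ε * (l * r) := by positivity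
        have h6 : 0 ≤ v₁ * (ε * (ε * l)) := by positivity
        nlinarith
      · push_cast
        have h5 : 0 ≤ ε * ε * l * l := by positivity
        nlinarith
      · rw [pow_succ]
        linarith

theorem block_final {J₁ : ℕ} {H₁ v₁ : ℝ} (hb : BasicAt T J₁ H₁ v₁)
    {L : ℕ} (hL : 1 ≤ L) (hv : 48 * (L : ℝ) ^ 2 ≤ v₁) :
    ∃ J : ℕ, (J : ℝ) + 1 ≤ (2 * (J₁ + 1)) ^ L ∧
      BlockSt T J (H₁ ^ L) (v₁ / 4) (L / 64) (4 ^ L) := by
  have hL' : (1 : ℝ) ≤ L := by exact_mod_cast hL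
  have hL0 : (0 : ℝ) < L := by linarith
  have hv₁ : 0 < v₁ := lt_of_lt_of_le (by positivity) hv
  have hε : 0 < 1 / (8 * (L : ℝ)) := by positivity
  have h1 : 1 / √(1 / (8 * (L : ℝ))) ≤ 3 * L := by
    rw [Real.sqrt_div' _ (by positivity), Real.sqrt_one, one_div_one_div]
    rw [Real.sqrt_le_left (by positivity)]
    nlinarith
  have h2 : 1 / (8 * (L : ℝ)) * L = 1 / 8 := by field_simp
  have h3 : 2 * (1 / (8 * (L : ℝ))) * L = 1 / 4 := by linarith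
  have h4 : v₁ / 4 ≤ v₁ / 2 * (1 - 1 / (8 * (L : ℝ)) * L) - L * (3 * L) := by
    rw [h2]; nlinarith
  obtain ⟨J, hJ, hst⟩ := block_iter hb hv₁ hε
    (by rw [div_le_div_iff₀ (by positivity) (by norm_num)]; nlinarith) h1 L
    (by rw [h3]; norm_num) (le_trans (by positivity) h4)
  refine ⟨J, by exact_mod_cast hJ, hst.mono le_rfl h4 ?_ (by linarith)⟩
  rw [h3]; linarith

end Vale.Agent.P091.H409
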