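import Vale.Agent.P091.Bdl.B1

set_option linter.all false

/-! Interfaces for the divergence theorem past `u √(log u)`. -/

open MeasureTheory AddCircle Finset

namespace Vale.Agent.P091.H409

/-- The trigonometric polynomial with coefficients `p k`, evaluated at `x`. -/
noncomputable def ev {T : ℝ} (p : ℤ →₀ ℂ) (x : AddCircle T) : ℂ :=
  p.sum fun k z => z * fourier k x

/-- Keep the frequencies `< N`. -/
noncomputable def trunc (N : ℤ) (p : ℤ →₀ ℂ) : ℤ →₀ ℂ := p.filter (· < N)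

/-- Two variable polynomials: `R k` is the coefficient (a polynomial in `x`) of `e(k y)`. -/
noncomputable def ev2 {T : ℝ} (R : ℤ →₀ (ℤ →₀ ℂ)) (x y : AddCircle T) : ℂ :=
  R.sum fun k p => ev p x * fourier k y

/-- The basic factor: a nonnegative polynomial `ρ(x, y)` of mean one which is `4 · 1_O` after
integration in `y`, and such that on the set `B` (disjoint from `O`) the negative frequency part
of a suitable `y`-coefficient is large. -/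
def BasicFactor (T : ℝ) [Fact (0 < T)] : Prop :=
  ∃ c : ℝ, 0 < c ∧ ∃ C : ℝ, 0 < C ∧ ∃ m₀ : ℕ, ∀ m : ℕ, m₀ ≤ m →
    ∃ (J : ℕ) (N : AddCircle T → ℤ) (B : Set (AddCircle T)),
      (J : ℝ) ≤ Real.exp (C * (m : ℝ) ^ 2) ∧ Measurable N ∧ (∀ x, |N x| ≤ J) ∧
      MeasurableSet B ∧ (1 / 16 : ℝ) ≤ (haarAddCircle B).toReal ∧
      ∀ ε τ : ℝ, 0 < ε → 0 < τ → ∃ (ρ : ℤ →₀ (ℤ →₀ ℂ)) (O : Set (AddCircle T)),
        (∀ k : ℤ, (J : ℤ) < |k| → ρ k = 0) ∧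
        (∀ x y : AddCircle T, (ev2 ρ x y).im = 0 ∧ 0 ≤ (ev2 ρ x y).re ∧
          (ev2 ρ x y).re ≤ Real.exp (C * (m : ℝ) ^ 2)) ∧
        (ρ 0) 0 = 1 ∧
        (∀ x : AddCircle T, (ev (ρ 0) x).im = 0 ∧ 0 ≤ (ev (ρ 0) x).re ∧
          (ev (ρ 0) x).re ≤ 4) ∧
        MeasurableSet O ∧ (1 - ε) / 4 ≤ (haarAddCircle O).toReal ∧
        (haarAddCircle O).toReal ≤ 1 / 4 ∧ Disjoint O B ∧
        (∀ x ∈ O, 4 * (1 - ε) ≤ (ev (ρ 0) x).re) ∧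
        (∀ x ∈ B, (ev (ρ 0) x).re ≤ τ ∧ c * m ≤ (ev (trunc 0 (ρ (N x))) x).im)

/-- The multi-block main lemma. -/
def MainLemma3 (T : ℝ) [Fact (0 < T)] : Prop :=
  ∃ c : ℝ, 0 < c ∧ ∃ C : ℝ, 0 < C ∧ ∀ γ : ℝ, 0 < γ → ∃ K₀ : ℕ, ∀ K : ℕ, K₀ ≤ K →
    ∀ m : ℕ → ℕ, K ≤ m 0 → (∀ k, 2 * m k ≤ m (k + 1)) →
    ∃ (d : ℕ) (P : ℕ → ℤ → ℂ),
      (∀ k, k < K → ∀ x : AddCircle T,
        ‖trigSum (P k) d x‖ ≤ Real.exp (C * (Real.log K * (m k : ℝ) ^ 2))) ∧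
      (∀ k, k < K →
        ∫ x, ‖(trigSum (P k) d x : ℂ)‖ ∂(haarAddCircle (T := T)) ≤ 1 / (K * m k)) ∧
      haarAddCircle {x : AddCircle T | ∀ n : ℕ, n ≤ d →
        ‖trigSum (fun j => ∑ k ∈ Finset.range K, P k j) n x‖ ≤ c * Real.log K} ≤
        ENNReal.ofReal γ

end Vale.Agent.P091.H409
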