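import Vale.Agent.P091.H203.Orlicz

set_option linter.all false

/-! The explicit class `L √(log L)`. -/

open MeasureTheory AddCircle Finset

namespace Vale.Agent.P091.H409

open Vale.Agent.P091 Vale.Agent.P091.H203

variable {T : ℝ} [hT : Fact (0 < T)]

theorem sqrt_log_ratio : Filter.Tendsto (fun u : ℝ => (u * Real.sqrt (Real.log (2 + u))) /
      (u * Real.sqrt (Real.log u * Real.log (Real.log (Real.log u))))) Filter.atTop (nhds 0) := by
  have h1 := Real.tendsto_log_atTop
  have h3 : Filter.Tendsto (fun u : ℝ => Real.log (Real.log (Real.log u))) Filter.atTop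
      Filter.atTop := h1.comp (h1.comp h1)
  have hlim : Filter.Tendsto (fun u : ℝ => Real.sqrt 2 / Real.sqrt (Real.log (Real.log (Real.log u))))
      Filter.atTop (nhds 0) :=
    Filter.Tendsto.const_div_atTop (Real.tendsto_sqrt_atTop.comp h3) _
  refine squeeze_zero' ?_ ?_ hlim
  · filter_upwards [Filter.eventually_ge_atTop (0 : ℝ)] with u hu
    positivity
  · filter_upwards [Filter.eventually_ge_atTop (2 : ℝ), h3.eventually_gt_atTop 0] with u hu h3u
    have hu0 : 0 < u := by linarith
    have hlog : 0 < Real.log u := Real.log_pos (by linarith)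
    have h2 : Real.log (2 + u) ≤ 2 * Real.log u := by
      have : (2 : ℝ) * Real.log u = Real.log (u ^ 2) := by rw [Real.log_pow]; norm_num
      rw [this]
      apply Real.log_le_log (by linarith)
      nlinarith
    rw [mul_div_mul_left _ _ hu0.ne', Real.sqrt_mul hlog.le]
    have hs : 0 < Real.sqrt (Real.log u) := Real.sqrt_pos.2 hlog
    have hs3 : 0 < Real.sqrt (Real.log (Real.log (Real.log u))) := Real.sqrt_pos.2 h3u
    have h4 : Real.sqrt (Real.log (2 + u)) ≤ Real.sqrt 2 * Real.sqrt (Real.log u) := by
      rw [← Real.sqrt_mul (by norm_num)]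
      exact Real.sqrt_le_sqrt h2
    rw [div_le_div_iff₀ (by positivity) hs3]
    calc Real.sqrt (Real.log (2 + u)) * Real.sqrt (Real.log (Real.log (Real.log u)))
        ≤ Real.sqrt 2 * Real.sqrt (Real.log u) *
          Real.sqrt (Real.log (Real.log (Real.log u))) := by gcongr
      _ = _ := by ring

/-- `L √(log L)` contains a function with everywhere unbounded partial sums. -/
theorem divergence_sqrt_log (hML : MainLemma3 T) :
    ∃ f : AddCircle T → ℂ, Integrable f haarAddCircle ∧
      Integrable (fun x => ‖f x‖ * Real.sqrt (Real.log (2 + ‖f x‖))) haarAddCircle ∧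
      ∀ x : AddCircle T, ¬ BddAbove (Set.range fun N : ℕ =>
        ‖∑ k ∈ Finset.Icc (-(N : ℤ)) (N : ℤ), fourierCoeff f k * fourier k x‖) :=
  divergence_little_o3 hML (fun u => u * Real.sqrt (Real.log (2 + u)))
    (fun u hu => by positivity)
    (by
      intro u hu v hv huv
      have hu' : (0 : ℝ) ≤ u := hu
      have h1 : Real.log (2 + u) ≤ Real.log (2 + v) := Real.log_le_log (by linarith) (by linarith)
      show u * Real.sqrt (Real.log (2 + u)) ≤ v * Real.sqrt (Real.log (2 + v))
      exact mul_le_mul huv (Real.sqrt_le_sqrt h1) (Real.sqrt_nonneg _) (hu'.trans huv))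
    sqrt_log_ratio

end Vale.Agent.P091.H409
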