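import Vale.Agent.P091.H409.SumThm

set_option linter.all false

/-! Iterating the sum step and extracting trigonometric polynomials on the circle. -/

open MeasureTheory AddCircle Finset
open scoped Real

namespace Vale.Agent.P091.H409

variable {T : ℝ} [hT : Fact (0 < T)]

lemma SumSt.mono {K : ℕ} {p Hs : ℕ → ℝ} {D r γ e mlo var r' γ' e' mlo' var' : ℝ}
    (h : SumSt T K p Hs D r γ e mlo var) (hr : r' ≤ r) (hγ : γ ≤ γ') (he : e ≤ e')
    (hm : mlo' ≤ mlo) (hvar : var ≤ var') : SumSt T K p Hs D r' γ' e' mlo' var' := by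
  obtain ⟨P, δ, N, V, G, JN, C, hP1, hP2, hδ1, hδ2, hN1, hN2, hN3, hV1, hV2, hV3, hG1, hG2, hG3,
    hV4, hV5⟩ := h
  exact ⟨P, δ, N, V, G, JN, C, hP1, hP2, hδ1, hδ2, hN1, hN2,
    fun x => ⟨(hN3 x).1, hr.trans (hN3 x).2⟩, hV1, hV2, hV3, hG1, hG2.trans hγ,
    fun x hx => by have := hG3 x hx; linarith, hm.trans hV4, by linarith⟩

/-- iteration of the sum step -/
theorem sum_iter {K : ℕ} (hK : 1 ≤ K) {p Hs H v : ℕ → ℝ} {J : ℕ → ℕ} {a b η lam S : ℝ}
    (hB : ∀ k, k < K → BlockSt T (J k) (H k) (v k) a b)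
    (hp : ∀ k, 0 ≤ p k) (hv : ∀ k, k < K → 0 ≤ v k) (hH : ∀ k, k < K → 0 ≤ H k)
    (ha : 0 ≤ a) (hb : 0 ≤ b) (hη : 0 < η) (hlam : 0 < lam)
    (hHs : ∀ k, k < K → p k * (H k * ∏ i ∈ range k, ((2 * K * (J i + 1) : ℕ) : ℝ)) ≤ Hs k)
    (hS : ∑ k ∈ range K, p k ≤ S) :
    ∀ k, k ≤ K → SumSt T k p Hs (∏ i ∈ range k, ((2 * K * (J i + 1) : ℕ) : ℝ))
      (1 - k / (2 * K)) (k * (η + 1 / lam ^ 2)) (k * (η + lam * S))
      (∑ i ∈ range k, p i * v i * (1 / 2) * a) (∑ i ∈ range k, ((p i * v i) ^ 2 * b + η)) := by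
  have hK' : (1 : ℝ) ≤ K := by exact_mod_cast hK
  have hK0 : (0 : ℝ) < K := by linarith
  intro k
  induction k with
  | zero =>
    intro _
    have h := sumSt_zero (T := T) p Hs
    simpa using h
  | succ k ih =>
    intro hk
    have hkK : k < K := hk
    have hst := ih hkK.le
    have hkr : (k : ℝ) + 1 ≤ K := by exact_mod_cast hk
    have hr1 : 1 - (k : ℝ) / (2 * K) ≤ 1 := by
      have : 0 ≤ (k : ℝ) / (2 * K) := by positivity
      linarith
    have hrk : (1 : ℝ) / 2 ≤ 1 - (k : ℝ) / (2 * K) := by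
      have : (k : ℝ) / (2 * K) ≤ 1 / 2 := by
        rw [div_le_div_iff₀ (by positivity) (by norm_num)]; linarith
      linarith
    have hr0 : 0 ≤ 1 - (k : ℝ) / (2 * K) - 1 / (2 * K) := by
      have : (k : ℝ) / (2 * K) + 1 / (2 * K) ≤ 1 := by
        rw [← add_div, div_le_one (by positivity)]; linarith
      linarith
    have h := sum_step (Jδ := 2 * K * (J k + 1)) (ηr := 1 / (2 * K)) hst (hB k hkK) hr1 hr0
      (hv k hkK) (Finset.prod_nonneg fun i _ => Nat.cast_nonneg _) hp
      (hHs k hkK) hη (by positivity) hlam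
      (by push_cast; field_simp; exact le_rfl) (by positivity)
    rw [Finset.prod_range_succ, Finset.sum_range_succ, Finset.sum_range_succ]
    refine h.mono ?_ ?_ ?_ ?_ ?_
    · push_cast; rw [add_div]; linarith
    · push_cast; linarith
    · push_cast
      have h1 : ∑ k ∈ range k, p k ≤ S := by
        refine le_trans ?_ hS
        exact Finset.sum_le_sum_of_subset_of_nonneg
          (Finset.range_subset_range.mpr hkK.le) fun i _ _ => hp i
      have h2 := mul_le_mul_of_nonneg_left h1 hlam.le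
      linarith
    · have h1 : 0 ≤ p k * v k := mul_nonneg (hp k) (hv k hkK)
      have h2 := mul_le_mul_of_nonneg_left hrk h1
      have h3 := mul_le_mul_of_nonneg_right h2 ha
      linarith
    · have h1 : 0 ≤ p k * v k := mul_nonneg (hp k) (hv k hkK)
      have h2 : p k * v k * (1 - (k : ℝ) / (2 * K)) ≤ p k * v k :=
        mul_le_of_le_one_right h1 hr1
      have h3 : 0 ≤ p k * v k * (1 - (k : ℝ) / (2 * K)) := mul_nonneg h1 (by linarith)
      have h4 : (p k * v k * (1 - (k : ℝ) / (2 * K))) ^ 2 ≤ (p k * v k) ^ 2 :=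
        pow_le_pow_left₀ h3 h2 2
      have h5 := mul_le_mul_of_nonneg_right h4 hb
      linarith

lemma trigSum_eq_ev {q : ℤ →₀ ℂ} (hq : ∀ k ∈ q.support, 0 ≤ k) (n : ℕ) (x : AddCircle T) :
    trigSum (⇑q) n x = ev (trunc (n + 1) q) x := by
  have hs : (trunc (n + 1) q).support ⊆ Finset.Icc (-(n : ℤ)) n := by
    intro k hk
    have h1 := hq k (support_trunc _ _ hk)
    have h2 : k < n + 1 := by
      by_contra hc
      rw [Finsupp.mem_support_iff, trunc_apply, if_neg hc] at hk
      exact hk rfl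
    rw [Finset.mem_Icc]; omega
  rw [ev_eq_sum_of_subset _ x hs]
  unfold trigSum
  refine Finset.sum_congr rfl fun k hk => ?_
  rw [trunc_apply, if_pos]
  have := (Finset.mem_Icc.mp hk).2
  omega

/-- Chebyshev and passage to the circle -/
theorem extract {K : ℕ} {p Hs : ℕ → ℝ} {D r γ e mlo var l : ℝ}
    (h : SumSt T K p Hs D r γ e mlo var) (hm : 0 < mlo) (hl : l < mlo / 2 - e) :
    ∃ (d : ℕ) (P : ℕ → ℤ → ℂ),
      (∀ k, k < K → ∀ x : AddCircle T, ‖trigSum (P k) d x‖ ≤ Hs k) ∧
      (∀ k, k < K → ∫ x, ‖(trigSum (P k) d x : ℂ)‖ ∂(haarAddCircle (T := T)) ≤ p k) ∧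
      (haarAddCircle {x : AddCircle T | ∀ n : ℕ, n ≤ d →
        ‖trigSum (fun j => ∑ k ∈ Finset.range K, P k j) n x‖ ≤ l}).toReal ≤
        γ + 4 * var / mlo ^ 2 := by
  obtain ⟨P, δ, N, V, G, JN, C, hP1, hP2, hδ1, hδ2, hN1, hN2, hN3, hV1, hV2, hV3, hG1, hG2, hG3,
    hV4, hV5⟩ := h
  obtain ⟨M, hM⟩ := exists_small_family (range K) (fun k => if k < K then P k else 0)
    (fun k hk => by
      have : ¬ k < K := fun h => hk (Finset.mem_range.mpr h)
      simp [this])
  have hsm : ∀ k, k < K → Small M (P k) := by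
    intro k hk
    have := hM M le_rfl k
    simpa [hk] using this
  set N₀ : ℕ := M + JN + 1 with hN₀
  set f : ℤ →₀ ℂ := ∑ k ∈ range K, P k with hf
  set P' : ℕ → ℤ →₀ ℂ := fun k => shiftBy N₀ (P k) with hP'
  have hsupp : ∀ k, k < K → ∀ a ∈ (P' k).support, 0 ≤ a ∧ a < 2 * N₀ + 1 := by
    intro k hk a ha
    rw [Finsupp.mem_support_iff, hP'] at ha
    simp only at ha
    rw [shiftBy_apply] at ha
    have h1 := hsm k hk _ (Finsupp.mem_support_iff.mpr ha)
    have h2 := neg_abs_le (a - (N₀ : ℤ))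
    have h3 := le_abs_self (a - (N₀ : ℤ))
    have h4 := abs_nonneg (a - (N₀ : ℤ))
    have h5 : (N₀ : ℤ) = M + JN + 1 := by rw [hN₀]; push_cast; ring
    omega
  have hfs : ∀ a ∈ (shiftBy N₀ f).support, 0 ≤ a := by
    intro a ha
    rw [Finsupp.mem_support_iff, shiftBy_apply, hf, Finsupp.finsetSum_apply] at ha
    obtain ⟨k, hk, hne⟩ := Finset.exists_ne_zero_of_sum_ne_zero ha
    refine (hsupp k (Finset.mem_range.mp hk) a ?_).1
    rw [Finsupp.mem_support_iff, hP']
    simp only
    rw [shiftBy_apply]; exact hne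
  have hfull : ∀ k, k < K → ∀ x : AddCircle T,
      trigSum (⇑(P' k)) (2 * N₀) x = fourier N₀ x * ev (P k) x := by
    intro k hk x
    rw [trigSum_eq_ev (fun a ha => (hsupp k hk a ha).1), trunc_of_lt, hP']
    · simp only; rw [ev_shiftBy]
    · intro a ha
      have := (hsupp k hk a ha).2
      push_cast; exact this
  have hsumeq : (fun j => ∑ k ∈ Finset.range K, (⇑(P' k) : ℤ → ℂ) j) = ⇑(shiftBy N₀ f) := by
    funext j
    rw [shiftBy_apply, hf, Finsupp.finsetSum_apply]
    refine Finset.sum_congr rfl fun k _ => ?_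
    rw [hP']; simp only; rw [shiftBy_apply]
  set μ : ℝ := ∫ x, V x ∂haarAddCircle with hμ
  have hμ0 : 0 < μ := hm.trans_le hV4
  refine ⟨2 * N₀, fun k => ⇑(P' k), ?_, ?_, ?_⟩
  · intro k hk x
    rw [hfull k hk, norm_mul, norm_fourier, one_mul]
    exact hP1 k hk x
  · intro k hk
    refine le_trans (le_of_eq ?_) (hP2 k hk)
    refine integral_congr_ae (Filter.Eventually.of_forall fun x => ?_)
    simp only
    rw [hfull k hk, norm_mul, norm_fourier, one_mul]
  · simp only [hsumeq]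
    have hsub : {x : AddCircle T | ∀ n : ℕ, n ≤ 2 * N₀ → ‖trigSum (⇑(shiftBy N₀ f)) n x‖ ≤ l} ⊆
        Gᶜ ∪ {x | (μ / 2) ^ 2 ≤ (V x - μ) ^ 2} := by
      intro x hx
      by_contra hc
      simp only [Set.mem_union, Set.mem_compl_iff, Set.mem_setOf_eq, not_or, not_not, not_le] at hc
      obtain ⟨hxG, hxV⟩ := hc
      have hNx := abs_le.mp (hN2 x)
      have hN₀' : (N₀ : ℤ) = M + JN + 1 := by rw [hN₀]; push_cast; ring
      obtain ⟨n, hn⟩ : ∃ n : ℕ, (n : ℤ) = N₀ + N x - 1 := ⟨((N₀ : ℤ) + N x - 1).toNat, by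
        rw [Int.toNat_of_nonneg]; omega⟩
      have hn2 : n ≤ 2 * N₀ := by
        have : (n : ℤ) ≤ 2 * N₀ := by omega
        exact_mod_cast this
      have h1 := hx n hn2
      rw [trigSum_eq_ev hfs, trunc_shiftBy, ev_shiftBy, norm_mul, norm_fourier, one_mul] at h1
      have h2 : (n : ℤ) + 1 - (N₀ : ℤ) = N x := by omega
      rw [h2] at h1
      have h3 := hG3 x hxG
      have h4 : (fourier (-N x) x * ev (trunc (N x) f) x).im ≤ ‖ev (trunc (N x) f) x‖ := by
        refine (Complex.im_le_norm _).trans (le_of_eq ?_)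
        rw [norm_mul, norm_fourier, one_mul]
      have h5 : μ / 2 < V x := by
        by_contra hc2
        push Not at hc2
        nlinarith
      linarith
    have hVint : Integrable V (haarAddCircle (T := T)) :=
      Integrable.of_bound hV1.aestronglyMeasurable C
        (Filter.Eventually.of_forall fun x => by rw [Real.norm_of_nonneg (hV2 x)]; exact hV3 x)
    have hV2int : Integrable (fun x => V x ^ 2) (haarAddCircle (T := T)) :=
      Integrable.of_bound (hV1.pow_const 2).aestronglyMeasurable (C ^ 2)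
        (Filter.Eventually.of_forall fun x => by
          rw [norm_pow, Real.norm_of_nonneg (hV2 x)]
          exact pow_le_pow_left₀ (hV2 x) (hV3 x) 2)
    have hsqexp : ∀ x : AddCircle T, (V x - μ) ^ 2 = V x ^ 2 - 2 * μ * V x + μ ^ 2 :=
      fun x => by ring
    have hi1 : Integrable (fun x : AddCircle T => 2 * μ * V x) haarAddCircle :=
      hVint.const_mul _
    have hi2 : Integrable (fun x : AddCircle T => V x ^ 2 - 2 * μ * V x) haarAddCircle :=
      hV2int.sub hi1
    have hvarint : ∫ x, (V x - μ) ^ 2 ∂(haarAddCircle (T := T)) ≤ var := by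
      simp only [hsqexp]
      rw [integral_add hi2 (integrable_const _), integral_sub hV2int hi1, integral_const_mul]
      simp only [integral_const, probReal_univ, smul_eq_mul, one_mul]
      rw [← hμ]
      nlinarith
    have hvarI : Integrable (fun x : AddCircle T => (V x - μ) ^ 2) haarAddCircle := by
      simp only [hsqexp]
      exact hi2.add (integrable_const _)
    have hmk := mul_meas_ge_le_integral_of_nonneg (μ := haarAddCircle (T := T))
      (f := fun x => (V x - μ) ^ 2) (Filter.Eventually.of_forall fun x => by positivity)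
      hvarI ((μ / 2) ^ 2)
    have hvar0 : 0 ≤ var := by
      refine le_trans ?_ hvarint
      exact integral_nonneg fun x => by positivity
    have h1 : (haarAddCircle {x : AddCircle T | ∀ n : ℕ, n ≤ 2 * N₀ →
        ‖trigSum (⇑(shiftBy N₀ f)) n x‖ ≤ l}).toReal ≤ (haarAddCircle Gᶜ).toReal +
        (haarAddCircle (T := T)).real {x | (μ / 2) ^ 2 ≤ (V x - μ) ^ 2} := by
      unfold Measure.real
      rw [← ENNReal.toReal_add (measure_ne_top _ _) (measure_ne_top _ _)]
      apply ENNReal.toReal_mono (by finiteness)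
      exact (measure_mono hsub).trans (measure_union_le _ _)
    have h2 : (haarAddCircle (T := T)).real {x | (μ / 2) ^ 2 ≤ (V x - μ) ^ 2} ≤
        4 * var / mlo ^ 2 := by
      have h3 : (μ / 2) ^ 2 * (haarAddCircle (T := T)).real
          {x | (μ / 2) ^ 2 ≤ (V x - μ) ^ 2} ≤ var := hmk.trans hvarint
      set R := (haarAddCircle (T := T)).real {x | (μ / 2) ^ 2 ≤ (V x - μ) ^ 2} with hR
      have hR0 : 0 ≤ R := measureReal_nonneg
      rw [le_div_iff₀ (by positivity)]
      have h4 : mlo ^ 2 ≤ μ ^ 2 := pow_le_pow_left₀ hm.le hV4 2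
      nlinarith
    linarith

end Vale.Agent.P091.H409
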