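import Vale.Agent.P091.H409.Integ

set_option linter.all false

/-! Fejer means of indicator functions, as trigonometric polynomials. -/

open MeasureTheory AddCircle Finset
open scoped Real

namespace Vale.Agent.P091.H409

variable {T : ℝ} [hT : Fact (0 < T)]

/-- Fejer weights -/
noncomputable def fw (J : ℕ) (k : ℤ) : ℝ := if |k| ≤ (J : ℤ) then 1 - |(k : ℝ)| / J else 0

lemma fw_nonneg (J : ℕ) (k : ℤ) : 0 ≤ fw J k := by
  unfold fw
  split_ifs with h
  · rw [sub_nonneg]
    have h1 : |(k : ℝ)| ≤ J := by exact_mod_cast h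
    exact div_le_one_of_le₀ h1 (Nat.cast_nonneg _)
  · exact le_rfl

lemma fw_le_one (J : ℕ) (k : ℤ) : fw J k ≤ 1 := by
  unfold fw
  split_ifs with h
  · have : 0 ≤ |(k : ℝ)| / J := by positivity
    linarith
  · exact zero_le_one

lemma fw_zero (J : ℕ) : fw J 0 = 1 := by
  unfold fw; simp

lemma fw_ge {J : ℕ} (hJ : 0 < J) (k : ℤ) : 1 - |(k : ℝ)| / J ≤ fw J k := by
  unfold fw
  split_ifs with h
  · exact le_rfl
  · push Not at h
    have hJ' : (0 : ℝ) < J := by exact_mod_cast hJ
    have h1 : (J : ℝ) < |(k : ℝ)| := by exact_mod_cast h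
    have : 1 ≤ |(k : ℝ)| / J := by rw [le_div_iff₀ hJ']; linarith
    linarith

lemma fw_neg (J : ℕ) (k : ℤ) : fw J (-k) = fw J k := by
  unfold fw; simp

/-- the Fejer kernel -/
noncomputable def fejer (J : ℕ) : ℤ →₀ ℂ :=
  Finsupp.onFinset (Finset.Icc (-(J : ℤ)) J) (fun k => (fw J k : ℂ)) fun k hk => by
    rw [Finset.mem_Icc]
    by_contra hc
    apply hk
    unfold fw
    rw [if_neg, Complex.ofReal_zero]
    intro h
    rw [abs_le] at h
    exact hc h

lemma fejer_apply (J : ℕ) (k : ℤ) : fejer J k = (fw J k : ℂ) := rfl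

lemma support_fejer (J : ℕ) : (fejer J).support ⊆ Finset.Icc (-(J : ℤ)) J :=
  Finsupp.support_onFinset_subset

lemma ev_fejer (J : ℕ) (t : ℝ) :
    ev (fejer J) (t : AddCircle T) = ((fk J J (t / T) : ℝ) : ℂ) := by
  rw [ev_eq_sum_of_subset _ _ (support_fejer J)]
  have h := trigSum_fcoef (T := T) (K := J) (n := 1) (N := J) one_pos le_rfl (fun _ => 0) t
  unfold trigSum at h
  simp only [sum_range_one, sub_zero, Nat.cast_one, div_one] at h
  rw [← h]
  refine Finset.sum_congr rfl fun k hk => ?_
  have hk' : |k| ≤ (J : ℤ) := abs_le.mpr (Finset.mem_Icc.mp hk)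
  rw [fejer_apply]
  unfold fcoef fw
  rw [if_pos hk', if_pos hk']
  simp

lemma ev_fejer_im (J : ℕ) (x : AddCircle T) : (ev (fejer J) x).im = 0 := by
  obtain ⟨t, rfl⟩ := QuotientAddGroup.mk_surjective x
  have := ev_fejer (T := T) J t
  change (ev (fejer J) (t : AddCircle T)).im = 0
  rw [this, Complex.ofReal_im]

lemma ev_fejer_re_nonneg {J : ℕ} (hJ : 0 < J) (x : AddCircle T) :
    0 ≤ (ev (fejer J) x).re := by
  obtain ⟨t, rfl⟩ := QuotientAddGroup.mk_surjective x
  have := ev_fejer (T := T) J t
  change 0 ≤ (ev (fejer J) (t : AddCircle T)).re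
  rw [this, Complex.ofReal_re]
  exact fk_full_nonneg J hJ _

lemma ev_fejer_re_le {J : ℕ} (hJ : 0 < J) (x : AddCircle T) :
    (ev (fejer J) x).re ≤ J := by
  obtain ⟨t, rfl⟩ := QuotientAddGroup.mk_surjective x
  have := ev_fejer (T := T) J t
  change (ev (fejer J) (t : AddCircle T)).re ≤ J
  rw [this, Complex.ofReal_re]
  exact fk_full_le J hJ _

/-- Fejer means -/
noncomputable def smooth (J : ℕ) (g : AddCircle T → ℂ) : ℤ →₀ ℂ :=
  Finsupp.onFinset (Finset.Icc (-(J : ℤ)) J) (fun k => (fw J k : ℂ) * fourierCoeff g k)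
    fun k hk => by
      rw [Finset.mem_Icc]
      by_contra hc
      apply hk
      unfold fw
      rw [if_neg, Complex.ofReal_zero, zero_mul]
      intro h
      rw [abs_le] at h
      exact hc h

lemma smooth_apply (J : ℕ) (g : AddCircle T → ℂ) (k : ℤ) :
    smooth J g k = (fw J k : ℂ) * fourierCoeff g k := rfl

lemma support_smooth (J : ℕ) (g : AddCircle T → ℂ) :
    (smooth J g).support ⊆ Finset.Icc (-(J : ℤ)) J :=
  Finsupp.support_onFinset_subset

lemma fourier_sub_apply (k : ℤ) (x u : AddCircle T) :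
    (fourier k (x - u) : ℂ) = fourier k x * fourier (-k) u := by
  have h1 : (fourier (-k) u : ℂ) = fourier k (-u) := by
    rw [fourier_apply, fourier_apply, neg_smul, smul_neg]
  rw [h1, sub_eq_add_neg, fourier_apply, fourier_apply, fourier_apply, smul_add, toCircle_add]
  rfl

lemma ev_trunc_smooth {J : ℕ} {g : AddCircle T → ℂ} (hg : Integrable g (haarAddCircle (T := T)))
    (N : ℤ) (x : AddCircle T) :
    ev (trunc N (smooth J g)) x = ∫ u, ev (trunc N (fejer J)) (x - u) * g u ∂haarAddCircle := by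
  have hs1 : (trunc N (smooth J g)).support ⊆ Finset.Icc (-(J : ℤ)) J :=
    (support_trunc _ _).trans (support_smooth J g)
  have hs2 : (trunc N (fejer J)).support ⊆ Finset.Icc (-(J : ℤ)) J :=
    (support_trunc _ _).trans (support_fejer J)
  have h1 : ∀ u : AddCircle T, ev (trunc N (fejer J)) (x - u) * g u =
      ∑ k ∈ Finset.Icc (-(J : ℤ)) J,
        (trunc N (fejer J) k * fourier k x) * (fourier (-k) u • g u) := by
    intro u
    rw [ev_eq_sum_of_subset _ _ hs2, Finset.sum_mul]
    refine Finset.sum_congr rfl fun k _ => ?_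
    rw [fourier_sub_apply, smul_eq_mul]
    ring
  simp only [h1]
  rw [integral_finsetSum _ (fun k _ => (hg.fourier_smul _).const_mul _)]
  rw [ev_eq_sum_of_subset _ _ hs1]
  refine Finset.sum_congr rfl fun k _ => ?_
  rw [integral_const_mul]
  have h2 : ∫ u : AddCircle T, fourier (-k) u • g u ∂haarAddCircle = fourierCoeff g k := rfl
  rw [h2, trunc_apply, trunc_apply, smooth_apply, fejer_apply]
  split_ifs
  · ring
  · simp

lemma ev_smooth {J : ℕ} {g : AddCircle T → ℂ} (hg : Integrable g (haarAddCircle (T := T)))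
    (x : AddCircle T) :
    ev (smooth J g) x = ∫ u, ev (fejer J) (x - u) * g u ∂haarAddCircle := by
  have h := ev_trunc_smooth (J := J) hg (J + 1) x
  rwa [trunc_of_lt, trunc_of_lt] at h
  · intro k hk
    have := (Finset.mem_Icc.mp (support_fejer J hk)).2
    omega
  · intro k hk
    have := (Finset.mem_Icc.mp (support_smooth J g hk)).2
    omega

/-- indicator function with values in `ℂ` -/
noncomputable def ind (A : Set (AddCircle T)) : AddCircle T → ℂ := A.indicator fun _ => 1

lemma integrable_ind {A : Set (AddCircle T)} (hA : MeasurableSet A) :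
    Integrable (ind A) (haarAddCircle (T := T)) :=
  (integrable_const (1 : ℂ)).indicator hA

lemma norm_ind_le (A : Set (AddCircle T)) (x : AddCircle T) : ‖ind A x‖ ≤ 1 := by
  unfold ind
  by_cases h : x ∈ A <;> simp [h]

/-- Fejer mean of an indicator function -/
noncomputable def theta (J : ℕ) (A : Set (AddCircle T)) : ℤ →₀ ℂ := smooth J (ind A)

lemma theta_apply (J : ℕ) (A : Set (AddCircle T)) (k : ℤ) :
    theta J A k = (fw J k : ℂ) * fourierCoeff (ind A) k := rfl

lemma support_theta (J : ℕ) (A : Set (AddCircle T)) :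
    (theta J A).support ⊆ Finset.Icc (-(J : ℤ)) J := support_smooth J _

/-- the kernel as a real function -/
noncomputable def FK (J : ℕ) (x : AddCircle T) : ℝ := (ev (fejer J) x).re

lemma continuous_FK (J : ℕ) : Continuous (FK J : AddCircle T → ℝ) :=
  Complex.continuous_re.comp (continuous_ev _)

lemma ev_fejer_eq (J : ℕ) (x : AddCircle T) : ev (fejer J) x = (FK J x : ℂ) := by
  apply Complex.ext
  · simp [FK]
  · rw [ev_fejer_im]; simp

lemma ev_theta {J : ℕ} {A : Set (AddCircle T)} (hA : MeasurableSet A) (x : AddCircle T) :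
    ev (theta J A) x = ((∫ u in A, FK J (x - u) ∂haarAddCircle : ℝ) : ℂ) := by
  unfold theta
  rw [ev_smooth (integrable_ind hA), ← integral_complex_ofReal, ← integral_indicator hA]
  refine integral_congr_ae (Filter.Eventually.of_forall fun u => ?_)
  simp only
  rw [ev_fejer_eq]
  unfold ind
  by_cases hu : u ∈ A
  · simp [hu]
  · simp [hu]

lemma ev_trunc_theta {J : ℕ} {A : Set (AddCircle T)} (hA : MeasurableSet A) (N : ℤ)
    (x : AddCircle T) :
    ev (trunc N (theta J A)) x = ∫ u in A, ev (trunc N (fejer J)) (x - u) ∂haarAddCircle := by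
  unfold theta
  rw [ev_trunc_smooth (integrable_ind hA), ← integral_indicator hA]
  refine integral_congr_ae (Filter.Eventually.of_forall fun u => ?_)
  simp only
  unfold ind
  by_cases hu : u ∈ A
  · simp [hu]
  · simp [hu]

lemma ev_theta_im {J : ℕ} {A : Set (AddCircle T)} (hA : MeasurableSet A) (x : AddCircle T) :
    (ev (theta J A) x).im = 0 := by
  rw [ev_theta hA, Complex.ofReal_im]

lemma FK_nonneg {J : ℕ} (hJ : 0 < J) (x : AddCircle T) : 0 ≤ FK J x := ev_fejer_re_nonneg hJ x

lemma integrable_FK_sub (J : ℕ) (x : AddCircle T) :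
    Integrable (fun u => FK J (x - u)) (haarAddCircle (T := T)) :=
  integrable_cont ((continuous_FK J).comp (continuous_const.sub continuous_id))

lemma integral_FK (J : ℕ) : ∫ u : AddCircle T, FK J u ∂haarAddCircle = 1 := by
  have h : ((∫ u : AddCircle T, FK J u ∂haarAddCircle : ℝ) : ℂ) = 1 := by
    rw [← integral_complex_ofReal]
    simp only [← ev_fejer_eq]
    rw [integral_ev, fejer_apply, fw_zero, Complex.ofReal_one]
  exact_mod_cast h

lemma integral_FK_sub (J : ℕ) (x : AddCircle T) :
    ∫ u : AddCircle T, FK J (x - u) ∂haarAddCircle = 1 := by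
  rw [integral_sub_left_eq_self (fun u => FK J u) haarAddCircle x, integral_FK]

lemma ev_theta_re_nonneg {J : ℕ} (hJ : 0 < J) {A : Set (AddCircle T)} (hA : MeasurableSet A)
    (x : AddCircle T) : 0 ≤ (ev (theta J A) x).re := by
  rw [ev_theta hA, Complex.ofReal_re]
  exact integral_nonneg fun u => FK_nonneg hJ _

lemma ev_theta_re_le_one {J : ℕ} (hJ : 0 < J) {A : Set (AddCircle T)} (hA : MeasurableSet A)
    (x : AddCircle T) : (ev (theta J A) x).re ≤ 1 := by
  rw [ev_theta hA, Complex.ofReal_re, ← integral_FK_sub (T := T) J x]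
  exact setIntegral_le_integral (integrable_FK_sub J x)
    (Filter.Eventually.of_forall fun u => FK_nonneg hJ _)

lemma ev_theta_eq_re {J : ℕ} {A : Set (AddCircle T)} (hA : MeasurableSet A)
    (x : AddCircle T) : ev (theta J A) x = (((ev (theta J A) x).re : ℝ) : ℂ) := by
  apply Complex.ext
  · simp
  · rw [ev_theta_im hA]; simp

lemma theta_zero {J : ℕ} {A : Set (AddCircle T)} (hA : MeasurableSet A) :
    theta J A 0 = (((haarAddCircle A).toReal : ℝ) : ℂ) := by
  rw [theta_apply, fw_zero, Complex.ofReal_one, one_mul]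
  unfold fourierCoeff ind
  simp only [neg_zero, fourier_zero, one_smul]
  rw [integral_indicator hA]
  simp [Measure.real]

/-- a finite measurable partition -/
lemma sum_theta {ι : Type*} {J : ℕ} (hJ : 0 < J) {s : Finset ι} {A : ι → Set (AddCircle T)}
    (hA : ∀ i, MeasurableSet (A i)) (hpart : ∀ x : AddCircle T, ∃! i, i ∈ s ∧ x ∈ A i)
    (x : AddCircle T) : ∑ i ∈ s, (ev (theta J (A i)) x).re = 1 := by
  have h1 : ∀ i, (ev (theta J (A i)) x).re =
      ∫ u, (A i).indicator (fun u => FK J (x - u)) u ∂haarAddCircle := by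
    intro i
    rw [ev_theta (hA i), Complex.ofReal_re, integral_indicator (hA i)]
  simp only [h1]
  rw [← integral_finsetSum _ (fun i _ => (integrable_FK_sub J x).indicator (hA i)),
    ← integral_FK_sub (T := T) J x]
  refine integral_congr_ae (Filter.Eventually.of_forall fun u => ?_)
  simp only
  obtain ⟨i, ⟨hi, hu⟩, huniq⟩ := hpart u
  rw [Finset.sum_eq_single i]
  · rw [Set.indicator_of_mem hu]
  · intro j hj hji
    rw [Set.indicator_of_notMem]
    intro huj
    exact hji (huniq j ⟨hj, huj⟩)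
  · intro h; exact absurd hi h

lemma fourierCoeff_ind_sq {A : Set (AddCircle T)} (hA : MeasurableSet A) :
    HasSum (fun k : ℤ => ‖fourierCoeff (ind A) k‖ ^ 2) (haarAddCircle A).toReal := by
  have hm : MemLp (ind A) 2 (haarAddCircle (T := T)) := by
    unfold ind
    exact (memLp_const (1 : ℂ)).indicator hA
  have h := hasSum_sq_fourierCoeff (T := T) hm.toLp
  have h1 : ∀ k, fourierCoeff (⇑(hm.toLp)) k = fourierCoeff (ind A) k := by
    intro k
    rw [fourierCoeff_congr_ae hm.coeFn_toLp]
  simp only [h1] at h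
  have h2 : ∫ t : AddCircle T, ‖(hm.toLp) t‖ ^ 2 ∂haarAddCircle = (haarAddCircle A).toReal := by
    have h3 : ∫ t : AddCircle T, ‖(hm.toLp) t‖ ^ 2 ∂haarAddCircle =
        ∫ t : AddCircle T, A.indicator (fun _ => (1 : ℝ)) t ∂haarAddCircle := by
      refine integral_congr_ae ?_
      filter_upwards [hm.coeFn_toLp] with t ht
      rw [ht]
      unfold ind
      by_cases h : t ∈ A <;> simp [h]
    rw [h3, integral_indicator hA]
    simp [Measure.real]
  rwa [h2] at h

lemma l2_theta_le {J : ℕ} {A : Set (AddCircle T)} (hA : MeasurableSet A) :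
    l2 (theta J A) ≤ (haarAddCircle A).toReal := by
  unfold l2
  have h := fourierCoeff_ind_sq hA
  refine le_trans ?_ (h.summable.sum_le_tsum (theta J A).support (fun _ _ => by positivity)
    |>.trans (le_of_eq h.tsum_eq))
  refine Finset.sum_le_sum fun k _ => ?_
  rw [theta_apply, norm_mul, mul_pow, Complex.norm_real, Real.norm_of_nonneg (fw_nonneg J k)]
  have h1 : fw J k ^ 2 ≤ 1 := by
    have := fw_nonneg J k
    have := fw_le_one J k
    nlinarith
  have h2 : 0 ≤ ‖fourierCoeff (ind A) k‖ ^ 2 := by positivity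
  nlinarith

/-- convergence of the Fejer means on the set -/
theorem theta_conv {A : Set (AddCircle T)} (hA : MeasurableSet A) {ε : ℝ} (hε : 0 < ε) :
    ∃ J₀ : ℕ, ∀ J : ℕ, J₀ ≤ J →
      (haarAddCircle A).toReal - ε ≤ ∫ x in A, (ev (theta J A) x).re ∂haarAddCircle := by
  have h := fourierCoeff_ind_sq hA
  -- finite part
  have hev := h.eventually (lt_mem_nhds (by linarith : (haarAddCircle A).toReal - ε / 2 <
    (haarAddCircle A).toReal))
  obtain ⟨s, hs⟩ := Filter.eventually_atTop.mp hev
  have hs1 := hs s le_rfl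
  -- the integral
  have hint : ∀ J : ℕ, ∫ x in A, (ev (theta J A) x).re ∂haarAddCircle =
      ∑ k ∈ (theta J A).support, fw J k * ‖fourierCoeff (ind A) k‖ ^ 2 := by
    intro J
    have h1 : ((∫ x in A, (ev (theta J A) x).re ∂haarAddCircle : ℝ) : ℂ) =
        ((∑ k ∈ (theta J A).support, fw J k * ‖fourierCoeff (ind A) k‖ ^ 2 : ℝ) : ℂ) := by
      rw [← integral_complex_ofReal]
      have h2 : ∀ x : AddCircle T, (((ev (theta J A) x).re : ℝ) : ℂ) =
          ∑ k ∈ (theta J A).support, theta J A k * fourier k x := by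
        intro x
        rw [← ev_theta_eq_re hA, ev_eq_sum]
      simp only [h2]
      rw [integral_finsetSum _ (fun k _ => (integrable_cont (by fun_prop)).integrableOn)]
      push_cast
      refine Finset.sum_congr rfl fun k _ => ?_
      rw [integral_const_mul, theta_apply]
      have h3 : ∫ x in A, (fourier k x : ℂ) ∂haarAddCircle =
          (starRingEnd ℂ) (fourierCoeff (ind A) k) := by
        unfold fourierCoeff ind
        rw [← integral_conj, ← integral_indicator hA]
        refine integral_congr_ae (Filter.Eventually.of_forall fun x => ?_)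
        by_cases hx : x ∈ A
        · simp [hx, fourier_neg]
        · simp [hx]
      rw [h3, mul_assoc, Complex.mul_conj, Complex.normSq_eq_norm_sq]
      push_cast; rfl
    exact_mod_cast h1
  -- weights
  have hw : ∀ k : ℤ, Filter.Tendsto (fun J : ℕ => fw J k) Filter.atTop (nhds 1) := by
    intro k
    have h1 : Filter.Tendsto (fun J : ℕ => 1 - |(k : ℝ)| / J) Filter.atTop (nhds (1 - 0)) :=
      tendsto_const_nhds.sub (tendsto_const_div_atTop_nhds_zero_nat _)
    rw [sub_zero] at h1
    refine tendsto_of_tendsto_of_tendsto_of_le_of_le' h1 tendsto_const_nhds ?_ ?_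
    · filter_upwards [Filter.eventually_ge_atTop k.natAbs] with J hJ
      unfold fw
      rw [if_pos]
      rw [Int.abs_eq_natAbs]
      exact_mod_cast hJ
    · exact Filter.Eventually.of_forall fun J => fw_le_one J k
  have hlim : Filter.Tendsto (fun J : ℕ => ∑ k ∈ s, fw J k * ‖fourierCoeff (ind A) k‖ ^ 2)
      Filter.atTop (nhds (∑ k ∈ s, 1 * ‖fourierCoeff (ind A) k‖ ^ 2)) :=
    tendsto_finset_sum _ fun k _ => (hw k).mul_const _
  simp only [one_mul] at hlim
  have hev2 := hlim.eventually (lt_mem_nhds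
    (by linarith : (haarAddCircle A).toReal - ε < ∑ k ∈ s, ‖fourierCoeff (ind A) k‖ ^ 2))
  obtain ⟨J₀, hJ₀⟩ := Filter.eventually_atTop.mp hev2
  refine ⟨J₀, fun J hJ => ?_⟩
  rw [hint]
  refine (hJ₀ J hJ).le.trans ?_
  calc ∑ k ∈ s, fw J k * ‖fourierCoeff (ind A) k‖ ^ 2
      ≤ ∑ k ∈ s ∪ (theta J A).support, fw J k * ‖fourierCoeff (ind A) k‖ ^ 2 :=
        Finset.sum_le_sum_of_subset_of_nonneg Finset.subset_union_left fun k _ _ =>
          mul_nonneg (fw_nonneg J k) (by positivity)
    _ = ∑ k ∈ (theta J A).support, fw J k * ‖fourierCoeff (ind A) k‖ ^ 2 := by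
        symm
        refine Finset.sum_subset Finset.subset_union_right fun k _ hk => ?_
        rw [Finsupp.notMem_support_iff, theta_apply] at hk
        rcases mul_eq_zero.mp hk with h | h
        · rw [Complex.ofReal_eq_zero.mp h, zero_mul]
        · rw [h]; simp

end Vale.Agent.P091.H409
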