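import Vale.Agent.P091.H409.Fejer

set_option linter.all false

/-! Closed forms and decay for the Fejer kernel and its negative frequency part. -/

open MeasureTheory AddCircle Finset
open scoped Real

namespace Vale.Agent.P091.H409

variable {T : ℝ} [hT : Fact (0 < T)]

lemma geom_aux (z : ℂ) (J : ℕ) :
    (∑ j ∈ range J, ((J : ℂ) - j - 1) * z ^ (j + 1)) * (1 - z) ^ 2 =
      J * z * (1 - z) - z * (1 - z ^ J) := by
  induction J with
  | zero => simp
  | succ J ih =>
    have h1 : ∑ j ∈ range (J + 1), (((J + 1 : ℕ) : ℂ) - j - 1) * z ^ (j + 1) =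
        ∑ j ∈ range J, ((J : ℂ) - j - 1) * z ^ (j + 1) + z * ∑ j ∈ range J, z ^ j := by
      rw [sum_range_succ, Finset.mul_sum, ← sum_add_distrib]
      have : (((J + 1 : ℕ) : ℂ) - J - 1) * z ^ (J + 1) = 0 := by push_cast; ring
      rw [this, add_zero]
      refine sum_congr rfl fun j _ => ?_
      push_cast; ring
    have h2 : (∑ j ∈ range J, z ^ j) * (1 - z) = 1 - z ^ J := geom_sum_mul_neg z J
    rw [h1, add_mul, ih]
    have h3 : z * (∑ j ∈ range J, z ^ j) * (1 - z) ^ 2 = z * (1 - z ^ J) * (1 - z) := by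
      rw [← h2]; ring
    rw [h3]
    push_cast; ring

/-- `e(t)` -/
noncomputable def zt (t : ℝ) : ℂ := ⟨Real.cos (2 * π * t), -Real.sin (2 * π * t)⟩

lemma zt_eq_exp (t : ℝ) : zt t = Complex.exp (-(2 * π * Complex.I * t)) := by
  have h : -(2 * π * Complex.I * t) = ((-(2 * π * t) : ℝ) : ℂ) * Complex.I := by push_cast; ring
  rw [h, Complex.exp_mul_I, ← Complex.ofReal_cos, ← Complex.ofReal_sin, Real.cos_neg, Real.sin_neg]
  apply Complex.ext
  · simp only [zt, Complex.add_re, Complex.mul_re, Complex.ofReal_re, Complex.ofReal_im,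
      Complex.I_re, Complex.I_im]
    ring
  · simp only [zt, Complex.add_im, Complex.mul_im, Complex.ofReal_re, Complex.ofReal_im,
      Complex.I_re, Complex.I_im]
    ring

lemma one_sub_zt (t : ℝ) :
    1 - zt t = 2 * (Real.sin (π * t) : ℂ) * ⟨Real.sin (π * t), Real.cos (π * t)⟩ := by
  have h1 : 2 * π * t = 2 * (π * t) := by ring
  have h2 := Real.sin_sq_add_cos_sq (π * t)
  apply Complex.ext
  · simp only [zt, h1, Real.cos_two_mul, Complex.sub_re, Complex.one_re, Complex.mul_re,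
      Complex.re_ofNat, Complex.ofReal_re, Complex.im_ofNat, Complex.ofReal_im, mul_zero, sub_zero,
      Complex.mul_im, zero_mul, add_zero, zero_add]
    linarith
  · simp only [zt, h1, Real.sin_two_mul, Complex.sub_im, Complex.one_im, Complex.mul_im,
      Complex.re_ofNat, Complex.ofReal_re, Complex.im_ofNat, Complex.ofReal_im, mul_zero, sub_zero,
      Complex.mul_re, zero_mul, add_zero, zero_add]
    ring

lemma norm_one_sub_zt (t : ℝ) : ‖1 - zt t‖ = 2 * |Real.sin (π * t)| := by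
  rw [one_sub_zt, norm_mul, norm_mul]
  have h1 : ‖(⟨Real.sin (π * t), Real.cos (π * t)⟩ : ℂ)‖ = 1 := by
    rw [Complex.norm_def, Complex.normSq_mk, Real.sqrt_eq_one]
    have := Real.sin_sq_add_cos_sq (π * t)
    nlinarith
  rw [h1, mul_one, Complex.norm_real, Real.norm_eq_abs]
  simp

lemma zt_div (t : ℝ) (ht : Real.sin (π * t) ≠ 0) :
    zt t / (1 - zt t) = -1 / 2 - (ct t / 2 : ℝ) * Complex.I := by
  have h0 : 1 - zt t ≠ 0 := by
    rw [← norm_ne_zero_iff, norm_one_sub_zt]
    have := abs_pos.mpr ht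
    positivity
  rw [div_eq_iff h0, one_sub_zt]
  have h1 : 2 * π * t = 2 * (π * t) := by ring
  have h2 := Real.sin_sq_add_cos_sq (π * t)
  unfold ct
  have hs : Real.sin (π * t) ≠ 0 := ht
  apply Complex.ext
  · simp only [zt, h1, Complex.mul_re, Complex.sub_re, Complex.div_ofNat_re, Complex.neg_re,
      Complex.one_re, Complex.ofReal_re, Complex.I_re, mul_zero, Complex.ofReal_im, Complex.I_im,
      mul_one, sub_self, sub_zero, Complex.re_ofNat, Complex.im_ofNat, zero_mul, Complex.mul_im,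
      add_zero, Complex.sub_im, Complex.div_ofNat_im, Complex.neg_im, Complex.one_im, neg_zero,
      zero_div, zero_add, zero_sub, Real.cos_two_mul]
    field_simp
    nlinarith
  · simp only [zt, h1, Complex.mul_im, Complex.sub_re, Complex.div_ofNat_re, Complex.neg_re,
      Complex.one_re, Complex.ofReal_re, Complex.I_re, mul_zero, Complex.ofReal_im, Complex.I_im,
      mul_one, sub_self, sub_zero, Complex.re_ofNat, Complex.im_ofNat, zero_mul, Complex.mul_re,
      add_zero, Complex.sub_im, Complex.div_ofNat_im, Complex.neg_im, Complex.one_im, neg_zero,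
      zero_div, zero_add, zero_sub, Real.sin_two_mul]
    field_simp
    ring

lemma norm_zt (t : ℝ) : ‖zt t‖ = 1 := by
  rw [Complex.norm_def]
  unfold zt
  rw [Complex.normSq_mk, Real.sqrt_eq_one]
  have := Real.sin_sq_add_cos_sq (2 * π * t)
  nlinarith

lemma fourier_neg_coe (k : ℕ) (t : ℝ) :
    (fourier (-(k : ℤ)) ((t * T : ℝ) : AddCircle T) : ℂ) = zt t ^ k := by
  rw [fourier_coe_apply, zt_eq_exp, ← Complex.exp_nat_mul]
  congr 1
  have hT0 : (T : ℂ) ≠ 0 := by exact_mod_cast hT.out.ne'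
  push_cast
  field_simp

lemma ev_trunc_fejer (J : ℕ) (t : ℝ) :
    ev (trunc 0 (fejer J)) ((t * T : ℝ) : AddCircle T) =
      ∑ j ∈ range J, ((1 - ((j : ℝ) + 1) / J : ℝ) : ℂ) * zt t ^ (j + 1) := by
  have hs : (trunc 0 (fejer J)).support ⊆ (range J).image (fun j : ℕ => -((j : ℤ) + 1)) := by
    intro k hk
    have h1 := Finset.mem_Icc.mp (support_fejer J (support_trunc _ _ hk))
    have h2 : k < 0 := by
      by_contra hc
      rw [Finsupp.mem_support_iff, trunc_apply, if_neg hc] at hk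
      exact hk rfl
    rw [Finset.mem_image]
    exact ⟨(-k).toNat - 1, by rw [Finset.mem_range]; omega, by omega⟩
  rw [ev_eq_sum_of_subset _ _ hs, Finset.sum_image (by intro a _ b _ h; simp only at h; omega)]
  refine Finset.sum_congr rfl fun j hj => ?_
  have hj' := Finset.mem_range.mp hj
  have h1 : (-((j : ℤ) + 1)) = -((j + 1 : ℕ) : ℤ) := by push_cast; ring
  rw [trunc_apply, if_pos (by omega), h1, fourier_neg_coe, fejer_apply]
  congr 2
  unfold fw
  rw [if_pos]
  · push_cast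
    rw [abs_neg, abs_of_nonneg (by positivity)]
  · rw [abs_neg, abs_of_nonneg (by positivity)]
    omega

lemma trunc_fejer_close {J : ℕ} (hJ : 0 < J) {t : ℝ} (ht : Real.sin (π * t) ≠ 0) :
    ‖ev (trunc 0 (fejer J)) ((t * T : ℝ) : AddCircle T) -
      (-1 / 2 - (ct t / 2 : ℝ) * Complex.I)‖ ≤ 1 / (2 * J * Real.sin (π * t) ^ 2) := by
  have hJ' : (J : ℂ) ≠ 0 := by exact_mod_cast hJ.ne'
  have hJr : (0 : ℝ) < J := by exact_mod_cast hJ
  have h0 : 1 - zt t ≠ 0 := by
    rw [← norm_ne_zero_iff, norm_one_sub_zt]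
    have := abs_pos.mpr ht
    positivity
  rw [ev_trunc_fejer, ← zt_div t ht]
  have h1 : (∑ j ∈ range J, ((1 - ((j : ℝ) + 1) / J : ℝ) : ℂ) * zt t ^ (j + 1)) -
      zt t / (1 - zt t) = -(zt t * (1 - zt t ^ J)) / (J * (1 - zt t) ^ 2) := by
    have h2 : (∑ j ∈ range J, ((1 - ((j : ℝ) + 1) / J : ℝ) : ℂ) * zt t ^ (j + 1)) =
        (∑ j ∈ range J, ((J : ℂ) - j - 1) * zt t ^ (j + 1)) / J := by
      rw [Finset.sum_div]
      refine Finset.sum_congr rfl fun j _ => ?_
      push_cast
      field_simp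
      ring
    rw [h2]
    have h3 := geom_aux (zt t) J
    have h4 : (∑ j ∈ range J, ((J : ℂ) - j - 1) * zt t ^ (j + 1)) =
        (J * zt t * (1 - zt t) - zt t * (1 - zt t ^ J)) / (1 - zt t) ^ 2 := by
      rw [eq_div_iff (pow_ne_zero 2 h0)]; exact h3
    rw [h4]
    field_simp
    ring
  rw [h1, norm_div, norm_neg, norm_mul, norm_mul, norm_pow, norm_one_sub_zt, norm_zt, one_mul]
  have h5 : ‖1 - zt t ^ J‖ ≤ 2 := by
    refine (norm_sub_le _ _).trans ?_
    rw [norm_one, norm_pow, norm_zt, one_pow]; norm_num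
  have h6 : 0 < Real.sin (π * t) ^ 2 := by positivity
  rw [mul_pow, sq_abs, Complex.norm_natCast]
  rw [div_le_div_iff₀ (by positivity) (by positivity)]
  nlinarith [mul_pos hJr h6]

lemma FK_le {J : ℕ} (hJ : 0 < J) {t : ℝ} (ht : Real.sin (π * t) ≠ 0) :
    FK J ((t * T : ℝ) : AddCircle T) ≤ 1 / (J * Real.sin (π * t) ^ 2) := by
  have hJr : (0 : ℝ) < J := by exact_mod_cast hJ
  have hT0 : T ≠ 0 := hT.out.ne'
  unfold FK
  rw [ev_fejer, Complex.ofReal_re, mul_div_assoc, div_self hT0, mul_one, fk_full J hJ]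
  have h0 : 1 - zt t ≠ 0 := by
    rw [← norm_ne_zero_iff, norm_one_sub_zt]
    have := abs_pos.mpr ht
    positivity
  have h1 : (∑ k ∈ range J, Real.cos (2 * π * k * t)) ^ 2 +
      (∑ k ∈ range J, Real.sin (2 * π * k * t)) ^ 2 = ‖∑ k ∈ range J, zt t ^ k‖ ^ 2 := by
    have h2 : ∑ k ∈ range J, zt t ^ k =
        ⟨∑ k ∈ range J, Real.cos (2 * π * k * t), -∑ k ∈ range J, Real.sin (2 * π * k * t)⟩ := by
      have h3 : ∀ k ∈ range J, zt t ^ k =
          ((Real.cos (2 * π * k * t) : ℝ) : ℂ) - ((Real.sin (2 * π * k * t) : ℝ) : ℂ) * Complex.I := by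
        intro k _
        rw [zt_eq_exp, ← Complex.exp_nat_mul]
        have h4 : (k : ℂ) * -(2 * π * Complex.I * t) =
            ((-(2 * π * k * t) : ℝ) : ℂ) * Complex.I := by push_cast; ring
        rw [h4, Complex.exp_mul_I, ← Complex.ofReal_cos, ← Complex.ofReal_sin, Real.cos_neg,
          Real.sin_neg]
        push_cast; ring
      rw [Finset.sum_congr rfl h3, Finset.sum_sub_distrib, ← Finset.sum_mul,
        ← Complex.ofReal_sum, ← Complex.ofReal_sum]
      apply Complex.ext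
      · simp only [Complex.sub_re, Complex.mul_re, Complex.ofReal_re, Complex.ofReal_im,
          Complex.I_re, Complex.I_im]
        ring
      · simp only [Complex.sub_im, Complex.mul_im, Complex.ofReal_re, Complex.ofReal_im,
          Complex.I_re, Complex.I_im]
        ring
    rw [h2, Complex.sq_norm, Complex.normSq_mk]
    ring
  rw [h1]
  have h2 : ‖∑ k ∈ range J, zt t ^ k‖ * (2 * |Real.sin (π * t)|) ≤ 2 := by
    rw [← norm_one_sub_zt, ← norm_mul, geom_sum_mul_neg]
    refine (norm_sub_le _ _).trans ?_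
    rw [norm_one, norm_pow, norm_zt, one_pow]; norm_num
  have h3 : 0 < |Real.sin (π * t)| := abs_pos.mpr ht
  have h4 : ‖∑ k ∈ range J, zt t ^ k‖ * |Real.sin (π * t)| ≤ 1 := by linarith
  have h5 : ‖∑ k ∈ range J, zt t ^ k‖ ^ 2 * Real.sin (π * t) ^ 2 ≤ 1 := by
    rw [← sq_abs (Real.sin (π * t)), ← mul_pow]
    exact pow_le_one₀ (by positivity) h4
  have h6 : 0 < Real.sin (π * t) ^ 2 := by positivity
  rw [div_le_div_iff₀ hJr (by positivity)]
  nlinarith

end Vale.Agent.P091.H409
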