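import Vale.Agent.P091.H409.Poly
import Mathlib.Dynamics.Ergodic.AddCircle

set_option linter.all false

/-! Integrals of trigonometric polynomials, dilations and mixing. -/

open MeasureTheory AddCircle Finset
open scoped Real

namespace Vale.Agent.P091.H409

variable {T : ℝ} [hT : Fact (0 < T)]

lemma integrable_cont {E : Type*} [NormedAddCommGroup E] {f : AddCircle T → E}
    (hf : Continuous f) : Integrable f (haarAddCircle (T := T)) :=
  integrable_of_continuous hf

lemma integrable_ev (p : ℤ →₀ ℂ) : Integrable (ev p : AddCircle T → ℂ) haarAddCircle :=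
  integrable_cont (continuous_ev p)

lemma integral_fourier (k : ℤ) :
    ∫ x : AddCircle T, (fourier k x : ℂ) ∂haarAddCircle = if k = 0 then 1 else 0 := by
  have := congrFun (fourierCoeff_fourier (T := T) k) 0
  rw [Pi.single_apply] at this
  unfold fourierCoeff at this
  simp only [neg_zero, fourier_zero, one_smul] at this
  rw [this]
  simp only [eq_comm]

lemma integral_ev (p : ℤ →₀ ℂ) : ∫ x : AddCircle T, ev p x ∂haarAddCircle = p 0 := by
  simp only [ev_eq_sum]
  rw [integral_finsetSum _ (fun k _ => integrable_cont (by fun_prop))]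
  simp only [integral_const_mul, integral_fourier]
  simp only [mul_ite, mul_one, mul_zero]
  rw [Finset.sum_ite_eq']
  split_ifs with h
  · rfl
  · rw [Finsupp.notMem_support_iff.mp h]

lemma coeff_eq_integral (p : ℤ →₀ ℂ) (k : ℤ) :
    ∫ x : AddCircle T, fourier (-k) x * ev p x ∂haarAddCircle = p k := by
  have h : ∀ x : AddCircle T, fourier (-k) x * ev p x = ev (shiftBy (-k) p) x := fun x => by
    rw [ev_shiftBy]
  simp only [h]
  rw [integral_ev, shiftBy_apply]
  simp

lemma norm_coeff_le_integral (p : ℤ →₀ ℂ) (k : ℤ) :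
    ‖p k‖ ≤ ∫ x : AddCircle T, ‖ev p x‖ ∂haarAddCircle := by
  rw [← coeff_eq_integral (T := T) p k]
  refine (norm_integral_le_integral_norm _).trans (le_of_eq ?_)
  refine integral_congr_ae (Filter.Eventually.of_forall fun x => ?_)
  simp only [norm_mul, norm_fourier, one_mul]

/-- sum of the squares of the absolute values of the coefficients -/
noncomputable def l2 (p : ℤ →₀ ℂ) : ℝ := ∑ k ∈ p.support, ‖p k‖ ^ 2

lemma l2_trunc_le (N : ℤ) (p : ℤ →₀ ℂ) : l2 (trunc N p) ≤ l2 p := by
  unfold l2
  refine (Finset.sum_le_sum fun k hk => ?_).trans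
    (Finset.sum_le_sum_of_subset_of_nonneg (support_trunc N p) fun _ _ _ => by positivity)
  rw [trunc_apply]
  split_ifs
  · exact le_rfl
  · simp

lemma integral_norm_sq_ev (p : ℤ →₀ ℂ) :
    ∫ x : AddCircle T, ‖ev p x‖ ^ 2 ∂haarAddCircle = l2 p := by
  have h : ∀ x : AddCircle T, ((‖ev p x‖ ^ 2 : ℝ) : ℂ) =
      ∑ k ∈ p.support, (starRingEnd ℂ) (p k) * (fourier (-k) x * ev p x) := by
    intro x
    have h1 : ((‖ev p x‖ ^ 2 : ℝ) : ℂ) = (starRingEnd ℂ) (ev p x) * ev p x := by
      rw [← Complex.normSq_eq_conj_mul_self, Complex.normSq_eq_norm_sq]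
    rw [h1]
    conv_lhs => rw [ev_eq_sum p x]
    rw [map_sum, Finset.sum_mul]
    refine Finset.sum_congr rfl fun k _ => ?_
    rw [map_mul, ← fourier_neg]
    rw [← ev_eq_sum]
    ring
  have h2 : ((∫ x : AddCircle T, ‖ev p x‖ ^ 2 ∂haarAddCircle : ℝ) : ℂ) = ((l2 p : ℝ) : ℂ) := by
    rw [← integral_complex_ofReal]
    simp only [h]
    rw [integral_finsetSum _ (fun k _ => (integrable_cont (by
      have := continuous_ev (T := T) p
      fun_prop)))]
    simp only [integral_const_mul, coeff_eq_integral]
    unfold l2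
    push_cast
    refine Finset.sum_congr rfl fun k _ => ?_
    rw [← Complex.normSq_eq_conj_mul_self, Complex.normSq_eq_norm_sq]
    push_cast; rfl
  exact_mod_cast h2

lemma l2_nonneg (p : ℤ →₀ ℂ) : 0 ≤ l2 p := Finset.sum_nonneg fun _ _ => by positivity

lemma mp_nsmul {M : ℕ} (hM : M ≠ 0) :
    MeasurePreserving (fun x : AddCircle T => M • x) haarAddCircle haarAddCircle := by
  have := MeasureTheory.Measure.measurePreserving_zsmul (haarAddCircle (T := T)) (n := (M : ℤ)) (by exact_mod_cast hM)
  simpa only [natCast_zsmul] using this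

lemma integral_comp_nsmul {E : Type*} [NormedAddCommGroup E] [NormedSpace ℝ E]
    {M : ℕ} (hM : M ≠ 0) {f : AddCircle T → E}
    (hf : AEStronglyMeasurable f (haarAddCircle (T := T))) :
    ∫ x : AddCircle T, f (M • x) ∂haarAddCircle = ∫ x : AddCircle T, f x ∂haarAddCircle := by
  have h := (mp_nsmul (T := T) hM)
  conv_rhs => rw [← h.map_eq]
  rw [integral_map h.measurable.aemeasurable]
  rwa [h.map_eq]

/-- approximation of integrable functions by trigonometric polynomials -/
lemma exists_ev_approx {U : AddCircle T → ℂ} (hU : Integrable U (haarAddCircle (T := T)))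
    {ε : ℝ} (hε : 0 < ε) :
    ∃ p : ℤ →₀ ℂ, ∫ x : AddCircle T, ‖U x - ev p x‖ ∂haarAddCircle ≤ ε := by
  obtain ⟨g, -, hg1, hg2, hg3⟩ := hU.exists_hasCompactSupport_integral_sub_le (half_pos hε)
  have hd : (⟨g, hg2⟩ : C(AddCircle T, ℂ)) ∈
      (Submodule.span ℂ (Set.range (@fourier T))).topologicalClosure := by
    rw [span_fourier_closure_eq_top]; trivial
  rw [← SetLike.mem_coe, Submodule.topologicalClosure_coe, Metric.mem_closure_iff] at hd
  obtain ⟨q, hq1, hq2⟩ := hd (ε / 2) (half_pos hε)
  obtain ⟨p, hp⟩ := Finsupp.mem_span_range_iff_exists_finsupp.mp hq1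
  refine ⟨p, ?_⟩
  have hev : ∀ x, ev p x = q x := by
    intro x
    rw [← hp]
    unfold ev Finsupp.sum
    rw [ContinuousMap.coe_sum, Finset.sum_apply]
    refine Finset.sum_congr rfl fun k _ => ?_
    simp
  have hgi : Integrable g (haarAddCircle (T := T)) := hg3
  have hgc : Continuous g := hg2
  have h1 : ∀ x, ‖U x - ev p x‖ ≤ ‖U x - g x‖ + ε / 2 := by
    intro x
    have h2 : ‖g x - q x‖ ≤ ε / 2 := by
      have := ContinuousMap.dist_apply_le_dist (f := (⟨g, hg2⟩ : C(AddCircle T, ℂ))) (g := q) (x := x)
      rw [dist_eq_norm] at this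
      exact this.trans hq2.le
    rw [hev]
    have h3 : U x - q x = (U x - g x) + (g x - q x) := by ring
    rw [h3]
    exact (norm_add_le _ _).trans (by linarith)
  calc ∫ x : AddCircle T, ‖U x - ev p x‖ ∂haarAddCircle
      ≤ ∫ x : AddCircle T, (‖U x - g x‖ + ε / 2) ∂haarAddCircle := by
        refine integral_mono (hU.sub (integrable_ev p)).norm
          ((hU.sub hgi).norm.add (integrable_const _)) h1
    _ = ∫ x : AddCircle T, ‖U x - g x‖ ∂haarAddCircle + ε / 2 := by
        have hint : Integrable (fun x : AddCircle T => ‖U x - g x‖) haarAddCircle :=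
          (hU.sub hgi).norm
        rw [integral_add hint (integrable_const _)]
        simp
    _ ≤ ε := by linarith

lemma integral_fourier_mul_comp {M : ℕ} {k : ℤ} (hk : |k| < M) {g : AddCircle T → ℂ}
    (hg : AEStronglyMeasurable g (haarAddCircle (T := T)))
    (hg0 : ∫ x : AddCircle T, g x ∂haarAddCircle = 0) :
    ∫ x : AddCircle T, fourier k x * g (M • x) ∂haarAddCircle = 0 := by
  have hM : M ≠ 0 := by
    have := abs_nonneg k
    rintro rfl
    simp at hk
    omega
  rcases eq_or_ne k 0 with rfl | hk0
  · simp only [fourier_zero, one_mul]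
    rw [integral_comp_nsmul hM hg, hg0]
  · set I := ∫ x : AddCircle T, fourier k x * g (M • x) ∂haarAddCircle with hI
    have hM0 : (M : ℝ) ≠ 0 := by exact_mod_cast hM
    have h1 : I = ∫ x : AddCircle T, fourier k (x + ((T / M : ℝ) : AddCircle T)) *
        g (M • (x + ((T / M : ℝ) : AddCircle T))) ∂haarAddCircle := by
      rw [hI]
      exact (integral_add_right_eq_self (μ := haarAddCircle (T := T))
        (fun x : AddCircle T => fourier k x * g (M • x)) ((T / M : ℝ) : AddCircle T)).symm
    have h2 : ∀ x : AddCircle T, M • (x + ((T / M : ℝ) : AddCircle T)) = M • x := by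
      intro x
      rw [smul_add, ← AddCircle.coe_nsmul, nsmul_eq_mul, mul_div_cancel₀ _ hM0]
      rw [AddCircle.coe_period, add_zero]
    have h3 : ∀ x : AddCircle T, (fourier k (x + ((T / M : ℝ) : AddCircle T)) : ℂ) =
        fourier k x * Complex.exp (2 * π * Complex.I * k / M) := by
      intro x
      have : (fourier k (x + ((T / M : ℝ) : AddCircle T)) : ℂ) =
          fourier k x * fourier k ((T / M : ℝ) : AddCircle T) := by
        rw [fourier_apply, fourier_apply, fourier_apply, smul_add, toCircle_add]
        rfl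
      rw [this, fourier_coe_apply]
      congr 2
      have hT0 : (T : ℂ) ≠ 0 := by exact_mod_cast hT.out.ne'
      have hMc : (M : ℂ) ≠ 0 := by exact_mod_cast hM
      push_cast
      field_simp
    simp only [h2, h3] at h1
    have h4 : I = Complex.exp (2 * π * Complex.I * k / M) * I := by
      conv_lhs => rw [h1]
      rw [hI, ← integral_const_mul]
      refine integral_congr_ae (Filter.Eventually.of_forall fun x => ?_)
      simp only
      ring
    have h5 : Complex.exp (2 * π * Complex.I * k / M) ≠ 1 := by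
      intro h
      rw [Complex.exp_eq_one_iff] at h
      obtain ⟨n, hn⟩ := h
      have hMc : (M : ℂ) ≠ 0 := by exact_mod_cast hM
      have hpi : (2 * π * Complex.I : ℂ) ≠ 0 := Complex.two_pi_I_ne_zero
      have h6 : (k : ℂ) = n * M := by
        have : (2 * π * Complex.I : ℂ) * k = (2 * π * Complex.I) * (n * M) := by
          rw [div_eq_iff hMc] at hn
          rw [hn]; ring
        exact mul_left_cancel₀ hpi this
      have h7 : k = n * M := by exact_mod_cast h6
      have h8 : n ≠ 0 := by rintro rfl; simp at h7; exact hk0 h7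
      have h9 : (M : ℤ) ≤ |k| := by
        rw [h7, abs_mul]
        have := Int.one_le_abs h8
        have h10 : |(M : ℤ)| = M := abs_of_nonneg (by positivity)
        rw [h10]
        nlinarith
      omega
    have h6 : (1 - Complex.exp (2 * π * Complex.I * k / M)) * I = 0 := by
      linear_combination h4
    rcases mul_eq_zero.mp h6 with h | h
    · exact absurd (sub_eq_zero.mp h).symm h5
    · exact h

/-- mixing for dilations -/
theorem mixing {U V : AddCircle T → ℝ} (hU : Integrable U (haarAddCircle (T := T)))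
    (hV : Measurable V) {B : ℝ} (hVB : ∀ x, |V x| ≤ B) {ε : ℝ} (hε : 0 < ε) :
    ∃ M₀ : ℕ, ∀ M : ℕ, M₀ ≤ M →
      |∫ x : AddCircle T, U x * V (M • x) ∂haarAddCircle -
        (∫ x : AddCircle T, U x ∂haarAddCircle) * ∫ x : AddCircle T, V x ∂haarAddCircle| ≤ ε := by
  set v : ℝ := ∫ x : AddCircle T, V x ∂haarAddCircle with hv
  have hB : 0 ≤ B := (abs_nonneg _).trans (hVB 0)
  have hVint : Integrable V (haarAddCircle (T := T)) :=
    Integrable.of_bound hV.aestronglyMeasurable B (Filter.Eventually.of_forall fun x => hVB x)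
  have hvB : |v| ≤ B := by
    have := norm_integral_le_of_norm_le_const (μ := haarAddCircle (T := T)) (f := V) (C := B)
      (Filter.Eventually.of_forall fun x => hVB x)
    simpa using this
  set g : AddCircle T → ℂ := fun x => ((V x - v : ℝ) : ℂ) with hg
  have hgm : Measurable g := by
    rw [hg]; exact Complex.measurable_ofReal.comp (hV.sub_const v)
  have hgB : ∀ x, ‖g x‖ ≤ 2 * B := by
    intro x
    rw [hg]
    simp only [Complex.norm_real, Real.norm_eq_abs]
    have := abs_sub (V x) v
    have := hVB x
    linarith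
  have hg0 : ∫ x : AddCircle T, g x ∂haarAddCircle = 0 := by
    rw [hg]
    rw [integral_complex_ofReal, integral_sub hVint (integrable_const _)]
    simp [hv]
  obtain ⟨p, hp⟩ := exists_ev_approx (T := T) (U := fun x => (U x : ℂ)) hU.ofReal
    (ε := ε / (2 * B + 1)) (by positivity)
  refine ⟨(∑ a ∈ p.support, |a|.toNat) + 1, fun M hM => ?_⟩
  have hM0 : M ≠ 0 := by omega
  have hpk : ∀ k ∈ p.support, |k| < M := by
    intro k hk
    have h1 : (|k|).toNat ≤ ∑ a ∈ p.support, (|a|).toNat :=
      Finset.single_le_sum (f := fun a : ℤ => (|a|).toNat) (fun _ _ => Nat.zero_le _) hk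
    have := abs_nonneg k
    omega
  have hgMm : Measurable fun x : AddCircle T => g (M • x) :=
    hgm.comp (mp_nsmul (T := T) hM0).measurable
  have hevg : ∫ x : AddCircle T, ev p x * g (M • x) ∂haarAddCircle = 0 := by
    simp only [ev_eq_sum, Finset.sum_mul, mul_assoc]
    rw [integral_finsetSum]
    · refine Finset.sum_eq_zero fun k hk => ?_
      rw [integral_const_mul, integral_fourier_mul_comp (hpk k hk) hgm.aestronglyMeasurable hg0,
        mul_zero]
    · intro k _
      refine Integrable.const_mul ?_ _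
      refine Integrable.of_bound (C := 2 * B) ?_ (Filter.Eventually.of_forall fun x => ?_)
      · exact ((map_continuous (fourier k)).measurable.mul hgMm).aestronglyMeasurable
      · rw [norm_mul, norm_fourier, one_mul]; exact hgB _
  have hVM : Integrable (fun x : AddCircle T => V (M • x)) haarAddCircle :=
    Integrable.of_bound (hV.comp (mp_nsmul (T := T) hM0).measurable).aestronglyMeasurable B
      (Filter.Eventually.of_forall fun x => hVB _)
  have hUV : Integrable (fun x : AddCircle T => U x * V (M • x)) haarAddCircle := by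
    refine hU.mul_bdd (c := B) hVM.1 (Filter.Eventually.of_forall fun x => hVB _)
  have hmain : (((∫ x : AddCircle T, U x * V (M • x) ∂haarAddCircle) -
      (∫ x : AddCircle T, U x ∂haarAddCircle) * v : ℝ) : ℂ) =
      ∫ x : AddCircle T, ((U x : ℂ) - ev p x) * g (M • x) ∂haarAddCircle := by
    have h1 : ∫ x : AddCircle T, ((U x : ℂ) - ev p x) * g (M • x) ∂haarAddCircle =
        ∫ x : AddCircle T, (U x : ℂ) * g (M • x) ∂haarAddCircle -
        ∫ x : AddCircle T, ev p x * g (M • x) ∂haarAddCircle := by
      rw [← integral_sub]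
      · refine integral_congr_ae (Filter.Eventually.of_forall fun x => ?_)
        simp only; ring
      · exact hU.ofReal.mul_bdd (c := 2 * B) hgMm.aestronglyMeasurable
          (Filter.Eventually.of_forall fun x => hgB _)
      · exact (integrable_ev p).mul_bdd (c := 2 * B) hgMm.aestronglyMeasurable
          (Filter.Eventually.of_forall fun x => hgB _)
    rw [h1, hevg, sub_zero]
    have h2 : ∀ x : AddCircle T, (U x : ℂ) * g (M • x) = ((U x * V (M • x) - U x * v : ℝ) : ℂ) := by
      intro x
      rw [hg]; push_cast; ring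
    simp only [h2]
    rw [integral_complex_ofReal, integral_sub hUV (hU.mul_const v), integral_mul_const]
  have hnorm : |(∫ x : AddCircle T, U x * V (M • x) ∂haarAddCircle) -
      (∫ x : AddCircle T, U x ∂haarAddCircle) * v| =
      ‖∫ x : AddCircle T, ((U x : ℂ) - ev p x) * g (M • x) ∂haarAddCircle‖ := by
    rw [← hmain, Complex.norm_real, Real.norm_eq_abs]
  rw [hnorm]
  calc ‖∫ x : AddCircle T, ((U x : ℂ) - ev p x) * g (M • x) ∂haarAddCircle‖
      ≤ ∫ x : AddCircle T, ‖((U x : ℂ) - ev p x) * g (M • x)‖ ∂haarAddCircle :=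
        norm_integral_le_integral_norm _
    _ ≤ ∫ x : AddCircle T, ‖(U x : ℂ) - ev p x‖ * (2 * B) ∂haarAddCircle := by
        refine integral_mono_of_nonneg (Filter.Eventually.of_forall fun x => norm_nonneg _)
          ((hU.ofReal.sub (integrable_ev p)).norm.mul_const _)
          (Filter.Eventually.of_forall fun x => ?_)
        simp only [norm_mul]
        exact mul_le_mul_of_nonneg_left (hgB _) (norm_nonneg _)
    _ = (∫ x : AddCircle T, ‖(U x : ℂ) - ev p x‖ ∂haarAddCircle) * (2 * B) := integral_mul_const _ _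
    _ ≤ (ε / (2 * B + 1)) * (2 * B) := mul_le_mul_of_nonneg_right hp (by positivity)
    _ ≤ ε := by
        rw [div_mul_eq_mul_div, div_le_iff₀ (by positivity)]
        nlinarith

end Vale.Agent.P091.H409
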