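import Vale.Agent.P091.H409.Extract
import Vale.Agent.P091.H788.BasicFactor

set_option linter.all false

/-! The multi-block main lemma. -/

open MeasureTheory AddCircle Finset
open scoped Real

namespace Vale.Agent.P091.H409

variable {T : ℝ} [hT : Fact (0 < T)]

lemma sum_sq_le {m : ℕ → ℕ} (hm : ∀ k, 2 * m k ≤ m (k + 1)) (k : ℕ) :
    ∑ i ∈ range k, (m i : ℝ) ^ 2 ≤ (m k : ℝ) ^ 2 := by
  induction k with
  | zero => simp
  | succ k ih =>
    rw [Finset.sum_range_succ]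
    have h1 : (2 : ℝ) * m k ≤ m (k + 1) := by exact_mod_cast hm k
    have h2 : (0 : ℝ) ≤ m k := Nat.cast_nonneg _
    nlinarith

lemma pow_mul_le {m : ℕ → ℕ} {K : ℕ} (h0 : K ≤ m 0) (hm : ∀ k, 2 * m k ≤ m (k + 1)) (k : ℕ) :
    2 ^ k * K ≤ m k := by
  induction k with
  | zero => simpa using h0
  | succ k ih =>
    refine le_trans ?_ (hm k)
    rw [pow_succ]
    nlinarith

lemma prod_bound {C₀ : ℝ} (hC₀ : 0 < C₀) {K L : ℕ} (hK : 16 ≤ K) (hL : 1 ≤ L) {m : ℕ → ℕ}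
    (h0 : K ≤ m 0) (hm : ∀ k, 2 * m k ≤ m (k + 1)) {J J₁ : ℕ → ℕ}
    (hJ₁ : ∀ k, (J₁ k : ℝ) ≤ Real.exp (C₀ * (m k : ℝ) ^ 2))
    (hJ : ∀ k, (J k : ℝ) + 1 ≤ (2 * ((J₁ k : ℝ) + 1)) ^ L) (k : ℕ) :
    ∏ i ∈ range k, ((2 * K * (J i + 1) : ℕ) : ℝ) ≤
      Real.exp ((C₀ + 3) * (L * (m k : ℝ) ^ 2)) := by
  have hL' : (1 : ℝ) ≤ L := by exact_mod_cast hL
  have hfac : ∀ i, ((2 * K * (J i + 1) : ℕ) : ℝ) ≤ Real.exp ((C₀ + 3) * (L * (m i : ℝ) ^ 2)) := by
    intro i
    have hKm : (K : ℝ) ≤ m i := by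
      have h1 := pow_mul_le h0 hm i
      have h2 : K ≤ 2 ^ i * K := Nat.le_mul_of_pos_left _ (by positivity)
      exact_mod_cast h2.trans h1
    have hK' : (16 : ℝ) ≤ K := by exact_mod_cast hK
    have hm1 : (1 : ℝ) ≤ m i := by linarith
    have hx1 : (m i : ℝ) ≤ (m i : ℝ) ^ 2 := by nlinarith
    have hx2 : (m i : ℝ) ^ 2 ≤ L * (m i : ℝ) ^ 2 := le_mul_of_one_le_left (by positivity) hL'
    have h1 : (2 * (K : ℝ)) ≤ Real.exp ((m i : ℝ) ^ 2 * L) := by
      have h2 := Real.add_one_le_exp ((m i : ℝ) ^ 2 * L)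
      nlinarith
    have h3 : 2 * ((J₁ i : ℝ) + 1) ≤ Real.exp (C₀ * (m i : ℝ) ^ 2 + 2) := by
      have h4 := hJ₁ i
      have h5 : 1 ≤ Real.exp (C₀ * (m i : ℝ) ^ 2) := Real.one_le_exp (by positivity)
      have h6 : (4 : ℝ) ≤ Real.exp 2 := by
        have h7 := Real.add_one_le_exp (1 : ℝ)
        have h8 : Real.exp 2 = Real.exp 1 * Real.exp 1 := by rw [← Real.exp_add]; norm_num
        rw [h8]; nlinarith
      rw [Real.exp_add]
      nlinarith
    have h5 : (2 * ((J₁ i : ℝ) + 1)) ^ L ≤ Real.exp (L * (C₀ * (m i : ℝ) ^ 2 + 2)) := by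
      rw [Real.exp_nat_mul]
      exact pow_le_pow_left₀ (by positivity) h3 L
    push_cast
    calc 2 * (K : ℝ) * ((J i : ℝ) + 1) ≤ Real.exp ((m i : ℝ) ^ 2 * L) *
          Real.exp (L * (C₀ * (m i : ℝ) ^ 2 + 2)) :=
          mul_le_mul h1 ((hJ i).trans h5) (by positivity) (by positivity)
      _ = Real.exp ((m i : ℝ) ^ 2 * L + L * (C₀ * (m i : ℝ) ^ 2 + 2)) := by rw [Real.exp_add]
      _ ≤ _ := by
          apply Real.exp_le_exp.mpr
          nlinarith
  calc ∏ i ∈ range k, ((2 * K * (J i + 1) : ℕ) : ℝ)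
      ≤ ∏ i ∈ range k, Real.exp ((C₀ + 3) * (L * (m i : ℝ) ^ 2)) :=
        Finset.prod_le_prod (fun i _ => Nat.cast_nonneg _) fun i _ => hfac i
    _ = Real.exp (∑ i ∈ range k, (C₀ + 3) * (L * (m i : ℝ) ^ 2)) := (Real.exp_sum _ _).symm
    _ ≤ _ := by
        apply Real.exp_le_exp.mpr
        rw [← Finset.mul_sum, ← Finset.mul_sum]
        have := sum_sq_le hm k
        gcongr

set_option maxHeartbeats 2000000 in
theorem mainLemma3 (T : ℝ) [hT : Fact (0 < T)] : MainLemma3 T := by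
  obtain ⟨c₀, hc₀, C₀, hC₀, m₀, hbas⟩ := Vale.Agent.P091.H788.basicFactor T
  refine ⟨c₀ / 8192, by positivity, 2 * C₀ + 3, by positivity, fun γ hγ => ?_⟩
  -- conditions on `K`
  have hlog : Filter.Tendsto (fun K : ℕ => Real.log (K : ℝ)) Filter.atTop Filter.atTop :=
    Real.tendsto_log_atTop.comp tendsto_natCast_atTop_atTop
  have hcond1 : ∀ᶠ K : ℕ in Filter.atTop, 48 * (Real.log (K : ℝ)) ^ 2 ≤ c₀ * K := by
    have h1 := (Real.isLittleO_pow_log_id_atTop (n := 2)).bound (c := c₀ / 48) (by positivity)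
    have h2 := tendsto_natCast_atTop_atTop (R := ℝ) |>.eventually h1
    filter_upwards [h2] with K hK
    rw [Real.norm_of_nonneg (by positivity), id, Real.norm_of_nonneg (Nat.cast_nonneg _)] at hK
    nlinarith
  set W : ℝ := c₀ ^ 2 / 16 + 1 / 4 with hW
  have hW0 : 0 < W := by positivity
  have hcond2 : ∀ᶠ K : ℕ in Filter.atTop,
      8192 / c₀ + 1 + 4096 * √(W / γ) * 2 / c₀ ≤ Real.log (K : ℝ) := hlog.eventually_ge_atTop _
  have hcond3 : ∀ᶠ K : ℕ in Filter.atTop, 256 / γ ≤ (K : ℝ) :=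
    tendsto_natCast_atTop_atTop.eventually_ge_atTop _
  have hcond4 : ∀ᶠ K : ℕ in Filter.atTop, max 16 m₀ ≤ K := Filter.eventually_ge_atTop _
  obtain ⟨K₀, hK₀⟩ := Filter.eventually_atTop.mp (hcond1.and (hcond2.and (hcond3.and hcond4)))
  refine ⟨K₀, fun K hK m hm0 hm => ?_⟩
  obtain ⟨hc1, hc2, hc3, hc4⟩ := hK₀ K hK
  have hK16 : 16 ≤ K := (le_max_left _ _).trans hc4
  have hKm₀ : m₀ ≤ K := (le_max_right _ _).trans hc4
  have hKr : (16 : ℝ) ≤ K := by exact_mod_cast hK16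
  have hK0 : (0 : ℝ) < K := by linarith
  set lg : ℝ := Real.log (K : ℝ) with hlg
  have hlog4 : Real.log 4 = 2 * Real.log 2 := by
    rw [show (4 : ℝ) = 2 ^ 2 by norm_num, Real.log_pow]; norm_num
  have hl2 := Real.log_two_gt_d9
  have hl2' := Real.log_two_lt_d9
  have hlg16 : 2 * Real.log 4 ≤ lg := by
    have h1 : Real.log 16 ≤ lg := Real.log_le_log (by norm_num) hKr
    have h2 : Real.log 16 = 2 * Real.log 4 := by
      rw [show (16 : ℝ) = 4 ^ 2 by norm_num, Real.log_pow]; norm_num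
    linarith
  have hlgpos : 0 < lg := by linarith
  have hlog4pos : 0 < Real.log 4 := by linarith
  set L : ℕ := ⌊lg / Real.log 4⌋₊ with hL
  have hLle : (L : ℝ) ≤ lg / Real.log 4 := Nat.floor_le (by positivity)
  have hLgt : lg / Real.log 4 < L + 1 := Nat.lt_floor_add_one _
  have hLlog : (L : ℝ) * Real.log 4 ≤ lg := by rwa [le_div_iff₀ hlog4pos] at hLle
  have hLlog2 : lg < (L + 1) * Real.log 4 := by rwa [div_lt_iff₀ hlog4pos] at hLgt
  have hL4 : lg / 4 ≤ L := by nlinarith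
  have hLlg : (L : ℝ) ≤ lg := by
    have : (0 : ℝ) ≤ L := Nat.cast_nonneg _
    nlinarith
  have hL1 : 1 ≤ L := by
    have h1 : (1 : ℝ) < L + 1 := by
      by_contra hcon
      push Not at hcon
      have : (L : ℝ) ≤ 0 := by linarith
      nlinarith
    have h2 : (0 : ℝ) < L := by linarith
    exact_mod_cast h2
  have hL1r : (1 : ℝ) ≤ L := by exact_mod_cast hL1
  have h4L : (4 : ℝ) ^ L ≤ K := by
    rw [← Real.log_le_log_iff (by positivity) hK0, Real.log_pow]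
    exact hLlog
  -- the block data
  have hmk : ∀ k, K ≤ m k := by
    intro k
    exact (Nat.le_mul_of_pos_left _ (by positivity)).trans (pow_mul_le hm0 hm k)
  have hmkr : ∀ k, (K : ℝ) ≤ m k := fun k => by exact_mod_cast hmk k
  choose J₁ N₁ B₁ hb1 hb2 hb3 hb4 hb5 hb6 using fun k => hbas (m k) (hKm₀.trans (hmk k))
  have hBA : ∀ k, BasicAt T (J₁ k) (Real.exp (C₀ * (m k : ℝ) ^ 2)) (c₀ * m k) := by
    intro k
    exact ⟨N₁ k, B₁ k, hb2 k, hb3 k, hb4 k, hb5 k, hb6 k⟩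
  have hvk : ∀ k, 48 * (L : ℝ) ^ 2 ≤ c₀ * m k := by
    intro k
    have h1 : (L : ℝ) ^ 2 ≤ lg ^ 2 := pow_le_pow_left₀ (by linarith) hLlg 2
    have h2 := mul_le_mul_of_nonneg_left (hmkr k) hc₀.le
    linarith
  choose J hJ hBS using fun k => block_final (hBA k) hL1 (hvk k)
  -- parameters of the sum
  set η : ℝ := min (γ / (4 * K)) (1 / (4 * K)) with hη
  have hη0 : 0 < η := lt_min (by positivity) (by positivity)
  have hηK1 : (K : ℝ) * η ≤ γ / 4 := by
    have h1 : η ≤ γ / (4 * K) := min_le_left _ _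
    have h2 := mul_le_mul_of_nonneg_left h1 hK0.le
    have h3 : (K : ℝ) * (γ / (4 * K)) = γ / 4 := by field_simp
    linarith
  have hηK2 : (K : ℝ) * η ≤ 1 / 4 := by
    have h1 : η ≤ 1 / (4 * K) := min_le_right _ _
    have h2 := mul_le_mul_of_nonneg_left h1 hK0.le
    have h3 : (K : ℝ) * (1 / (4 * K)) = 1 / 4 := by field_simp
    linarith
  set lam : ℝ := √(4 * K / γ) with hlam
  have hlam0 : 0 < lam := Real.sqrt_pos.mpr (by positivity)
  have hlam2 : lam ^ 2 = 4 * K / γ := Real.sq_sqrt (by positivity)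
  set p : ℕ → ℝ := fun k => 1 / (K * m k) with hp
  have hmpos : ∀ k, (0 : ℝ) < m k := fun k => hK0.trans_le (hmkr k)
  have hp0 : ∀ k, 0 ≤ p k := fun k => by rw [hp]; have := hmpos k; positivity
  have hp1 : ∀ k, p k ≤ 1 := by
    intro k
    rw [hp]
    simp only
    rw [div_le_one (by have := hmpos k; positivity)]
    have := hmkr k
    nlinarith
  have hpsum : ∑ k ∈ range K, p k ≤ 2 / (K : ℝ) ^ 2 := by
    have h1 : ∀ k ∈ range K, p k ≤ 1 / (K : ℝ) ^ 2 * (1 / 2) ^ k := by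
      intro k _
      rw [hp]
      simp only
      have h2 : (2 : ℝ) ^ k * K ≤ m k := by exact_mod_cast pow_mul_le hm0 hm k
      have h3 : (1 : ℝ) / K ^ 2 * (1 / 2) ^ k = 1 / (K * (2 ^ k * K)) := by
        rw [one_div_pow]; field_simp
      rw [h3]
      apply one_div_le_one_div_of_le (by positivity)
      exact mul_le_mul_of_nonneg_left h2 hK0.le
    refine (Finset.sum_le_sum h1).trans ?_
    rw [← Finset.mul_sum]
    have h2 : ∑ i ∈ range K, (1 / 2 : ℝ) ^ i ≤ 2 := sum_geometric_two_le K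
    have h3 : (0 : ℝ) < 1 / (K : ℝ) ^ 2 := by positivity
    calc 1 / (K : ℝ) ^ 2 * ∑ i ∈ range K, (1 / 2 : ℝ) ^ i ≤ 1 / (K : ℝ) ^ 2 * 2 :=
          mul_le_mul_of_nonneg_left h2 h3.le
      _ = 2 / (K : ℝ) ^ 2 := by ring
  have hiter := sum_iter (T := T) (K := K) (by omega) (p := p)
    (Hs := fun k => Real.exp ((2 * C₀ + 3) * (lg * (m k : ℝ) ^ 2)))
    (H := fun k => Real.exp (C₀ * (m k : ℝ) ^ 2) ^ L) (v := fun k => c₀ * m k / 4) (J := J)
    (a := (L : ℝ) / 64) (b := 4 ^ L) (η := η) (lam := lam) (S := 2 / (K : ℝ) ^ 2)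
    (fun k _ => hBS k) hp0 (fun k _ => by have := hmpos k; positivity)
    (fun k _ => by positivity) (by positivity) (by positivity) hη0 hlam0
    (by
      intro k _
      have h1 := prod_bound hC₀ hK16 hL1 hm0 hm hb1 hJ k
      have h2 : Real.exp (C₀ * (m k : ℝ) ^ 2) ^ L = Real.exp (C₀ * (L * (m k : ℝ) ^ 2)) := by
        rw [← Real.exp_nat_mul]; congr 1; ring
      simp only [h2]
      have h3 : Real.exp (C₀ * (L * (m k : ℝ) ^ 2)) *
          ∏ i ∈ range k, ((2 * K * (J i + 1) : ℕ) : ℝ) ≤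
          Real.exp ((2 * C₀ + 3) * (L * (m k : ℝ) ^ 2)) := by
        calc _ ≤ Real.exp (C₀ * (L * (m k : ℝ) ^ 2)) *
              Real.exp ((C₀ + 3) * (L * (m k : ℝ) ^ 2)) :=
              mul_le_mul_of_nonneg_left h1 (by positivity)
          _ = _ := by rw [← Real.exp_add]; congr 1; ring
      have h4 : 0 ≤ Real.exp (C₀ * (L * (m k : ℝ) ^ 2)) *
          ∏ i ∈ range k, ((2 * K * (J i + 1) : ℕ) : ℝ) :=
        mul_nonneg (by positivity) (Finset.prod_nonneg fun i _ => Nat.cast_nonneg _)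
      calc p k * (Real.exp (C₀ * (L * (m k : ℝ) ^ 2)) *
            ∏ i ∈ range k, ((2 * K * (J i + 1) : ℕ) : ℝ)) ≤ 1 *
            (Real.exp (C₀ * (L * (m k : ℝ) ^ 2)) *
            ∏ i ∈ range k, ((2 * K * (J i + 1) : ℕ) : ℝ)) :=
            mul_le_mul_of_nonneg_right (hp1 k) h4
        _ ≤ Real.exp ((2 * C₀ + 3) * (L * (m k : ℝ) ^ 2)) := by rw [one_mul]; exact h3
        _ ≤ _ := by
            apply Real.exp_le_exp.mpr
            have h5 : (L : ℝ) * (m k : ℝ) ^ 2 ≤ lg * (m k : ℝ) ^ 2 :=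
              mul_le_mul_of_nonneg_right hLlg (by positivity)
            exact mul_le_mul_of_nonneg_left h5 (by positivity))
    hpsum K le_rfl
  -- compute the parameters
  have hmlo : ∑ i ∈ range K, p i * (c₀ * m i / 4) * (1 / 2) * ((L : ℝ) / 64) = c₀ * L / 512 := by
    have h1 : ∀ i ∈ range K, p i * (c₀ * m i / 4) * (1 / 2) * ((L : ℝ) / 64) =
        c₀ * L / (512 * K) := by
      intro i _
      rw [hp]
      have := (hmpos i).ne'
      field_simp
      norm_num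
    rw [Finset.sum_congr rfl h1, Finset.sum_const, Finset.card_range, nsmul_eq_mul]
    field_simp
  have hvar : ∑ i ∈ range K, ((p i * (c₀ * m i / 4)) ^ 2 * 4 ^ L + η) ≤ W := by
    have h1 : ∀ i ∈ range K, (p i * (c₀ * m i / 4)) ^ 2 * 4 ^ L + η ≤ c₀ ^ 2 / (16 * K) + η := by
      intro i _
      have h2 : p i * (c₀ * m i / 4) = c₀ / (4 * K) := by
        rw [hp]
        have := (hmpos i).ne'
        field_simp
      rw [h2]
      have h3 : (c₀ / (4 * K)) ^ 2 * 4 ^ L ≤ (c₀ / (4 * K)) ^ 2 * K :=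
        mul_le_mul_of_nonneg_left h4L (by positivity)
      have h4 : (c₀ / (4 * (K : ℝ))) ^ 2 * K = c₀ ^ 2 / (16 * K) := by
        field_simp; norm_num
      linarith
    refine (Finset.sum_le_sum h1).trans ?_
    rw [Finset.sum_const, Finset.card_range, nsmul_eq_mul]
    have h2 : (K : ℝ) * (c₀ ^ 2 / (16 * K) + η) = c₀ ^ 2 / 16 + K * η := by
      field_simp
    rw [h2, hW]
    linarith
  have hγK : (K : ℝ) * (η + 1 / lam ^ 2) ≤ γ / 2 := by
    rw [hlam2]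
    have h1 : (K : ℝ) * (1 / (4 * K / γ)) = γ / 4 := by field_simp
    rw [mul_add, h1]
    linarith
  have heK : (K : ℝ) * (η + lam * (2 / (K : ℝ) ^ 2)) ≤ 1 / 2 := by
    have h1 : (K : ℝ) * (lam * (2 / (K : ℝ) ^ 2)) = 2 * lam / K := by field_simp
    rw [mul_add, h1]
    have h2 : 2 * lam / K ≤ 1 / 4 := by
      rw [div_le_iff₀ hK0]
      have h3 : lam ≤ K / 8 := by
        rw [hlam, Real.sqrt_le_left (by positivity), div_le_iff₀ hγ]
        rw [div_le_iff₀ hγ] at hc3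
        nlinarith
      linarith
    linarith
  have hmono := hiter.mono (r' := 0) (γ' := γ / 2) (e' := 1 / 2) (mlo' := c₀ * L / 512)
    (var' := W) (by
      have : (K : ℝ) / (2 * K) = 1 / 2 := by field_simp
      rw [this]; norm_num) hγK heK (le_of_eq hmlo.symm) hvar
  have hcpos : 0 < c₀ * L / 512 := by positivity
  have hlglow : 8192 / c₀ < lg := by
    have h1 : 0 ≤ 4096 * √(W / γ) * 2 / c₀ := by positivity
    linarith
  have hlglow2 : 4096 * √(W / γ) * 2 / c₀ ≤ lg := by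
    have h1 : 0 ≤ 8192 / c₀ := by positivity
    linarith
  rw [div_lt_iff₀ hc₀] at hlglow
  rw [div_le_iff₀ hc₀] at hlglow2
  have hLc : c₀ * lg / 2048 ≤ c₀ * L / 512 := by nlinarith
  obtain ⟨d, P, hd1, hd2, hd3⟩ := extract hmono hcpos (l := c₀ / 8192 * lg) (by
    have : c₀ / 8192 * lg + 1 / 2 < c₀ * lg / 2048 / 2 := by nlinarith
    linarith)
  refine ⟨d, P, fun k hk x => hd1 k hk x, fun k hk => hd2 k hk, ?_⟩
  have hfin : 4 * W / (c₀ * L / 512) ^ 2 ≤ γ / 2 := by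
    rw [div_le_iff₀ (by positivity)]
    have h1 : (c₀ * lg / 2048) ^ 2 ≤ (c₀ * L / 512) ^ 2 :=
      pow_le_pow_left₀ (by positivity) hLc 2
    have h2 : (4 * √(W / γ)) ^ 2 ≤ (c₀ * lg / 2048) ^ 2 := by
      apply pow_le_pow_left₀ (by positivity)
      linarith
    have h3 : (4 * √(W / γ)) ^ 2 = 16 * (W / γ) := by
      rw [mul_pow, Real.sq_sqrt (by positivity)]; norm_num
    have h4 : γ / 2 * (16 * (W / γ)) = 8 * W := by field_simp; norm_num
    have h5 : γ / 2 * (16 * (W / γ)) ≤ γ / 2 * (c₀ * L / 512) ^ 2 := by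
      apply mul_le_mul_of_nonneg_left _ (by positivity)
      linarith
    linarith
  have hlast : (haarAddCircle {x : AddCircle T | ∀ n : ℕ, n ≤ d →
        ‖trigSum (fun j => ∑ k ∈ Finset.range K, P k j) n x‖ ≤ c₀ / 8192 * lg}).toReal ≤ γ := by
    linarith
  rw [← ENNReal.ofReal_toReal (measure_ne_top (haarAddCircle (T := T)) _)]
  exact ENNReal.ofReal_le_ofReal hlast

end Vale.Agent.P091.H409
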