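import Vale.Agent.P091.H409.SumStep

set_option linter.all false

/-! The pointwise estimate for one new block. -/

open MeasureTheory AddCircle Finset
open scoped Real

namespace Vale.Agent.P091.H409

variable {T : ℝ} [hT : Fact (0 < T)]

/-- abstract pointwise estimate; `F` are the unimodular factors `fourier j y`, `a` is the old
normalized partial sum -/
lemma point_abs {I IR : Finset ℤ} {n : ℤ} (hn : n ∈ I) {θ : ℤ → ℝ} {Rv : ℤ → ℂ} {F : ℤ → ℂ}
    {fw' tf fN dN tE tδ dw tR c : ℂ} {κ Lf S lam q Lδ τ₁ τ₂ r w Ve : ℝ}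
    (hF : ∀ j, ‖F j‖ = 1) (hθ : ∀ j ∈ I, 0 ≤ θ j) (hθs : ∑ j ∈ I, θ j = 1) (hθn : 1 - κ ≤ θ n)
    (hfw : ‖fw'‖ ≤ Lf) (htf : ‖tf‖ ≤ Lf) (hLf : 0 ≤ Lf) (hfN : ‖fN‖ ≤ S) (hS : 0 ≤ S)
    (htE : ‖tE‖ ≤ lam) (hq : 0 ≤ q) (hdw : ‖dw‖ ≤ Lδ) (htδ : ‖tδ‖ ≤ Lδ) (hLδ : 0 ≤ Lδ)
    (hc : ‖c‖ = 1)
    (hR1 : ∑ j ∈ IR with j < n, ‖Rv j‖ ≤ τ₁) (hR2 : ‖Rv n‖ ≤ τ₂)
    (hdN : dN.im = 0) (hdNr : r ≤ dN.re) (hr : 0 ≤ r) (hw : 0 ≤ w) (htR : w ≤ tR.im)
    (hcc : (starRingEnd ℂ c) * c = 1)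
    (hold : Ve ≤ ((starRingEnd ℂ c) * tf).im) :
    Ve + q * r * w - (2 * κ * Lf + S * lam + q * (τ₁ * Lδ + τ₂ * Lδ)) ≤
      ((starRingEnd ℂ (F n)) * (starRingEnd ℂ c) *
        (((∑ j ∈ I with j < n, F j * ((θ j : ℂ) * fw')) +
          F n * ((θ n : ℂ) * tf + fN * c * tE)) +
        ((∑ j ∈ IR with j < n, F j * ((q : ℂ) * (Rv j * dw))) +
          F n * ((q : ℂ) * (Rv n * tδ + dN * c * tR))))).im := by
  have hFn : (starRingEnd ℂ (F n)) * F n = 1 := by
    rw [← Complex.normSq_eq_conj_mul_self, Complex.normSq_eq_norm_sq, hF n]; norm_num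
  have hθn1 : θ n ≤ 1 := by
    rw [← hθs]; exact Finset.single_le_sum hθ hn
  have hθn0 := hθ n hn
  have hκ : 0 ≤ κ := by linarith
  set u : ℂ := (starRingEnd ℂ (F n)) * (starRingEnd ℂ c) with hu
  have hun : ‖u‖ = 1 := by rw [hu, norm_mul, RCLike.norm_conj, RCLike.norm_conj, hF n, hc, mul_one]
  have hcn : ‖(starRingEnd ℂ) c‖ = 1 := by rw [RCLike.norm_conj, hc]
  -- expand
  have hexp : u * (((∑ j ∈ I with j < n, F j * ((θ j : ℂ) * fw')) +
          F n * ((θ n : ℂ) * tf + fN * c * tE)) +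
        ((∑ j ∈ IR with j < n, F j * ((q : ℂ) * (Rv j * dw))) +
          F n * ((q : ℂ) * (Rv n * tδ + dN * c * tR)))) =
      (θ n : ℂ) * ((starRingEnd ℂ c) * tf) + (q : ℂ) * dN * tR +
      (u * (∑ j ∈ I with j < n, F j * ((θ j : ℂ) * fw')) + fN * tE +
        u * (∑ j ∈ IR with j < n, F j * ((q : ℂ) * (Rv j * dw))) +
        (q : ℂ) * ((starRingEnd ℂ c) * (Rv n * tδ))) := by
    have e1 : u * F n = (starRingEnd ℂ) c := by
      rw [hu]; linear_combination ((starRingEnd ℂ) c) * hFn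
    linear_combination ((θ n : ℂ) * tf + fN * c * tE + (q : ℂ) * (Rv n * tδ + dN * c * tR)) * e1 +
      (fN * tE + (q : ℂ) * dN * tR) * hcc
  rw [hexp]
  -- errors
  have he1 : ‖u * (∑ j ∈ I with j < n, F j * ((θ j : ℂ) * fw'))‖ ≤ κ * Lf := by
    rw [norm_mul, hun, one_mul]
    refine (norm_sum_le _ _).trans ?_
    have h1 : ∀ j ∈ I.filter (· < n), ‖F j * ((θ j : ℂ) * fw')‖ ≤ θ j * Lf := by
      intro j hj
      have hj' := hθ j (Finset.mem_filter.mp hj).1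
      rw [norm_mul, hF, one_mul, norm_mul, Complex.norm_real, Real.norm_of_nonneg hj']
      exact mul_le_mul_of_nonneg_left hfw hj'
    refine (Finset.sum_le_sum h1).trans ?_
    rw [← Finset.sum_mul]
    apply mul_le_mul_of_nonneg_right _ hLf
    have h2 : ∑ j ∈ I.filter (· < n), θ j + θ n ≤ ∑ j ∈ I, θ j := by
      have h3 : ∑ j ∈ insert n (I.filter (· < n)), θ j ≤ ∑ j ∈ I, θ j := by
        refine Finset.sum_le_sum_of_subset_of_nonneg ?_ fun j hj _ => hθ j hj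
        intro j hj
        rcases Finset.mem_insert.mp hj with rfl | h
        · exact hn
        · exact (Finset.mem_filter.mp h).1
      rw [Finset.sum_insert (by simp)] at h3
      linarith
    rw [hθs] at h2
    linarith
  have he2 : ‖fN * tE‖ ≤ S * lam := by
    rw [norm_mul]
    exact mul_le_mul hfN htE (norm_nonneg _) hS
  have he3 : ‖u * (∑ j ∈ IR with j < n, F j * ((q : ℂ) * (Rv j * dw)))‖ ≤ q * (τ₁ * Lδ) := by
    rw [norm_mul, hun, one_mul]
    refine (norm_sum_le _ _).trans ?_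
    have h1 : ∀ j ∈ IR.filter (· < n), ‖F j * ((q : ℂ) * (Rv j * dw))‖ ≤ ‖Rv j‖ * (q * Lδ) := by
      intro j _
      rw [norm_mul, hF, one_mul, norm_mul, Complex.norm_real, Real.norm_of_nonneg hq, norm_mul]
      have := mul_le_mul_of_nonneg_left hdw (norm_nonneg (Rv j))
      nlinarith
    refine (Finset.sum_le_sum h1).trans ?_
    rw [← Finset.sum_mul]
    have : 0 ≤ q * Lδ := by positivity
    nlinarith
  have he4 : ‖(q : ℂ) * ((starRingEnd ℂ c) * (Rv n * tδ))‖ ≤ q * (τ₂ * Lδ) := by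
    rw [norm_mul, Complex.norm_real, Real.norm_of_nonneg hq, norm_mul, hcn, one_mul, norm_mul]
    apply mul_le_mul_of_nonneg_left _ hq
    exact mul_le_mul hR2 htδ (norm_nonneg _) ((norm_nonneg _).trans hR2)
  -- main terms
  have hm1 : Ve - κ * Lf ≤ ((θ n : ℂ) * ((starRingEnd ℂ c) * tf)).im := by
    rw [Complex.mul_im, Complex.ofReal_re, Complex.ofReal_im, zero_mul, add_zero]
    have h1 : |((starRingEnd ℂ c) * tf).im| ≤ Lf := by
      refine (Complex.abs_im_le_norm _).trans ?_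
      rw [norm_mul, hcn, one_mul]; exact htf
    have h2 := (abs_le.mp h1).2
    have h3 := (abs_le.mp h1).1
    nlinarith
  have hm2 : q * r * w ≤ ((q : ℂ) * dN * tR).im := by
    have h1 : (q : ℂ) * dN * tR = ((q * dN.re : ℝ) : ℂ) * tR := by
      have : dN = ((dN.re : ℝ) : ℂ) := by
        apply Complex.ext
        · simp
        · rw [hdN]; simp
      rw [this]; push_cast; simp
    rw [h1, Complex.mul_im, Complex.ofReal_re, Complex.ofReal_im, zero_mul, add_zero]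
    have h2 : q * r ≤ q * dN.re := mul_le_mul_of_nonneg_left hdNr hq
    exact mul_le_mul h2 htR hw (mul_nonneg hq (hr.trans hdNr))
  rw [Complex.add_im, Complex.add_im]
  have he : |(u * (∑ j ∈ I with j < n, F j * ((θ j : ℂ) * fw')) + fN * tE +
        u * (∑ j ∈ IR with j < n, F j * ((q : ℂ) * (Rv j * dw))) +
        (q : ℂ) * ((starRingEnd ℂ c) * (Rv n * tδ))).im| ≤
      κ * Lf + S * lam + q * (τ₁ * Lδ) + q * (τ₂ * Lδ) := by
    refine (Complex.abs_im_le_norm _).trans ?_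
    refine (norm_add_le _ _).trans (add_le_add ?_ he4)
    refine (norm_add_le _ _).trans (add_le_add ?_ he3)
    exact (norm_add_le _ _).trans (add_le_add he1 he2)
  have := (abs_le.mp he).1
  nlinarith

end Vale.Agent.P091.H409
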