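import Vale.Agent.P091.H409.Defs

set_option linter.all false

/-! Trigonometric polynomials as finitely supported families: evaluation, truncation,
spreading of two variable polynomials. -/

open MeasureTheory AddCircle Finset

namespace Vale.Agent.P091.H409

variable {T : ℝ}

lemma ev_zero (x : AddCircle T) : ev (0 : ℤ →₀ ℂ) x = 0 := by
  simp [ev]

lemma ev_add (p q : ℤ →₀ ℂ) (x : AddCircle T) : ev (p + q) x = ev p x + ev q x := by
  unfold ev
  exact Finsupp.sum_add_index' (fun _ => by simp) (fun _ _ _ => by ring)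

lemma ev_single (k : ℤ) (z : ℂ) (x : AddCircle T) :
    ev (Finsupp.single k z) x = z * fourier k x := by
  unfold ev
  exact Finsupp.sum_single_index (by simp)

lemma ev_smul (z : ℂ) (p : ℤ →₀ ℂ) (x : AddCircle T) : ev (z • p) x = z * ev p x := by
  unfold ev
  rw [Finsupp.sum_smul_index' (fun _ => by simp), Finsupp.mul_sum]
  refine Finsupp.sum_congr fun k _ => ?_
  rw [smul_eq_mul]; ring

/-- evaluation as an additive map -/
noncomputable def evHom (x : AddCircle T) : (ℤ →₀ ℂ) →+ ℂ where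
  toFun p := ev p x
  map_zero' := ev_zero x
  map_add' p q := ev_add p q x

lemma evHom_apply (x : AddCircle T) (p : ℤ →₀ ℂ) : evHom x p = ev p x := rfl

lemma ev_sum {ι : Type*} (s : Finset ι) (p : ι → ℤ →₀ ℂ) (x : AddCircle T) :
    ev (∑ i ∈ s, p i) x = ∑ i ∈ s, ev (p i) x := by
  rw [← evHom_apply, map_sum]; rfl

lemma ev_eq_sum (p : ℤ →₀ ℂ) (x : AddCircle T) :
    ev p x = ∑ k ∈ p.support, p k * fourier k x := rfl

lemma ev_eq_sum_of_subset (p : ℤ →₀ ℂ) (x : AddCircle T) {s : Finset ℤ} (h : p.support ⊆ s) :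
    ev p x = ∑ k ∈ s, p k * fourier k x := by
  rw [ev_eq_sum]
  refine Finset.sum_subset h fun k _ hk => ?_
  rw [Finsupp.notMem_support_iff.mp hk, zero_mul]

lemma continuous_ev (p : ℤ →₀ ℂ) : Continuous (ev p : AddCircle T → ℂ) := by
  unfold ev Finsupp.sum
  fun_prop

lemma norm_fourier (k : ℤ) (x : AddCircle T) : ‖fourier k x‖ = 1 := by
  rw [fourier_apply]; exact Circle.norm_coe _

/-- sum of the absolute values of the coefficients -/
noncomputable def l1 (p : ℤ →₀ ℂ) : ℝ := ∑ k ∈ p.support, ‖p k‖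

lemma l1_nonneg (p : ℤ →₀ ℂ) : 0 ≤ l1 p := Finset.sum_nonneg fun _ _ => norm_nonneg _

lemma norm_ev_le (p : ℤ →₀ ℂ) (x : AddCircle T) : ‖ev p x‖ ≤ l1 p := by
  rw [ev_eq_sum]
  refine (norm_sum_le _ _).trans (Finset.sum_le_sum fun k _ => ?_)
  rw [norm_mul, norm_fourier, mul_one]

lemma norm_coeff_le_l1 (p : ℤ →₀ ℂ) (k : ℤ) : ‖p k‖ ≤ l1 p := by
  by_cases hk : k ∈ p.support
  · exact Finset.single_le_sum (f := fun k => ‖p k‖) (fun _ _ => norm_nonneg _) hk
  · rw [Finsupp.notMem_support_iff.mp hk, norm_zero]; exact l1_nonneg p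

lemma trunc_apply (N : ℤ) (p : ℤ →₀ ℂ) (k : ℤ) :
    trunc N p k = if k < N then p k else 0 := by
  unfold trunc
  rw [Finsupp.filter_apply]

lemma trunc_zero (N : ℤ) : trunc N (0 : ℤ →₀ ℂ) = 0 := by
  ext k; simp [trunc_apply]

lemma trunc_add (N : ℤ) (p q : ℤ →₀ ℂ) : trunc N (p + q) = trunc N p + trunc N q := by
  ext k; simp only [trunc_apply, Finsupp.add_apply]; split_ifs <;> simp

lemma trunc_smul (N : ℤ) (z : ℂ) (p : ℤ →₀ ℂ) : trunc N (z • p) = z • trunc N p := by
  ext k; simp only [trunc_apply, Finsupp.smul_apply]; split_ifs <;> simp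

/-- truncation as an additive map -/
noncomputable def truncHom (N : ℤ) : (ℤ →₀ ℂ) →+ (ℤ →₀ ℂ) where
  toFun p := trunc N p
  map_zero' := trunc_zero N
  map_add' p q := trunc_add N p q

lemma truncHom_apply (N : ℤ) (p : ℤ →₀ ℂ) : truncHom N p = trunc N p := rfl

lemma trunc_sum {ι : Type*} (s : Finset ι) (N : ℤ) (p : ι → ℤ →₀ ℂ) :
    trunc N (∑ i ∈ s, p i) = ∑ i ∈ s, trunc N (p i) := by
  rw [← truncHom_apply, map_sum]; rfl

lemma support_trunc (N : ℤ) (p : ℤ →₀ ℂ) : (trunc N p).support ⊆ p.support := by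
  intro k hk
  rw [Finsupp.mem_support_iff, trunc_apply] at hk
  rw [Finsupp.mem_support_iff]
  intro h
  rw [h] at hk
  simp at hk

lemma l1_trunc_le (N : ℤ) (p : ℤ →₀ ℂ) : l1 (trunc N p) ≤ l1 p := by
  unfold l1
  refine (Finset.sum_le_sum fun k hk => ?_).trans
    (Finset.sum_le_sum_of_subset_of_nonneg (support_trunc N p) fun _ _ _ => norm_nonneg _)
  rw [trunc_apply]
  split_ifs
  · exact le_rfl
  · simp

lemma norm_ev_trunc_le (N : ℤ) (p : ℤ →₀ ℂ) (x : AddCircle T) : ‖ev (trunc N p) x‖ ≤ l1 p :=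
  (norm_ev_le _ x).trans (l1_trunc_le N p)

lemma trunc_of_lt {N : ℤ} {p : ℤ →₀ ℂ} (h : ∀ k ∈ p.support, k < N) : trunc N p = p := by
  ext k
  rw [trunc_apply]
  split_ifs with hk
  · rfl
  · by_contra hc
    exact hk (h k (Finsupp.mem_support_iff.mpr (Ne.symm hc)))

lemma trunc_of_le {N : ℤ} {p : ℤ →₀ ℂ} (h : ∀ k ∈ p.support, N ≤ k) : trunc N p = 0 := by
  ext k
  rw [trunc_apply]
  split_ifs with hk
  · by_contra hc
    have := h k (Finsupp.mem_support_iff.mpr hc)
    omega
  · rfl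

/-- multiplication by the character of frequency `j` -/
noncomputable def shiftBy (j : ℤ) (p : ℤ →₀ ℂ) : ℤ →₀ ℂ := p.mapDomain (· + j)

lemma shiftBy_apply (j : ℤ) (p : ℤ →₀ ℂ) (k : ℤ) : shiftBy j p k = p (k - j) := by
  unfold shiftBy
  have h : k = (fun a : ℤ => a + j) (k - j) := by simp
  conv_lhs => rw [h]
  exact Finsupp.mapDomain_apply (add_left_injective j) p (k - j)

lemma shiftBy_zero (j : ℤ) : shiftBy j (0 : ℤ →₀ ℂ) = 0 := by
  ext k; simp [shiftBy_apply]

lemma shiftBy_add (j : ℤ) (p q : ℤ →₀ ℂ) : shiftBy j (p + q) = shiftBy j p + shiftBy j q := by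
  ext k; simp [shiftBy_apply]

lemma shiftBy_smul (j : ℤ) (z : ℂ) (p : ℤ →₀ ℂ) : shiftBy j (z • p) = z • shiftBy j p := by
  ext k; simp [shiftBy_apply]

lemma shiftBy_single (j k : ℤ) (z : ℂ) :
    shiftBy j (Finsupp.single k z) = Finsupp.single (k + j) z := by
  unfold shiftBy; rw [Finsupp.mapDomain_single]

lemma fourier_add_mul (j k : ℤ) (x : AddCircle T) :
    fourier (j + k) x = fourier j x * fourier k x := by
  exact fourier_add

lemma ev_shiftBy (j : ℤ) (p : ℤ →₀ ℂ) (x : AddCircle T) :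
    ev (shiftBy j p) x = fourier j x * ev p x := by
  induction p using Finsupp.induction_linear with
  | zero => simp [shiftBy_zero, ev_zero]
  | add p q hp hq => rw [shiftBy_add, ev_add, hp, hq, ev_add]; ring
  | single k z => rw [shiftBy_single, ev_single, ev_single, fourier_add_mul]; ring

lemma trunc_shiftBy (N j : ℤ) (p : ℤ →₀ ℂ) :
    trunc N (shiftBy j p) = shiftBy j (trunc (N - j) p) := by
  ext k
  rw [trunc_apply, shiftBy_apply, shiftBy_apply, trunc_apply]
  have : k < N ↔ k - j < N - j := by omega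
  simp only [this]

/-- Families of polynomials with support in `2 |a| < M`. -/
def Small (M : ℤ) (p : ℤ →₀ ℂ) : Prop := ∀ a ∈ p.support, 2 * |a| < M

lemma Small.apply_eq_zero {M : ℤ} {p : ℤ →₀ ℂ} (h : Small M p) {a : ℤ} (ha : M ≤ 2 * |a|) :
    p a = 0 := by
  by_contra hc
  have := h a (Finsupp.mem_support_iff.mpr hc)
  omega

lemma small_of_bound {M : ℤ} {p : ℤ →₀ ℂ} (h : ∀ a, M ≤ 2 * |a| → p a = 0) : Small M p := by
  intro a ha
  by_contra hc
  exact Finsupp.mem_support_iff.mp ha (h a (by omega))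

lemma Small.mono {M M' : ℤ} {p : ℤ →₀ ℂ} (h : Small M p) (hM : M ≤ M') : Small M' p :=
  fun a ha => (h a ha).trans_le hM

lemma Small.add {M : ℤ} {p q : ℤ →₀ ℂ} (hp : Small M p) (hq : Small M q) : Small M (p + q) := by
  apply small_of_bound
  intro a ha
  rw [Finsupp.add_apply, hp.apply_eq_zero ha, hq.apply_eq_zero ha, add_zero]

lemma Small.smul {M : ℤ} {p : ℤ →₀ ℂ} (hp : Small M p) (z : ℂ) : Small M (z • p) := by
  apply small_of_bound
  intro a ha
  rw [Finsupp.smul_apply, hp.apply_eq_zero ha, smul_zero]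

lemma small_zero {M : ℤ} : Small M (0 : ℤ →₀ ℂ) := by
  intro a ha; simp at ha

lemma exists_small (p : ℤ →₀ ℂ) : ∃ M₀ : ℕ, ∀ M : ℤ, (M₀ : ℤ) ≤ M → Small M p := by
  refine ⟨∑ a ∈ p.support, (2 * |a|).toNat + 1, fun M hM a ha => ?_⟩
  have h1 : (2 * |a|).toNat ≤ ∑ a ∈ p.support, (2 * |a|).toNat :=
    Finset.single_le_sum (f := fun a : ℤ => (2 * |a|).toNat) (fun _ _ => Nat.zero_le _) ha
  have h2 : 2 * |a| ≤ ((2 * |a|).toNat : ℤ) := Int.self_le_toNat _
  push_cast at hM
  have h3 : ((2 * |a|).toNat : ℤ) ≤ ∑ a ∈ p.support, ((2 * |a|).toNat : ℤ) := by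
    exact_mod_cast h1
  omega

/-- `A(x, M x)` for a two variable polynomial `A(x, y) = ∑ A_k(x) e(k y)`. -/
noncomputable def spread (M : ℤ) (A : ℤ →₀ (ℤ →₀ ℂ)) : ℤ →₀ ℂ :=
  A.sum fun k p => shiftBy (M * k) p

lemma ev_spread (M : ℕ) (A : ℤ →₀ (ℤ →₀ ℂ)) (x : AddCircle T) :
    ev (spread M A) x = ev2 A x (M • x) := by
  unfold spread ev2 Finsupp.sum
  rw [ev_sum]
  refine Finset.sum_congr rfl fun k _ => ?_
  rw [ev_shiftBy]
  have : (fourier ((M : ℤ) * k) x : ℂ) = fourier k (M • x) := by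
    rw [fourier_apply, fourier_apply]
    congr 2
    rw [mul_comm, mul_smul, natCast_zsmul]
  rw [this]; ring

lemma spread_coeff {M : ℤ} {A : ℤ →₀ (ℤ →₀ ℂ)} (hA : ∀ k, Small M (A k)) {a k : ℤ}
    (ha : 2 * |a| < M) : spread M A (a + M * k) = A k a := by
  unfold spread Finsupp.sum
  rw [Finsupp.finsetSum_apply]
  rw [Finset.sum_eq_single k]
  · rw [shiftBy_apply, add_sub_cancel_right]
  · intro k' _ hk'
    rw [shiftBy_apply]
    apply (hA k').apply_eq_zero
    have h1 : a + M * k - M * k' = a + M * (k - k') := by ring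
    rw [h1]
    have h2 : 1 ≤ |k - k'| := Int.one_le_abs (by omega)
    have hM : 0 < M := by have := abs_nonneg a; omega
    have h3 : M ≤ |M * (k - k')| := by
      rw [abs_mul, abs_of_pos hM]; nlinarith
    have h4 : |M * (k - k')| ≤ |a + M * (k - k')| + |a| := by
      have := abs_sub_abs_le_abs_sub (M * (k - k')) (-a)
      rw [abs_neg, sub_neg_eq_add, add_comm (M * (k - k')) a] at this
      omega
    omega
  · intro hk
    rw [Finsupp.notMem_support_iff.mp hk]
    simp [shiftBy_zero]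

/-- the key formula for partial sums of `A(x, M x)` -/
lemma ev_trunc_spread {M : ℕ} {A : ℤ →₀ (ℤ →₀ ℂ)} (hA : ∀ k, Small M (A k)) {n s : ℤ}
    (hs : 2 * |s| < M) (x : AddCircle T) :
    ev (trunc (M * n + s) (spread M A)) x =
      (∑ k ∈ A.support with k < n, fourier k (M • x) * ev (A k) x) +
        fourier n (M • x) * ev (trunc s (A n)) x := by
  have hM : (0 : ℤ) < M := by have := abs_nonneg s; omega
  have hf : ∀ k : ℤ, (fourier ((M : ℤ) * k) x : ℂ) = fourier k (M • x) := by
    intro k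
    rw [fourier_apply, fourier_apply]
    congr 2
    rw [mul_comm, mul_smul, natCast_zsmul]
  unfold spread Finsupp.sum
  rw [trunc_sum, ev_sum]
  have key : ∀ k ∈ A.support, ev (trunc (M * n + s) (shiftBy (M * k) (A k))) x =
      (if k < n then fourier k (M • x) * ev (A k) x else 0) +
        (if k = n then fourier n (M • x) * ev (trunc s (A n)) x else 0) := by
    intro k _
    rw [trunc_shiftBy, ev_shiftBy, hf]
    rcases lt_trichotomy k n with h | h | h
    · rw [if_pos h, if_neg h.ne, add_zero, trunc_of_lt]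
      intro a ha
      have h1 := hA k a ha
      have h2 : (M : ℤ) * n - M * k = M * (n - k) := by ring
      have h3 : (M : ℤ) ≤ M * (n - k) := by nlinarith
      have h4 := le_abs_self a
      have h5 := neg_abs_le s
      have h6 := abs_nonneg a
      omega
    · subst h
      rw [if_neg (lt_irrefl _), if_pos rfl, zero_add]
      congr 3
      ring
    · rw [if_neg (not_lt.mpr h.le), if_neg h.ne', add_zero, trunc_of_le, ev_zero, mul_zero]
      intro a ha
      have h1 := hA k a ha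
      have h2 : (M : ℤ) * n - M * k = M * (n - k) := by ring
      have h3 : (M : ℤ) * (n - k) ≤ -M := by nlinarith
      have h4 := neg_abs_le a
      have h5 := le_abs_self s
      have h6 := abs_nonneg a
      omega
  rw [Finset.sum_congr rfl key, Finset.sum_add_distrib, ← Finset.sum_filter]
  congr 1
  rw [Finset.sum_ite_eq' A.support n]
  split_ifs with hn
  · rfl
  · rw [Finsupp.notMem_support_iff.mp hn, trunc_zero, ev_zero, mul_zero]

/-- the product `p(x) q(M x)` -/
noncomputable def join (M : ℤ) (p q : ℤ →₀ ℂ) : ℤ →₀ ℂ :=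
  spread M (q.mapRange (fun z => z • p) (zero_smul ℂ p))

lemma ev_join (M : ℕ) (p q : ℤ →₀ ℂ) (x : AddCircle T) :
    ev (join M p q) x = ev p x * ev q (M • x) := by
  unfold join
  rw [ev_spread]
  unfold ev2
  rw [Finsupp.sum_mapRange_index (fun k => by rw [ev_zero, zero_mul])]
  unfold ev
  rw [Finsupp.mul_sum]
  refine Finsupp.sum_congr fun k _ => ?_
  have := ev_smul (q k) p x
  unfold ev at this
  rw [this]; ring

lemma join_small {M : ℤ} {p : ℤ →₀ ℂ} (q : ℤ →₀ ℂ) (hp : Small M p) (k : ℤ) :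
    Small M ((q.mapRange (fun z => z • p) (zero_smul ℂ p)) k) := by
  rw [Finsupp.mapRange_apply]
  exact hp.smul _

lemma join_coeff {M : ℤ} {p q : ℤ →₀ ℂ} (hp : Small M p) {a k : ℤ} (ha : 2 * |a| < M) :
    join M p q (a + M * k) = p a * q k := by
  unfold join
  rw [spread_coeff (join_small q hp) ha, Finsupp.mapRange_apply, Finsupp.smul_apply, smul_eq_mul,
    mul_comm]

lemma ev_trunc_join {M : ℕ} {p q : ℤ →₀ ℂ} (hp : Small M p) {n s : ℤ}
    (hs : 2 * |s| < M) (x : AddCircle T) :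
    ev (trunc (M * n + s) (join M p q)) x =
      ev p x * ev (trunc n q) (M • x) + q n * fourier n (M • x) * ev (trunc s p) x := by
  unfold join
  rw [ev_trunc_spread (join_small q hp) hs]
  congr 1
  · have h1 : ev (trunc n q) (M • x) = ∑ k ∈ q.support with k < n, q k * fourier k (M • x) := by
      rw [ev_eq_sum]
      have h2 : (trunc n q).support = q.support.filter (· < n) := by
        unfold trunc; exact Finsupp.support_filter _ _
      rw [h2]
      refine Finset.sum_congr rfl fun k hk => ?_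
      rw [trunc_apply, if_pos (Finset.mem_filter.mp hk).2]
    rw [h1, Finset.mul_sum]
    have hsub : (q.mapRange (fun z => z • p) (zero_smul ℂ p)).support ⊆ q.support :=
      Finsupp.support_mapRange
    have h3 : ∑ k ∈ (q.mapRange (fun z => z • p) (zero_smul ℂ p)).support with k < n,
        fourier k (M • x) * ev ((q.mapRange (fun z => z • p) (zero_smul ℂ p)) k) x =
        ∑ k ∈ q.support with k < n,
        fourier k (M • x) * ev ((q.mapRange (fun z => z • p) (zero_smul ℂ p)) k) x := by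
      refine Finset.sum_subset (Finset.filter_subset_filter _ hsub) fun k hk hk' => ?_
      have : k ∉ (q.mapRange (fun z => z • p) (zero_smul ℂ p)).support := by
        intro h
        exact hk' (Finset.mem_filter.mpr ⟨h, (Finset.mem_filter.mp hk).2⟩)
      rw [Finsupp.notMem_support_iff.mp this, ev_zero, mul_zero]
    rw [h3]
    refine Finset.sum_congr rfl fun k _ => ?_
    rw [Finsupp.mapRange_apply, ev_smul]; ring
  · rw [Finsupp.mapRange_apply, trunc_smul, ev_smul]; ring

end Vale.Agent.P091.H409
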