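import Vale.Agent.P091.H409.Point

set_option linter.all false

/-! The step theorem for sums of blocks. -/

open MeasureTheory AddCircle Finset
open scoped Real

namespace Vale.Agent.P091.H409

variable {T : ℝ} [hT : Fact (0 < T)]

lemma small_single_one {M : ℤ} (hM : 0 < M) : Small M (Finsupp.single 0 (1 : ℂ)) := by
  apply small_of_bound
  intro a ha
  rw [Finsupp.single_apply, if_neg]
  rintro rfl
  simp at ha
  omega

lemma conj_fourier (k : ℤ) (x : AddCircle T) :
    (starRingEnd ℂ) (fourier k x : ℂ) = fourier (-k) x := by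
  rw [fourier_neg]

/-- sets of a simple partition: the smoothed indicators are close to one -/
lemma partition_smooth {NE : AddCircle T → ℤ} (hNE : Measurable NE) (I : Finset ℤ)
    {κ η : ℝ} (hκ : 0 < κ) (hη : 0 < η) (hI : ∀ x, NE x ∈ I) :
    ∃ J₀ : ℕ, 0 < J₀ ∧ (haarAddCircle {x : AddCircle T |
      ¬ 1 - κ ≤ (ev (theta J₀ (NE ⁻¹' {NE x})) x).re}).toReal ≤ η := by
  have hAm : ∀ n : ℤ, MeasurableSet (NE ⁻¹' {n}) := fun n => hNE (measurableSet_singleton n)
  set c : ℝ := (I.card : ℝ) + 1 with hc
  have hc0 : 0 < c := by positivity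
  choose J₀ hJ₀ using fun n : ℤ => theta_conv (T := T) (hAm n) (ε := κ * η / c) (by positivity)
  set J : ℕ := (∑ n ∈ I, J₀ n) + 1 with hJ
  have hJ0 : 0 < J := by omega
  refine ⟨J, hJ0, ?_⟩
  -- the function `h x = 1 - θ_{NE x}(x)`
  set h : AddCircle T → ℝ := fun x => ∑ n ∈ I, (NE ⁻¹' {n}).indicator
    (fun x => 1 - (ev (theta J (NE ⁻¹' {n})) x).re) x with hh
  have hval : ∀ x, h x = 1 - (ev (theta J (NE ⁻¹' {NE x})) x).re := by
    intro x
    rw [hh]
    simp only
    rw [Finset.sum_eq_single (NE x)]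
    · rw [Set.indicator_of_mem]; rfl
    · intro n _ hn
      rw [Set.indicator_of_notMem]
      intro hx
      exact hn hx.symm
    · intro hx; exact absurd (hI x) hx
  have hint : ∀ n ∈ I, Integrable ((NE ⁻¹' {n}).indicator
      (fun x => 1 - (ev (theta J (NE ⁻¹' {n})) x).re)) (haarAddCircle (T := T)) := by
    intro n _
    refine Integrable.indicator ?_ (hAm n)
    exact integrable_cont (continuous_const.sub (Complex.continuous_re.comp (continuous_ev _)))
  have hhint : Integrable h (haarAddCircle (T := T)) := by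
    rw [hh]
    exact integrable_finsetSum _ hint
  have hh0 : ∀ x, 0 ≤ h x := by
    intro x
    rw [hval]
    have := ev_theta_re_le_one (T := T) hJ0 (hAm (NE x)) x
    linarith
  have hhi : ∫ x, h x ∂haarAddCircle ≤ κ * η := by
    rw [hh]
    simp only
    rw [integral_finsetSum _ hint]
    have h1 : ∀ n ∈ I, ∫ x, (NE ⁻¹' {n}).indicator
        (fun x => 1 - (ev (theta J (NE ⁻¹' {n})) x).re) x ∂haarAddCircle ≤ κ * η / c := by
      intro n hn
      have hre : Integrable (fun x : AddCircle T => (ev (theta J (NE ⁻¹' {n})) x).re)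
          haarAddCircle := integrable_cont (Complex.continuous_re.comp (continuous_ev _))
      rw [integral_indicator (hAm n), integral_sub (integrable_const _) hre.integrableOn]
      have h2 := hJ₀ n J (by
        have : J₀ n ≤ ∑ n ∈ I, J₀ n :=
          Finset.single_le_sum (f := J₀) (fun _ _ => Nat.zero_le _) hn
        omega)
      have h3 : ∫ x in NE ⁻¹' {n}, (1 : ℝ) ∂(haarAddCircle (T := T)) =
          (haarAddCircle (NE ⁻¹' {n})).toReal := by
        simp [Measure.real]
      rw [h3]
      linarith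
    refine (Finset.sum_le_sum h1).trans ?_
    rw [Finset.sum_const, nsmul_eq_mul, ← mul_div_assoc, div_le_iff₀ hc0, hc]
    have : 0 ≤ κ * η := by positivity
    nlinarith
  -- Markov
  have hmk := mul_meas_ge_le_integral_of_nonneg (μ := haarAddCircle (T := T)) (f := h)
    (Filter.Eventually.of_forall hh0) hhint κ
  have hsub : (haarAddCircle {x : AddCircle T |
      ¬ 1 - κ ≤ (ev (theta J (NE ⁻¹' {NE x})) x).re}).toReal ≤
      (haarAddCircle (T := T)).real {x : AddCircle T | κ ≤ h x} := by
    apply ENNReal.toReal_mono (measure_ne_top _ _)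
    apply measure_mono
    intro x hx
    simp only [Set.mem_setOf_eq, not_le] at hx ⊢
    rw [hval]; linarith
  have h4 : κ * (haarAddCircle (T := T)).real {x : AddCircle T | κ ≤ h x} ≤ κ * η :=
    hmk.trans hhi
  exact hsub.trans (le_of_mul_le_mul_left h4 hκ)

/-- the square function of the negative parts of the smoothed indicators -/
lemma partition_square {NE : AddCircle T → ℤ} (hNE : Measurable NE) (I : Finset ℤ)
    (J : ℕ) {lam : ℝ} (hlam : 0 < lam) :
    (haarAddCircle {x : AddCircle T |
      ¬ ∑ n ∈ I, ‖ev (trunc 0 (theta J (NE ⁻¹' {n}))) x‖ ^ 2 ≤ lam ^ 2}).toReal ≤ 1 / lam ^ 2 := by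
  have hAm : ∀ n : ℤ, MeasurableSet (NE ⁻¹' {n}) := fun n => hNE (measurableSet_singleton n)
  set h : AddCircle T → ℝ :=
    fun x => ∑ n ∈ I, ‖ev (trunc 0 (theta J (NE ⁻¹' {n}))) x‖ ^ 2 with hh
  have hhc : Continuous h := by
    rw [hh]
    exact continuous_finset_sum _ fun n _ => (continuous_ev _).norm.pow 2
  have hh0 : ∀ x, 0 ≤ h x := fun x => Finset.sum_nonneg fun n _ => by positivity
  have hhi : ∫ x, h x ∂haarAddCircle ≤ 1 := by
    rw [hh]
    simp only
    have hsq : ∀ n ∈ I, Integrable (fun x : AddCircle T =>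
        ‖ev (trunc 0 (theta J (NE ⁻¹' {n}))) x‖ ^ 2) haarAddCircle :=
      fun n _ => integrable_cont ((continuous_ev _).norm.pow 2)
    rw [integral_finsetSum _ hsq]
    have h1 : ∀ n ∈ I, ∫ x : AddCircle T, ‖ev (trunc 0 (theta J (NE ⁻¹' {n}))) x‖ ^ 2
        ∂haarAddCircle ≤ (haarAddCircle (T := T)).real (NE ⁻¹' {n}) := by
      intro n _
      rw [integral_norm_sq_ev]
      exact (l2_trunc_le _ _).trans (l2_theta_le (hAm n))
    refine (Finset.sum_le_sum h1).trans ?_
    have h2 : ∑ n ∈ I, (haarAddCircle (T := T)).real (NE ⁻¹' {n}) =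
        (haarAddCircle (T := T)).real (⋃ n ∈ I, NE ⁻¹' {n}) := by
      rw [measureReal_biUnion_finset]
      · intro m _ n _ hmn
        exact Disjoint.preimage _ (Set.disjoint_singleton.mpr hmn)
      · intro n _; exact hAm n
    rw [h2]
    exact toReal_le_one _
  have hmk := mul_meas_ge_le_integral_of_nonneg (μ := haarAddCircle (T := T)) (f := h)
    (Filter.Eventually.of_forall hh0) (integrable_cont hhc) (lam ^ 2)
  have hsub : (haarAddCircle {x : AddCircle T | ¬ h x ≤ lam ^ 2}).toReal ≤
      (haarAddCircle (T := T)).real {x : AddCircle T | lam ^ 2 ≤ h x} := by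
    apply ENNReal.toReal_mono (measure_ne_top _ _)
    apply measure_mono
    intro x hx
    simp only [Set.mem_setOf_eq, not_le] at hx ⊢
    exact hx.le
  rw [le_div_iff₀ (by positivity)]
  have h4 : 0 < lam ^ 2 := by positivity
  nlinarith

end Vale.Agent.P091.H409
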