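import Vale.Agent.P091.H409.BlockIter

set_option linter.all false

/-! Adding one block to a sum of blocks. -/

open MeasureTheory AddCircle Finset
open scoped Real

namespace Vale.Agent.P091.H409

variable {T : ℝ} [hT : Fact (0 < T)]

/-- State after adding `K` blocks. -/
def SumSt (T : ℝ) [Fact (0 < T)] (K : ℕ) (p Hs : ℕ → ℝ) (D r γ e mlo var : ℝ) : Prop :=
  ∃ (P : ℕ → ℤ →₀ ℂ) (δ : ℤ →₀ ℂ) (N : AddCircle T → ℤ) (V : AddCircle T → ℝ)
    (G : Set (AddCircle T)) (JN : ℕ) (C : ℝ),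
    (∀ k, k < K → ∀ x : AddCircle T, ‖ev (P k) x‖ ≤ Hs k) ∧
    (∀ k, k < K → ∫ x : AddCircle T, ‖ev (P k) x‖ ∂haarAddCircle ≤ p k) ∧
    (∀ x : AddCircle T, (ev δ x).im = 0 ∧ 0 ≤ (ev δ x).re ∧ (ev δ x).re ≤ D) ∧ δ 0 = 1 ∧
    Measurable N ∧ (∀ x, |N x| ≤ JN) ∧
    (∀ x, (δ (N x)).im = 0 ∧ r ≤ (δ (N x)).re) ∧
    Measurable V ∧ (∀ x, 0 ≤ V x) ∧ (∀ x, V x ≤ C) ∧
    MeasurableSet G ∧ (haarAddCircle Gᶜ).toReal ≤ γ ∧
    (∀ x ∈ G, V x - e ≤ (fourier (-N x) x * ev (trunc (N x) (∑ k ∈ range K, P k)) x).im) ∧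
    mlo ≤ ∫ x, V x ∂haarAddCircle ∧
    ∫ x, (V x) ^ 2 ∂haarAddCircle ≤ (∫ x, V x ∂haarAddCircle) ^ 2 + var

lemma sumSt_zero (p Hs : ℕ → ℝ) : SumSt T 0 p Hs 1 1 0 0 0 0 := by
  refine ⟨fun _ => 0, Finsupp.single 0 1, fun _ => 0, fun _ => 0, Set.univ, 0, 0, ?_, ?_, ?_, ?_,
    measurable_const, ?_, ?_, measurable_const, ?_, ?_, MeasurableSet.univ, ?_, ?_, ?_, ?_⟩
  · intro k hk; omega
  · intro k hk; omega
  · intro x; rw [ev_single]; simp
  · simp
  · intro x; simp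
  · intro x; simp
  · intro x; exact le_rfl
  · intro x; exact le_rfl
  · simp
  · intro x _
    simp [trunc_zero, ev_zero]
  · simp
  · simp

lemma join_zero_right (M : ℤ) (p : ℤ →₀ ℂ) : join M p 0 = 0 := by
  unfold join
  simp [spread]

/-- evaluation of a family of joins -/
lemma ev2_mapRange_join (M : ℕ) (E : ℤ →₀ (ℤ →₀ ℂ)) (c : ℂ) (g : ℤ →₀ ℂ) (h0)
    (x y : AddCircle T) :
    ev2 (E.mapRange (fun q => c • join M q g) h0) x y = c * (ev2 E x y * ev g (M • x)) := by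
  rw [ev2_eq_sum_of_subset _ x y (s := E.support) Finsupp.support_mapRange, ev2_eq_sum,
    Finset.sum_mul, Finset.mul_sum]
  refine Finset.sum_congr rfl fun k _ => ?_
  rw [Finsupp.mapRange_apply, ev_smul, ev_join]; ring

lemma ev_trunc_spread' {M : ℕ} {A : ℤ →₀ (ℤ →₀ ℂ)} (hA : ∀ k, Small M (A k)) {n s : ℤ}
    (hs : 2 * |s| < M) {I : Finset ℤ} (hI : A.support ⊆ I) (x : AddCircle T) :
    ev (trunc (M * n + s) (spread M A)) x =
      (∑ k ∈ I with k < n, fourier k (M • x) * ev (A k) x) +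
        fourier n (M • x) * ev (trunc s (A n)) x := by
  rw [ev_trunc_spread hA hs]
  congr 1
  refine Finset.sum_subset (Finset.filter_subset_filter _ hI) fun k hk hk' => ?_
  have : k ∉ A.support := by
    intro h
    exact hk' (Finset.mem_filter.mpr ⟨h, (Finset.mem_filter.mp hk).2⟩)
  rw [Finsupp.notMem_support_iff.mp this, ev_zero, mul_zero]

lemma fourier_neg_mul_self (k : ℤ) (x : AddCircle T) :
    (fourier (-k) x : ℂ) * fourier k x = 1 := by
  rw [← fourier_add_mul]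
  simp

lemma fourier_mul_nat (M : ℕ) (k : ℤ) (x : AddCircle T) :
    (fourier ((M : ℤ) * k) x : ℂ) = fourier k (M • x) := by
  rw [fourier_apply, fourier_apply]
  congr 2
  rw [mul_comm, mul_smul, natCast_zsmul]

/-- the algebraic identity for one new block and the smoothed modulation -/
lemma block_identity {M₁ M₂ : ℕ} {K : ℕ} {P : ℕ → ℤ →₀ ℂ} {δ : ℤ →₀ ℂ}
    {R E : ℤ →₀ (ℤ →₀ ℂ)} {q : ℂ} {I IR : Finset ℤ} (hI : E.support ⊆ I) (hIR : R.support ⊆ IR)
    (hE1 : ∀ k, Small M₁ (E k)) (hR1 : ∀ k, Small M₁ (R k)) (hM1 : (0 : ℤ) < M₁)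
    (hE2 : ∀ k, ∀ j, k < K → Small M₂ (join M₁ (E j) (P k)))
    (hR2 : ∀ j, Small M₂ (join M₁ (R j) δ))
    (h0E : ∀ k, join (M₁ : ℤ) 0 (P k) = 0) (h0R : q • join (M₁ : ℤ) 0 δ = 0)
    {n N : ℤ} (hN : 2 * |(M₁ : ℤ) * N| < M₂) (x : AddCircle T) :
    ev (trunc (M₂ * n + M₁ * N)
      ((∑ k ∈ range K, spread M₂ (E.mapRange (fun q => join M₁ q (P k)) (h0E k))) +
        spread M₂ (R.mapRange (fun q' => q • join M₁ q' δ) h0R))) x =
      ((∑ j ∈ I with j < n, fourier j (M₂ • x) * (ev (E j) x * ev (∑ k ∈ range K, P k) (M₁ • x))) +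
        fourier n (M₂ • x) * (ev (E n) x * ev (trunc N (∑ k ∈ range K, P k)) (M₁ • x) +
          (∑ k ∈ range K, P k) N * fourier N (M₁ • x) * ev (trunc 0 (E n)) x)) +
      ((∑ j ∈ IR with j < n, fourier j (M₂ • x) * (q * (ev (R j) x * ev δ (M₁ • x)))) +
        fourier n (M₂ • x) * (q * (ev (R n) x * ev (trunc N δ) (M₁ • x) +
          δ N * fourier N (M₁ • x) * ev (trunc 0 (R n)) x))) := by
  have hs0 : 2 * |(0 : ℤ)| < M₁ := by simpa using hM1
  rw [trunc_add, ev_add, trunc_sum, ev_sum]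
  congr 1
  · -- the old blocks
    have h1 : ∀ k ∈ range K, ev (trunc (M₂ * n + M₁ * N)
        (spread M₂ (E.mapRange (fun q => join M₁ q (P k)) (h0E k)))) x =
        (∑ j ∈ I with j < n, fourier j (M₂ • x) * (ev (E j) x * ev (P k) (M₁ • x))) +
        fourier n (M₂ • x) * (ev (E n) x * ev (trunc N (P k)) (M₁ • x) +
          (P k) N * fourier N (M₁ • x) * ev (trunc 0 (E n)) x) := by
      intro k hk
      have hsm : ∀ j, Small (M₂ : ℤ) ((E.mapRange (fun q => join M₁ q (P k)) (h0E k)) j) := by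
        intro j
        rw [Finsupp.mapRange_apply]
        exact hE2 k j (Finset.mem_range.mp hk)
      rw [ev_trunc_spread' hsm hN (Finsupp.support_mapRange.trans hI)]
      congr 1
      · refine Finset.sum_congr rfl fun j _ => ?_
        rw [Finsupp.mapRange_apply, ev_join]
      · rw [Finsupp.mapRange_apply]
        have h2 := ev_trunc_join (q := P k) (hE1 n) (n := N) (s := 0) hs0 x
        rw [add_zero] at h2
        rw [h2]
    rw [Finset.sum_congr rfl h1, Finset.sum_add_distrib]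
    congr 1
    · rw [Finset.sum_comm]
      refine Finset.sum_congr rfl fun j _ => ?_
      rw [ev_sum, ← Finset.mul_sum, ← Finset.mul_sum]
    · rw [← Finset.mul_sum, Finset.sum_add_distrib, ← Finset.mul_sum, trunc_sum, ev_sum,
        Finsupp.finsetSum_apply, Finset.sum_mul, Finset.sum_mul]
  · have hsm : ∀ j, Small (M₂ : ℤ) ((R.mapRange (fun q' => q • join M₁ q' δ) h0R) j) := by
      intro j
      rw [Finsupp.mapRange_apply]
      exact (hR2 j).smul q
    rw [ev_trunc_spread' hsm hN (Finsupp.support_mapRange.trans hIR)]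
    congr 1
    · refine Finset.sum_congr rfl fun j _ => ?_
      rw [Finsupp.mapRange_apply, ev_smul, ev_join]
    · rw [Finsupp.mapRange_apply, trunc_smul, ev_smul]
      have h2 := ev_trunc_join (q := δ) (hR1 n) (n := N) (s := 0) hs0 x
      rw [add_zero] at h2
      rw [h2]

end Vale.Agent.P091.H409
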