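import Vale.Agent.P091.H409.SumMain

set_option linter.all false

/-! The step theorem for sums of blocks. -/

open MeasureTheory AddCircle Finset
open scoped Real

namespace Vale.Agent.P091.H409

variable {T : ℝ} [hT : Fact (0 < T)]

lemma exists_small_family {ι : Type*} (s : Finset ι) (f : ι → ℤ →₀ ℂ)
    (hf : ∀ i, i ∉ s → f i = 0) : ∃ M₀ : ℕ, ∀ M : ℤ, (M₀ : ℤ) ≤ M → ∀ i, Small M (f i) := by
  choose m hm using fun i => exists_small (f i)
  refine ⟨∑ i ∈ s, m i, fun M hM i => ?_⟩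
  by_cases hi : i ∈ s
  · apply hm i
    have : m i ≤ ∑ i ∈ s, m i := Finset.single_le_sum (f := m) (fun _ _ => Nat.zero_le _) hi
    exact le_trans (by exact_mod_cast this) hM
  · rw [hf i hi]; exact small_zero

set_option maxHeartbeats 2000000 in
open Classical in
theorem sum_step {K J Jδ : ℕ} {p Hs : ℕ → ℝ} {D r γ e mlo var H v a b η ηr lam : ℝ}
    (hS : SumSt T K p Hs D r γ e mlo var) (hB : BlockSt T J H v a b)
    (hr1 : r ≤ 1) (hr0 : 0 ≤ r - ηr) (hv : 0 ≤ v) (hD : 0 ≤ D)
    (hp : ∀ k, 0 ≤ p k) (hHs : p K * (H * D) ≤ Hs K)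
    (hη : 0 < η) (hηr : 0 ≤ ηr) (hlam : 0 < lam) (hJδ : ((J : ℝ) + 1) ≤ ηr * Jδ) (hJδ0 : 0 < Jδ) :
    SumSt T (K + 1) p Hs (D * Jδ) (r - ηr) (γ + η + 1 / lam ^ 2)
      (e + η + lam * ∑ k ∈ range K, p k) (mlo + p K * v * r * a)
      (var + (p K * v * r) ^ 2 * b + η) := by
  have hrnn : 0 ≤ r := by linarith
  obtain ⟨P, δ, N, V, G, JN, C, hP1, hP2, hδ1, hδ2, hN1, hN2, hN3, hV1, hV2, hV3, hG1, hG2, hG3,
    hV4, hV5⟩ := hS
  set f : ℤ →₀ ℂ := ∑ k ∈ range K, P k with hf
  set Lf : ℝ := l1 f with hLf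
  set Lδ : ℝ := l1 δ with hLδ
  have hLf0 : 0 ≤ Lf := l1_nonneg f
  have hLδ0 : 0 ≤ Lδ := l1_nonneg δ
  have hpK := hp K
  -- the block
  set c₁ : ℝ := p K * ((2 * J + 2) * Lδ) + 1 with hc₁
  have hc₁0 : 0 < c₁ := by positivity
  set τ : ℝ := η / (2 * c₁) with hτ
  have hτ0 : 0 < τ := by positivity
  obtain ⟨R, NR, U, CU, hR1, hR2, hR3, hR4, hR5, hNR1, hNR2, hU1, hU2, hU3, hU4, hsm, hlg, hUa, hUb⟩ :=
    hB τ hτ0
  -- the selected frequency of the new block
  set NE : AddCircle T → ℤ := fun x => if U x = 0 then -((J : ℤ) + 1) else NR x with hNE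
  have hNEm : Measurable NE :=
    Measurable.ite (hU1 (measurableSet_singleton 0)) measurable_const hNR1
  set I : Finset ℤ := Finset.Icc (-((J : ℤ) + 1)) (J + 1) with hI
  have hNEI : ∀ x, NE x ∈ I := by
    intro x
    rw [hI, Finset.mem_Icc, hNE]
    simp only
    split_ifs
    · omega
    · have := abs_le.mp (hNR2 x)
      omega
  set κ : ℝ := η / (4 * (Lf + 1)) with hκ
  have hκ0 : 0 < κ := by positivity
  obtain ⟨Js, hJs0, hJs⟩ := partition_smooth (T := T) hNEm I hκ0 hη hNEI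
  have hAm : ∀ n : ℤ, MeasurableSet (NE ⁻¹' {n}) := fun n => hNEm (measurableSet_singleton n)
  have hsqr := partition_square (T := T) hNEm I Js hlam
  -- the smoothed modulation
  set E : ℤ →₀ (ℤ →₀ ℂ) := Finsupp.onFinset I
    (fun n => if n ∈ I then theta Js (NE ⁻¹' {n}) else 0)
    (by intro n hn; by_contra h; rw [if_neg h] at hn; exact hn rfl) with hE
  have hEI : E.support ⊆ I := Finsupp.support_onFinset_subset
  have hEn : ∀ n ∈ I, E n = theta Js (NE ⁻¹' {n}) := by
    intro n hn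
    rw [hE, Finsupp.onFinset_apply, if_pos hn]
  have hpart : ∀ x : AddCircle T, ∃! i, i ∈ I ∧ x ∈ NE ⁻¹' {i} := by
    intro x
    exact ⟨NE x, ⟨hNEI x, rfl⟩, fun j hj => hj.2.symm⟩
  have hθsum : ∀ x : AddCircle T, ∑ n ∈ I, (ev (E n) x).re = 1 := by
    intro x
    rw [Finset.sum_congr rfl fun n hn => by rw [hEn n hn]]
    exact sum_theta hJs0 hAm hpart x
  have hθnn : ∀ x : AddCircle T, ∀ n ∈ I, 0 ≤ (ev (E n) x).re := by
    intro x n hn
    rw [hEn n hn]
    exact ev_theta_re_nonneg hJs0 (hAm n) x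
  have hθeq : ∀ x : AddCircle T, ∀ n ∈ I, ev (E n) x = (((ev (E n) x).re : ℝ) : ℂ) := by
    intro x n hn
    rw [hEn n hn]
    exact ev_theta_eq_re (hAm n) x
  -- the dilations
  obtain ⟨Ma, hMa⟩ := exists_small_family E.support E
    (fun i hi => Finsupp.notMem_support_iff.mp hi)
  obtain ⟨Mb, hMb⟩ := exists_small_family R.support R
    (fun i hi => Finsupp.notMem_support_iff.mp hi)
  have hUint : Integrable U (haarAddCircle (T := T)) :=
    Integrable.of_bound hU1.aestronglyMeasurable CU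
      (Filter.Eventually.of_forall fun x => by rw [Real.norm_of_nonneg (hU2 x)]; exact hU3 x)
  set w₀ : ℝ := p K * v * r with hw₀
  have hw₀0 : 0 ≤ w₀ := by positivity
  obtain ⟨Mc, hMc⟩ := mixing (T := T) hUint hV1 (B := C)
    (fun x => by rw [abs_of_nonneg (hV2 x)]; exact hV3 x) (ε := η / (2 * w₀ + 1)) (by positivity)
  set M₁ : ℕ := Ma + Mb + Mc + 1 with hM₁
  have hM₁0 : M₁ ≠ 0 := by omega
  have hM₁pos : (0 : ℤ) < M₁ := by exact_mod_cast Nat.pos_of_ne_zero hM₁0
  have hE1 : ∀ k, Small M₁ (E k) := hMa M₁ (by exact_mod_cast (by omega : Ma ≤ M₁))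
  have hR1' : ∀ k, Small M₁ (R k) := hMb M₁ (by exact_mod_cast (by omega : Mb ≤ M₁))
  have hmix := hMc M₁ (by omega)
  obtain ⟨Md, hMd⟩ := exists_small_family (E.support ×ˢ range K)
    (fun i : ℤ × ℕ => if i.2 < K then join M₁ (E i.1) (P i.2) else 0)
    (by
      intro i hi
      split_ifs with h
      · have : i.1 ∉ E.support := by
          intro h'
          exact hi (Finset.mem_product.mpr ⟨h', Finset.mem_range.mpr h⟩)
        rw [Finsupp.notMem_support_iff.mp this, join_zero_left]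
      · rfl)
  obtain ⟨Me, hMe⟩ := exists_small_family R.support (fun j => join M₁ (R j) δ)
    (fun i hi => by rw [Finsupp.notMem_support_iff.mp hi, join_zero_left])
  obtain ⟨Mf, hMf⟩ := exists_small (join M₁ (Finsupp.single 0 1) δ)
  set M₂ : ℕ := Md + Me + Mf + 2 * M₁ * JN + 1 with hM₂
  have hM₂0 : M₂ ≠ 0 := by omega
  have hE2 : ∀ k, ∀ j, k < K → Small M₂ (join M₁ (E j) (P k)) := by
    intro k j hk
    have := hMd M₂ (by exact_mod_cast (by omega : Md ≤ M₂)) (j, k)
    simpa [hk] using this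
  have hR2' : ∀ j, Small M₂ (join M₁ (R j) δ) := hMe M₂ (by exact_mod_cast (by omega : Me ≤ M₂))
  have hδ2' : Small M₂ (join M₁ (Finsupp.single 0 1) δ) :=
    hMf M₂ (by exact_mod_cast (by omega : Mf ≤ M₂))
  have hNsmall : ∀ w, 2 * |(M₁ : ℤ) * N w| < M₂ := by
    intro w
    rw [abs_mul, abs_of_pos hM₁pos]
    have h1 := hN2 w
    have h2 : (M₁ : ℤ) * |N w| ≤ M₁ * JN := mul_le_mul_of_nonneg_left h1 hM₁pos.le
    have h3 : (M₂ : ℤ) = Md + Me + Mf + 2 * M₁ * JN + 1 := by rw [hM₂]; push_cast; ring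
    rw [h3]
    have : (0 : ℤ) ≤ Md + Me + Mf := by positivity
    nlinarith
  -- the new objects
  have h0E : ∀ k, join (M₁ : ℤ) 0 (P k) = 0 := fun k => join_zero_left _ _
  have h0R : ((p K : ℝ) : ℂ) • join (M₁ : ℤ) 0 δ = 0 := by rw [join_zero_left, smul_zero]
  set P' : ℕ → ℤ →₀ ℂ := fun k =>
    if k < K then spread M₂ (E.mapRange (fun q => join M₁ q (P k)) (h0E k))
    else spread M₂ (R.mapRange (fun q' => ((p K : ℝ) : ℂ) • join M₁ q' δ) h0R) with hP'
  set δ' : ℤ →₀ ℂ := join M₂ (join M₁ (Finsupp.single 0 1) δ) (fejer Jδ) with hδ'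
  set N' : AddCircle T → ℤ := fun x => M₂ * NE x + M₁ * N (M₁ • x) with hN'
  have hmp1 := (mp_nsmul (T := T) hM₁0)
  have hsumP' : ∑ k ∈ range (K + 1), P' k =
      (∑ k ∈ range K, spread M₂ (E.mapRange (fun q => join M₁ q (P k)) (h0E k))) +
        spread M₂ (R.mapRange (fun q' => ((p K : ℝ) : ℂ) • join M₁ q' δ) h0R) := by
    rw [Finset.sum_range_succ]
    congr 1
    · refine Finset.sum_congr rfl fun k hk => ?_
      rw [hP']; simp only; rw [if_pos (Finset.mem_range.mp hk)]
    · rw [hP']; simp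
  have hevP' : ∀ k, k < K → ∀ x : AddCircle T,
      ev (P' k) x = ev2 E x (M₂ • x) * ev (P k) (M₁ • x) := by
    intro k hk x
    rw [hP']
    simp only
    rw [if_pos hk, ev_spread]
    have h := ev2_mapRange_join (T := T) M₁ E 1 (P k) (by rw [join_zero_left, smul_zero]) x (M₂ • x)
    simp only [one_smul, one_mul] at h
    exact h
  have hevPK : ∀ x : AddCircle T,
      ev (P' K) x = ((p K : ℝ) : ℂ) * (ev2 R x (M₂ • x) * ev δ (M₁ • x)) := by
    intro x
    rw [hP']
    simp only [lt_irrefl, if_false]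
    rw [ev_spread]
    exact ev2_mapRange_join (T := T) M₁ R _ δ h0R x (M₂ • x)
  have hev2E : ∀ x y : AddCircle T, ‖ev2 E x y‖ ≤ 1 := by
    intro x y
    rw [ev2_eq_sum_of_subset E x y hEI]
    refine (norm_sum_le _ _).trans ?_
    rw [← hθsum x]
    refine Finset.sum_le_sum fun n hn => ?_
    rw [norm_mul, norm_fourier, mul_one, hθeq x n hn, Complex.norm_real,
      Real.norm_of_nonneg (hθnn x n hn), Complex.ofReal_re]
  have hevδ' : ∀ x : AddCircle T,
      ev δ' x = ev δ (M₁ • x) * ev (fejer Jδ) (M₂ • x) := by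
    intro x
    rw [hδ', ev_join, ev_join, ev_single]
    simp
  have hPKnn : ∀ x : AddCircle T, ev (P' K) x =
      ((p K * ((ev2 R x (M₂ • x)).re * (ev δ (M₁ • x)).re) : ℝ) : ℂ) := by
    intro x
    rw [hevPK]
    have h1 : ev2 R x (M₂ • x) = (((ev2 R x (M₂ • x)).re : ℝ) : ℂ) := by
      apply Complex.ext
      · simp
      · rw [hR2]; simp
    have h2 : ev δ (M₁ • x) = (((ev δ (M₁ • x)).re : ℝ) : ℂ) := by
      apply Complex.ext
      · simp
      · rw [(hδ1 _).1]; simp
    rw [h1, h2]; push_cast; simp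
  have hfN : ∀ n : ℤ, ‖f n‖ ≤ ∑ k ∈ range K, p k := by
    intro n
    rw [hf, Finsupp.finsetSum_apply]
    refine (norm_sum_le _ _).trans (Finset.sum_le_sum fun k hk => ?_)
    exact (norm_coeff_le_integral (T := T) (P k) n).trans (hP2 k (Finset.mem_range.mp hk))
  have hsum0 : 0 ≤ ∑ k ∈ range K, p k := Finset.sum_nonneg fun k _ => hp k
  -- the new good set
  set G' : Set (AddCircle T) := (fun x => M₁ • x) ⁻¹' G ∩
    ({x | 1 - κ ≤ (ev (theta Js (NE ⁻¹' {NE x})) x).re} ∩
     {x | ∑ n ∈ I, ‖ev (trunc 0 (theta Js (NE ⁻¹' {n}))) x‖ ^ 2 ≤ lam ^ 2}) with hG'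
  have hmset1 : MeasurableSet {x : AddCircle T | 1 - κ ≤ (ev (theta Js (NE ⁻¹' {NE x})) x).re} := by
    have h1 : {x : AddCircle T | 1 - κ ≤ (ev (theta Js (NE ⁻¹' {NE x})) x).re} =
        ⋃ n ∈ I, (NE ⁻¹' {n} ∩ {x | 1 - κ ≤ (ev (theta Js (NE ⁻¹' {n})) x).re}) := by
      ext x
      simp only [Set.mem_setOf_eq, Set.mem_iUnion, Set.mem_inter_iff, Set.mem_preimage,
        Set.mem_singleton_iff, exists_prop]
      constructor
      · intro h
        exact ⟨NE x, hNEI x, rfl, h⟩
      · rintro ⟨n, -, rfl, h⟩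
        exact h
    rw [h1]
    refine Finset.measurableSet_biUnion _ fun n _ => (hAm n).inter ?_
    exact (isClosed_le continuous_const (Complex.continuous_re.comp (continuous_ev _))).measurableSet
  have hmset2 : MeasurableSet {x : AddCircle T |
      ∑ n ∈ I, ‖ev (trunc 0 (theta Js (NE ⁻¹' {n}))) x‖ ^ 2 ≤ lam ^ 2} :=
    (isClosed_le (continuous_finset_sum _ fun n _ => (continuous_ev _).norm.pow 2)
      continuous_const).measurableSet
  refine ⟨P', δ', N', fun x => V (M₁ • x) + w₀ * U x, G', M₂ * (J + 1) + M₁ * JN, C + w₀ * CU,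
    ?_, ?_, ?_, ?_, ?_, ?_, ?_, ?_, ?_, ?_, ?_, ?_, ?_, ?_, ?_⟩
  · -- sup bounds
    intro k hk x
    rcases Nat.lt_succ_iff_lt_or_eq.mp hk with h | h
    · rw [hevP' k h, norm_mul]
      calc _ ≤ 1 * ‖ev (P k) (M₁ • x)‖ := mul_le_mul_of_nonneg_right (hev2E _ _) (norm_nonneg _)
        _ = ‖ev (P k) (M₁ • x)‖ := one_mul _
        _ ≤ _ := hP1 k h _
    · subst h
      have h1 := hR3 x (M₂ • x)
      have h2 := (hδ1 (M₁ • x)).2
      rw [hPKnn, Complex.norm_real, Real.norm_of_nonneg (by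
        have := mul_nonneg h1 h2.1
        positivity)]
      refine le_trans ?_ hHs
      apply mul_le_mul_of_nonneg_left _ hpK
      exact mul_le_mul (hR4 x _) h2.2 h2.1 (h1.trans (hR4 x _))
  · -- L1 bounds
    intro k hk
    rcases Nat.lt_succ_iff_lt_or_eq.mp hk with h | h
    · refine le_trans ?_ (hP2 k h)
      rw [← integral_comp_nsmul (T := T) hM₁0 (f := fun x => ‖ev (P k) x‖)
        (continuous_ev (P k)).norm.aestronglyMeasurable]
      refine integral_mono (integrable_cont (continuous_ev _).norm)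
        (integrable_cont ((continuous_ev (P k)).norm.comp (continuous_nsmul M₁))) fun x => ?_
      simp only
      rw [hevP' k h, norm_mul]
      calc _ ≤ 1 * ‖ev (P k) (M₁ • x)‖ := mul_le_mul_of_nonneg_right (hev2E _ _) (norm_nonneg _)
        _ = ‖ev (P k) (M₁ • x)‖ := one_mul _
    · subst h
      have h1 : ∀ x : AddCircle T, ‖ev (P' k) x‖ = (ev (P' k) x).re := by
        intro x
        rw [hPKnn, Complex.norm_real, Complex.ofReal_re, Real.norm_of_nonneg]
        have := mul_nonneg (hR3 x (M₂ • x)) (hδ1 (M₁ • x)).2.1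
        positivity
      simp only [h1]
      have h2 : ∫ x : AddCircle T, (ev (P' k) x).re ∂haarAddCircle =
          (∫ x : AddCircle T, ev (P' k) x ∂haarAddCircle).re := integral_re (integrable_ev _)
      rw [h2, integral_ev]
      have h3 : (P' k) 0 = ((p k : ℝ) : ℂ) := by
        rw [hP']
        simp only [lt_irrefl, if_false]
        have hsm2 : ∀ j, Small (M₂ : ℤ)
            ((R.mapRange (fun q' => ((p k : ℝ) : ℂ) • join M₁ q' δ) h0R) j) := by
          intro j
          rw [Finsupp.mapRange_apply]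
          exact (hR2' j).smul _
        have h4 := spread_coeff (M := M₂) hsm2 (a := 0) (k := 0) (by
          have : (0 : ℤ) < M₂ := by exact_mod_cast Nat.pos_of_ne_zero hM₂0
          simpa using this)
        rw [mul_zero, add_zero] at h4
        rw [h4, Finsupp.mapRange_apply, Finsupp.smul_apply]
        have h5 := join_coeff (M := M₁) (q := δ) (hR1' 0) (a := 0) (k := 0) (by simpa using hM₁pos)
        rw [mul_zero, add_zero] at h5
        rw [h5, hR5, hδ2, one_mul, smul_eq_mul, mul_one]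
      rw [h3, Complex.ofReal_re]
  · intro x
    have h1 := hδ1 (M₁ • x)
    have h2 := ev_fejer_im (T := T) Jδ (M₂ • x)
    have h3 := ev_fejer_re_nonneg (T := T) hJδ0 (M₂ • x)
    have h4 := ev_fejer_re_le (T := T) hJδ0 (M₂ • x)
    rw [hevδ', Complex.mul_im, Complex.mul_re, h1.1, h2]
    refine ⟨by ring, ?_, ?_⟩
    · have := mul_nonneg h1.2.1 h3
      linarith
    · have := mul_le_mul h1.2.2 h4 h3 hD
      linarith
  · have h0 : (0 : ℤ) < M₂ := by exact_mod_cast Nat.pos_of_ne_zero hM₂0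
    have h1 := join_coeff (M := M₂) (q := fejer Jδ) hδ2' (a := 0) (k := 0) (by simpa using h0)
    rw [mul_zero, add_zero] at h1
    rw [hδ', h1]
    have h2 := join_coeff (M := M₁) (q := δ) (small_single_one hM₁pos) (a := 0) (k := 0)
      (by simpa using hM₁pos)
    rw [mul_zero, add_zero] at h2
    rw [h2, hδ2, fejer_apply, fw_zero]
    simp
  · exact (hNEm.const_mul _).add ((hN1.comp hmp1.measurable).const_mul _)
  · intro x
    rw [hN']
    simp only
    push_cast
    refine (abs_add_le _ _).trans ?_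
    rw [abs_mul, abs_mul, abs_of_pos hM₁pos, abs_of_nonneg (by positivity : (0 : ℤ) ≤ (M₂ : ℤ))]
    have h1 := Finset.mem_Icc.mp (hNEI x)
    have h2 : |NE x| ≤ (J : ℤ) + 1 := abs_le.mpr h1
    have h3 := hN2 (M₁ • x)
    have h4 : (M₂ : ℤ) * |NE x| ≤ M₂ * (J + 1) := mul_le_mul_of_nonneg_left h2 (by positivity)
    have h5 : (M₁ : ℤ) * |N (M₁ • x)| ≤ M₁ * JN := mul_le_mul_of_nonneg_left h3 hM₁pos.le
    linarith
  · -- coefficients of `δ'`
    intro x
    have h1 : δ' (N' x) = δ (N (M₁ • x)) * ((fw Jδ (NE x) : ℝ) : ℂ) := by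
      have h2 := join_coeff (M := M₂) (q := fejer Jδ) hδ2' (a := M₁ * N (M₁ • x)) (k := NE x)
        (hNsmall _)
      rw [hN', hδ']
      simp only
      rw [add_comm, h2]
      have h3 := join_coeff (M := M₁) (q := δ) (small_single_one hM₁pos) (a := 0)
        (k := N (M₁ • x)) (by simpa using hM₁pos)
      rw [zero_add] at h3
      rw [h3, fejer_apply, Finsupp.single_eq_same, one_mul]
    obtain ⟨h4, h5⟩ := hN3 (M₁ • x)
    have h6 : 1 - ηr ≤ fw Jδ (NE x) := by
      refine le_trans ?_ (fw_ge hJδ0 (NE x))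
      have h7 := Finset.mem_Icc.mp (hNEI x)
      have h8 : |NE x| ≤ (J : ℤ) + 1 := abs_le.mpr h7
      have h9 : |((NE x : ℤ) : ℝ)| ≤ (J : ℝ) + 1 := by exact_mod_cast h8
      have h10 : (0 : ℝ) < Jδ := by exact_mod_cast hJδ0
      have h11 : |((NE x : ℤ) : ℝ)| / Jδ ≤ ηr := by
        rw [div_le_iff₀ h10]; exact h9.trans hJδ
      linarith
    have h12 := fw_nonneg Jδ (NE x)
    rw [h1, Complex.mul_im, Complex.mul_re, h4, Complex.ofReal_re, Complex.ofReal_im]
    refine ⟨by ring, ?_⟩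
    have h13 : r * fw Jδ (NE x) ≤ (δ (N (M₁ • x))).re * fw Jδ (NE x) :=
      mul_le_mul_of_nonneg_right h5 h12
    nlinarith
  · exact (hV1.comp hmp1.measurable).add (hU1.const_mul _)
  · intro x
    have := hV2 (M₁ • x)
    have := hU2 x
    positivity
  · intro x
    have h1 := hV3 (M₁ • x)
    have h2 := mul_le_mul_of_nonneg_left (hU3 x) hw₀0
    simp only
    linarith
  · exact (hmp1.measurable hG1).inter (hmset1.inter hmset2)
  · -- measure of the bad set
    have h1 : G'ᶜ ⊆ (fun x => M₁ • x) ⁻¹' Gᶜ ∪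
        ({x | ¬ 1 - κ ≤ (ev (theta Js (NE ⁻¹' {NE x})) x).re} ∪
         {x | ¬ ∑ n ∈ I, ‖ev (trunc 0 (theta Js (NE ⁻¹' {n}))) x‖ ^ 2 ≤ lam ^ 2}) := by
      intro x hx
      by_contra hc
      apply hx
      simp only [Set.mem_union, Set.mem_preimage, Set.mem_compl_iff, Set.mem_setOf_eq,
        not_or, not_not] at hc
      exact ⟨hc.1, hc.2.1, hc.2.2⟩
    have h2 : haarAddCircle ((fun x : AddCircle T => M₁ • x) ⁻¹' Gᶜ) = haarAddCircle Gᶜ :=
      hmp1.measure_preimage hG1.compl.nullMeasurableSet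
    have h3 : (haarAddCircle G'ᶜ).toReal ≤ (haarAddCircle Gᶜ).toReal +
        ((haarAddCircle {x : AddCircle T |
            ¬ 1 - κ ≤ (ev (theta Js (NE ⁻¹' {NE x})) x).re}).toReal +
         (haarAddCircle {x : AddCircle T |
            ¬ ∑ n ∈ I, ‖ev (trunc 0 (theta Js (NE ⁻¹' {n}))) x‖ ^ 2 ≤ lam ^ 2}).toReal) := by
      rw [← ENNReal.toReal_add (measure_ne_top _ _) (measure_ne_top _ _),
        ← ENNReal.toReal_add (measure_ne_top _ _) (by finiteness)]
      apply ENNReal.toReal_mono (by finiteness)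
      refine (measure_mono h1).trans ((measure_union_le _ _).trans ?_)
      rw [h2]
      exact add_le_add le_rfl (measure_union_le _ _)
    linarith
  · -- the pointwise bound
    intro x hx
    obtain ⟨hxG, hxκ, hxl⟩ := hx
    simp only [Set.mem_setOf_eq] at hxκ hxl
    set n : ℤ := NE x with hn
    set w : AddCircle T := M₁ • x with hw
    set y : AddCircle T := M₂ • x with hy
    have hnI : n ∈ I := hNEI x
    set IR : Finset ℤ := Finset.Icc (-(J : ℤ)) J with hIR
    have hIRs : R.support ⊆ IR := by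
      intro k hk
      rw [hIR, Finset.mem_Icc]
      have : ¬ (J : ℤ) < |k| := fun h => Finsupp.mem_support_iff.mp hk (hR1 k h)
      exact abs_le.mp (by omega)
    rw [hsumP']
    have hid := block_identity (T := T) (M₁ := M₁) (M₂ := M₂) (K := K) (P := P) (δ := δ)
      (R := R) (E := E) (q := ((p K : ℝ) : ℂ)) hEI hIRs hE1 hR1' hM₁pos hE2 hR2' h0E h0R
      (n := n) (N := N w) (hNsmall w) x
    have hN'x : N' x = M₂ * n + M₁ * N w := rfl
    rw [hN'x, hid]
    -- the prefactor
    have hpre : (fourier (-((M₂ : ℤ) * n + M₁ * N w)) x : ℂ) =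
        (starRingEnd ℂ) (fourier n y) * (starRingEnd ℂ) (fourier (N w) w) := by
      rw [conj_fourier, conj_fourier]
      have h1 : -((M₂ : ℤ) * n + M₁ * N w) = (M₂ : ℤ) * (-n) + (M₁ : ℤ) * (-(N w)) := by ring
      rw [h1, fourier_add_mul, fourier_mul_nat, fourier_mul_nat]
    rw [hpre]
    -- rewrite the smoothed indicators
    have hθ1 : ∑ j ∈ I with j < n, fourier j y * (ev (E j) x * ev (∑ k ∈ range K, P k) w) =
        ∑ j ∈ I with j < n, fourier j y * ((((ev (E j) x).re : ℝ) : ℂ) * ev f w) := by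
      refine Finset.sum_congr rfl fun j hj => ?_
      rw [← hθeq x j (Finset.mem_filter.mp hj).1]
    rw [hθ1]
    have hθ2 : ev (E n) x * ev (trunc (N w) (∑ k ∈ range K, P k)) w =
        (((ev (E n) x).re : ℝ) : ℂ) * ev (trunc (N w) f) w := by
      rw [← hθeq x n hnI]
    rw [hθ2]
    have hUx : (∑ j ∈ IR with j < n, ‖ev (R j) x‖ ≤ (2 * J + 1) * τ) ∧ ‖ev (R n) x‖ ≤ τ ∧
        v * U x ≤ (ev (trunc 0 (R n)) x).im := by
      by_cases hU0 : U x = 0
      · have hnv : n = -((J : ℤ) + 1) := by rw [hn, hNE]; simp only; rw [if_pos hU0]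
        have hRn : R n = 0 := by
          apply hR1
          rw [hnv, abs_neg, abs_of_nonneg (by positivity)]; omega
        refine ⟨?_, ?_, ?_⟩
        · rw [Finset.filter_false_of_mem, Finset.sum_empty]
          · positivity
          · intro j hj
            rw [hIR, Finset.mem_Icc] at hj
            rw [hnv]; omega
        · rw [hRn, ev_zero, norm_zero]; exact hτ0.le
        · rw [hRn, trunc_zero, ev_zero, hU0]; simp
      · have hnv : n = NR x := by rw [hn, hNE]; simp only; rw [if_neg hU0]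
        have hall : ∀ j, ‖ev (R j) x‖ ≤ τ := fun j =>
          (norm_coeff_le_zero hR2 hR3 j x).trans (hsm x hU0)
        refine ⟨?_, hall n, ?_⟩
        · refine (Finset.sum_le_sum fun j _ => hall j).trans ?_
          rw [Finset.sum_const, nsmul_eq_mul]
          apply mul_le_mul_of_nonneg_right _ hτ0.le
          have h1 : (IR.filter (· < n)).card ≤ 2 * J + 1 := by
            refine (Finset.card_filter_le _ _).trans ?_
            rw [hIR, Int.card_Icc]
            omega
          exact_mod_cast h1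
        · rw [hnv]; exact hlg x hU0
    obtain ⟨hu1, hu2, hu3⟩ := hUx
    have htE : ‖ev (trunc 0 (E n)) x‖ ≤ lam := by
      rw [hEn n hnI]
      have h1 : ‖ev (trunc 0 (theta Js (NE ⁻¹' {n}))) x‖ ^ 2 ≤ lam ^ 2 := by
        refine le_trans ?_ hxl
        exact Finset.single_le_sum (f := fun n => ‖ev (trunc 0 (theta Js (NE ⁻¹' {n}))) x‖ ^ 2)
          (fun _ _ => by positivity) hnI
      exact abs_le_of_sq_le_sq' h1 hlam.le |>.2
    have hold : V w - e ≤ ((starRingEnd ℂ) (fourier (N w) w) * ev (trunc (N w) f) w).im := by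
      rw [conj_fourier]
      exact hG3 w hxG
    have hmain := point_abs (I := I) (IR := IR) (n := n) hnI
      (θ := fun j => (ev (E j) x).re) (Rv := fun j => ev (R j) x) (F := fun j => fourier j y)
      (fw' := ev f w) (tf := ev (trunc (N w) f) w) (fN := f (N w)) (dN := δ (N w))
      (tE := ev (trunc 0 (E n)) x) (tδ := ev (trunc (N w) δ) w) (dw := ev δ w)
      (tR := ev (trunc 0 (R n)) x) (c := fourier (N w) w)
      (κ := κ) (Lf := Lf) (S := ∑ k ∈ range K, p k) (lam := lam) (q := p K) (Lδ := Lδ)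
      (τ₁ := (2 * J + 1) * τ) (τ₂ := τ) (r := r) (w := v * U x) (Ve := V w - e)
      (fun j => norm_fourier j y) (hθnn x) (hθsum x) (by rw [hEn n hnI]; exact hxκ)
      (norm_ev_le f w) (norm_ev_trunc_le _ f w) hLf0 (hfN _) hsum0 htE hpK
      (norm_ev_le δ w) (norm_ev_trunc_le _ δ w) hLδ0 (norm_fourier _ _) hu1 hu2
      (hN3 w).1 (hN3 w).2 hrnn (mul_nonneg hv (hU2 x)) hu3
      (by rw [conj_fourier]; exact fourier_neg_mul_self _ _) hold
    refine le_trans ?_ hmain
    have hk1 : 2 * κ * Lf ≤ η / 2 := by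
      have h1 : κ * (Lf + 1) = η / 4 := by
        rw [hκ]; field_simp
      nlinarith
    have hk2 : p K * ((2 * J + 1) * τ * Lδ + τ * Lδ) ≤ η / 2 := by
      have h1 : τ * c₁ = η / 2 := by
        rw [hτ]; field_simp
      have h2 : p K * ((2 * J + 1) * τ * Lδ + τ * Lδ) = τ * (p K * ((2 * J + 2) * Lδ)) := by ring
      rw [h2, ← h1]
      apply mul_le_mul_of_nonneg_left _ hτ0.le
      rw [hc₁]; linarith
    rw [hw₀]
    have h3 : p K * r * (v * U x) = p K * v * r * U x := by ring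
    rw [h3]
    have h4 : (∑ k ∈ range K, p k) * lam = lam * ∑ k ∈ range K, p k := mul_comm _ _
    rw [h4]
    linarith
  · -- mean
    have hVint : Integrable (fun x : AddCircle T => V (M₁ • x)) haarAddCircle :=
      Integrable.of_bound (hV1.comp hmp1.measurable).aestronglyMeasurable C
        (Filter.Eventually.of_forall fun x => by
          rw [Real.norm_of_nonneg (hV2 _)]; exact hV3 _)
    rw [integral_add hVint (hUint.const_mul _), integral_const_mul,
      integral_comp_nsmul hM₁0 hV1.aestronglyMeasurable]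
    have := mul_le_mul_of_nonneg_left hUa hw₀0
    linarith
  · -- variance
    have hVb : ∀ x : AddCircle T, ‖V (M₁ • x)‖ ≤ C := fun x => by
      rw [Real.norm_of_nonneg (hV2 _)]; exact hV3 _
    have hVmeas : AEStronglyMeasurable (fun x : AddCircle T => V (M₁ • x)) haarAddCircle :=
      (hV1.comp hmp1.measurable).aestronglyMeasurable
    have hVint : Integrable (fun x : AddCircle T => V (M₁ • x)) haarAddCircle :=
      Integrable.of_bound hVmeas C (Filter.Eventually.of_forall hVb)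
    have hV2int : Integrable (fun x : AddCircle T => V (M₁ • x) ^ 2) haarAddCircle :=
      Integrable.of_bound (hVmeas.pow 2) (C ^ 2) (Filter.Eventually.of_forall fun x => by
        rw [norm_pow]; exact pow_le_pow_left₀ (norm_nonneg _) (hVb x) 2)
    have hU2int : Integrable (fun x : AddCircle T => U x ^ 2) haarAddCircle :=
      Integrable.of_bound (hU1.pow_const 2).aestronglyMeasurable (CU ^ 2)
        (Filter.Eventually.of_forall fun x => by
          rw [norm_pow, Real.norm_of_nonneg (hU2 x)]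
          exact pow_le_pow_left₀ (hU2 x) (hU3 x) 2)
    have hUVint : Integrable (fun x : AddCircle T => U x * V (M₁ • x)) haarAddCircle :=
      hUint.mul_bdd (c := C) hVmeas (Filter.Eventually.of_forall hVb)
    have hexp : ∀ x : AddCircle T, (V (M₁ • x) + w₀ * U x) ^ 2 =
        V (M₁ • x) ^ 2 + (2 * w₀ * (U x * V (M₁ • x)) + w₀ ^ 2 * U x ^ 2) := fun x => by ring
    simp only [hexp]
    have hi1 : Integrable (fun x : AddCircle T => 2 * w₀ * (U x * V (M₁ • x))) haarAddCircle :=
      hUVint.const_mul _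
    have hi2 : Integrable (fun x : AddCircle T => w₀ ^ 2 * U x ^ 2) haarAddCircle :=
      hU2int.const_mul _
    have hi3 : Integrable (fun x : AddCircle T => 2 * w₀ * (U x * V (M₁ • x)) +
        w₀ ^ 2 * U x ^ 2) haarAddCircle := hi1.add hi2
    rw [integral_add hV2int hi3, integral_add hi1 hi2, integral_const_mul,
      integral_const_mul, integral_add hVint (hUint.const_mul _), integral_const_mul,
      integral_comp_nsmul hM₁0 hV1.aestronglyMeasurable,
      integral_comp_nsmul hM₁0 (f := fun x => V x ^ 2) (hV1.pow_const 2).aestronglyMeasurable]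
    have h1 := (abs_le.mp hmix).2
    have h2 : 2 * w₀ * (η / (2 * w₀ + 1)) ≤ η := by
      rw [mul_div_assoc', div_le_iff₀ (by positivity)]
      nlinarith
    have h3 : w₀ ^ 2 * ∫ x, U x ^ 2 ∂(haarAddCircle (T := T)) ≤ w₀ ^ 2 * b :=
      mul_le_mul_of_nonneg_left hUb (by positivity)
    set iU := ∫ x, U x ∂(haarAddCircle (T := T)) with hiU
    set iV := ∫ x, V x ∂(haarAddCircle (T := T)) with hiV
    set iUV := ∫ x, U x * V (M₁ • x) ∂(haarAddCircle (T := T)) with hiUV
    have h4 : 2 * w₀ * iUV ≤ 2 * w₀ * (iU * iV) + 2 * w₀ * (η / (2 * w₀ + 1)) := by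
      have : iUV ≤ iU * iV + η / (2 * w₀ + 1) := by linarith
      have := mul_le_mul_of_nonneg_left this (by positivity : 0 ≤ 2 * w₀)
      linarith
    have h5 : 0 ≤ (w₀ * iU) ^ 2 := by positivity
    nlinarith

end Vale.Agent.P091.H409
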