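import Vale.Agent.P091.H409.FejerKer

set_option linter.all false

/-! Two variable polynomials. -/

open MeasureTheory AddCircle Finset
open scoped Real

namespace Vale.Agent.P091.H409

variable {T : ℝ}

lemma ev2_zero (x y : AddCircle T) : ev2 (0 : ℤ →₀ (ℤ →₀ ℂ)) x y = 0 := by
  simp [ev2]

lemma ev2_add (p q : ℤ →₀ (ℤ →₀ ℂ)) (x y : AddCircle T) :
    ev2 (p + q) x y = ev2 p x y + ev2 q x y := by
  unfold ev2
  exact Finsupp.sum_add_index' (fun _ => by rw [ev_zero, zero_mul])
    (fun _ _ _ => by rw [ev_add]; ring)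

lemma ev2_single (k : ℤ) (p : ℤ →₀ ℂ) (x y : AddCircle T) :
    ev2 (Finsupp.single k p) x y = ev p x * fourier k y := by
  unfold ev2
  exact Finsupp.sum_single_index (by rw [ev_zero, zero_mul])

/-- evaluation as an additive map -/
noncomputable def ev2Hom (x y : AddCircle T) : (ℤ →₀ (ℤ →₀ ℂ)) →+ ℂ where
  toFun p := ev2 p x y
  map_zero' := ev2_zero x y
  map_add' p q := ev2_add p q x y

lemma ev2_sum {ι : Type*} (s : Finset ι) (p : ι → ℤ →₀ (ℤ →₀ ℂ)) (x y : AddCircle T) :
    ev2 (∑ i ∈ s, p i) x y = ∑ i ∈ s, ev2 (p i) x y := by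
  change ev2Hom x y (∑ i ∈ s, p i) = _
  rw [map_sum]; rfl

lemma ev2_eq_sum (R : ℤ →₀ (ℤ →₀ ℂ)) (x y : AddCircle T) :
    ev2 R x y = ∑ k ∈ R.support, ev (R k) x * fourier k y := rfl

lemma ev2_eq_sum_of_subset (R : ℤ →₀ (ℤ →₀ ℂ)) (x y : AddCircle T) {s : Finset ℤ}
    (h : R.support ⊆ s) :
    ev2 R x y = ∑ k ∈ s, ev (R k) x * fourier k y := by
  rw [ev2_eq_sum]
  refine Finset.sum_subset h fun k _ hk => ?_
  rw [Finsupp.notMem_support_iff.mp hk, ev_zero, zero_mul]

lemma continuous_ev2_right (R : ℤ →₀ (ℤ →₀ ℂ)) (x : AddCircle T) :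
    Continuous (fun y => ev2 R x y) := by
  unfold ev2 Finsupp.sum
  fun_prop

section
variable [hT : Fact (0 < T)]

lemma integral_ev2 (R : ℤ →₀ (ℤ →₀ ℂ)) (x : AddCircle T) (k : ℤ) :
    ∫ y : AddCircle T, fourier (-k) y * ev2 R x y ∂haarAddCircle = ev (R k) x := by
  -- view `ev2 R x` as a one variable polynomial
  set q : ℤ →₀ ℂ := R.mapRange (fun p => ev p x) (ev_zero x) with hq
  have h1 : ∀ y : AddCircle T, ev2 R x y = ev q y := by
    intro y
    rw [ev_eq_sum_of_subset q y (s := R.support) (by rw [hq]; exact Finsupp.support_mapRange),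
      ev2_eq_sum]
    refine Finset.sum_congr rfl fun k _ => ?_
    rw [hq, Finsupp.mapRange_apply]
  simp only [h1]
  rw [coeff_eq_integral, hq, Finsupp.mapRange_apply]

/-- for nonnegative `R` all coefficients are dominated by the zeroth one -/
lemma norm_coeff_le_zero {R : ℤ →₀ (ℤ →₀ ℂ)} (him : ∀ x y : AddCircle T, (ev2 R x y).im = 0)
    (hre : ∀ x y : AddCircle T, 0 ≤ (ev2 R x y).re) (k : ℤ) (x : AddCircle T) :
    ‖ev (R k) x‖ ≤ (ev (R 0) x).re := by
  have h0 : ev (R 0) x = ((∫ y : AddCircle T, ‖ev2 R x y‖ ∂haarAddCircle : ℝ) : ℂ) := by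
    rw [← integral_ev2 R x 0, ← integral_complex_ofReal]
    refine integral_congr_ae (Filter.Eventually.of_forall fun y => ?_)
    simp only [neg_zero, fourier_zero, one_mul]
    apply Complex.ext
    · rw [Complex.ofReal_re]
      have h1 : ev2 R x y = (((ev2 R x y).re : ℝ) : ℂ) := by
        apply Complex.ext
        · simp
        · rw [him]; simp
      rw [h1, Complex.norm_real, Complex.ofReal_re, Real.norm_of_nonneg (hre x y)]
    · rw [him]; simp
  rw [h0, Complex.ofReal_re, ← integral_ev2 R x k]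
  refine (norm_integral_le_integral_norm _).trans (le_of_eq ?_)
  refine integral_congr_ae (Filter.Eventually.of_forall fun y => ?_)
  simp only [norm_mul, norm_fourier, one_mul]

lemma ev_zero_im {R : ℤ →₀ (ℤ →₀ ℂ)} (him : ∀ x y : AddCircle T, (ev2 R x y).im = 0)
    (x : AddCircle T) : (ev (R 0) x).im = 0 := by
  have h0 : ev (R 0) x = ((∫ y : AddCircle T, (ev2 R x y).re ∂haarAddCircle : ℝ) : ℂ) := by
    rw [← integral_ev2 R x 0, ← integral_complex_ofReal]
    refine integral_congr_ae (Filter.Eventually.of_forall fun y => ?_)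
    simp only [neg_zero, fourier_zero, one_mul]
    apply Complex.ext
    · simp
    · rw [him]; simp
  rw [h0, Complex.ofReal_im]

lemma norm_coeff_zero_le {R : ℤ →₀ (ℤ →₀ ℂ)} (him : ∀ x y : AddCircle T, (ev2 R x y).im = 0)
    (hre : ∀ x y : AddCircle T, 0 ≤ (ev2 R x y).re) (hmean : (R 0) 0 = 1) (k : ℤ) :
    ‖(R k) 0‖ ≤ 1 := by
  rw [← integral_ev (T := T) (R k)]
  refine (norm_integral_le_integral_norm _).trans ?_
  have h1 : ∫ x : AddCircle T, ‖ev (R k) x‖ ∂haarAddCircle ≤
      ∫ x : AddCircle T, (ev (R 0) x).re ∂haarAddCircle := by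
    refine integral_mono (integrable_cont (continuous_ev _).norm)
      (integrable_cont (Complex.continuous_re.comp (continuous_ev _)))
      (fun x => norm_coeff_le_zero him hre k x)
  refine h1.trans (le_of_eq ?_)
  have h2 : ∫ x : AddCircle T, (ev (R 0) x).re ∂haarAddCircle =
      (∫ x : AddCircle T, ev (R 0) x ∂haarAddCircle).re := integral_re (integrable_ev _)
  rw [h2, integral_ev, hmean, Complex.one_re]

end

lemma join_zero_left (M : ℤ) (q : ℤ →₀ ℂ) : join M 0 q = 0 := by
  unfold join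
  have : q.mapRange (fun z => z • (0 : ℤ →₀ ℂ)) (zero_smul ℂ 0) = 0 := by
    ext k : 1
    rw [Finsupp.mapRange_apply]
    simp
  rw [this]
  simp [spread]

/-- tensor product of two variable polynomials: `ρ(x, M' y) R(M x, y)` -/
noncomputable def tens (M M' : ℤ) (ρ R : ℤ →₀ (ℤ →₀ ℂ)) : ℤ →₀ (ℤ →₀ ℂ) :=
  ∑ a ∈ ρ.support, ∑ b ∈ R.support, Finsupp.single (b + M' * a) (join M (ρ a) (R b))

lemma ev2_tens (M M' : ℕ) (ρ R : ℤ →₀ (ℤ →₀ ℂ)) (x y : AddCircle T) :
    ev2 (tens M M' ρ R) x y = ev2 ρ x (M' • y) * ev2 R (M • x) y := by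
  unfold tens
  rw [ev2_sum, ev2_eq_sum ρ, Finset.sum_mul]
  refine Finset.sum_congr rfl fun a _ => ?_
  rw [ev2_sum, ev2_eq_sum R, Finset.mul_sum]
  refine Finset.sum_congr rfl fun b _ => ?_
  rw [ev2_single, ev_join, fourier_add_mul]
  have : (fourier ((M' : ℤ) * a) y : ℂ) = fourier a (M' • y) := by
    rw [fourier_apply, fourier_apply]
    congr 2
    rw [mul_comm, mul_smul, natCast_zsmul]
  rw [this]; ring

lemma tens_apply {M M' : ℤ} {ρ R : ℤ →₀ (ℤ →₀ ℂ)}
    (hR : ∀ b ∈ R.support, 2 * |b| < M') {a b : ℤ} (hb : 2 * |b| < M') :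
    tens M M' ρ R (b + M' * a) = join M (ρ a) (R b) := by
  have hM' : 0 < M' := by have := abs_nonneg b; omega
  unfold tens
  rw [Finsupp.finsetSum_apply]
  have key : ∀ a' ∈ ρ.support, (∑ b' ∈ R.support,
      Finsupp.single (b' + M' * a') (join M (ρ a') (R b'))) (b + M' * a) =
      if a' = a then join M (ρ a) (R b) else 0 := by
    intro a' _
    rw [Finsupp.finsetSum_apply]
    have h1 : ∀ b' ∈ R.support,
        (Finsupp.single (b' + M' * a') (join M (ρ a') (R b'))) (b + M' * a) =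
        if a' = a ∧ b' = b then join M (ρ a) (R b) else 0 := by
      intro b' hb'
      rw [Finsupp.single_apply]
      have hiff : b' + M' * a' = b + M' * a ↔ a' = a ∧ b' = b := by
        constructor
        · intro h
          have h2 := hR b' hb'
          have h3 : M' * (a' - a) = b - b' := by linear_combination h
          have h4 : a' = a := by
            by_contra hne
            have h5 : 1 ≤ |a' - a| := Int.one_le_abs (sub_ne_zero.mpr hne)
            have h6 : M' ≤ |b - b'| := by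
              rw [← h3, abs_mul, abs_of_pos hM']; nlinarith
            have h7 : |b - b'| ≤ |b| + |b'| := abs_sub _ _
            omega
          refine ⟨h4, ?_⟩
          rw [h4, sub_self, mul_zero] at h3
          omega
        · rintro ⟨rfl, rfl⟩; rfl
      simp only [hiff]
      split_ifs with h
      · rw [h.1, h.2]
      · rfl
    rw [Finset.sum_congr rfl h1]
    by_cases ha : a' = a
    · simp only [ha, true_and, if_true]
      rw [Finset.sum_ite_eq']
      split_ifs with hbs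
      · rfl
      · rw [Finsupp.notMem_support_iff.mp hbs]
        unfold join
        simp [spread]
    · simp [ha]
  rw [Finset.sum_congr rfl key, Finset.sum_ite_eq']
  split_ifs with h
  · rfl
  · rw [Finsupp.notMem_support_iff.mp h, join_zero_left]

lemma tens_eq_zero {M : ℤ} {ρ R : ℤ →₀ (ℤ →₀ ℂ)} {J₁ J : ℕ}
    (hρ : ∀ k : ℤ, (J₁ : ℤ) < |k| → ρ k = 0) (hR : ∀ k : ℤ, (J : ℤ) < |k| → R k = 0)
    {k : ℤ} (hk : (((2 * J + 1) * (J₁ + 1) : ℕ) : ℤ) < |k|) :
    tens M (2 * J + 1) ρ R k = 0 := by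
  unfold tens
  rw [Finsupp.finsetSum_apply]
  refine Finset.sum_eq_zero fun a ha => ?_
  rw [Finsupp.finsetSum_apply]
  refine Finset.sum_eq_zero fun b hb => ?_
  rw [Finsupp.single_apply, if_neg]
  intro h
  have h1 : |a| ≤ J₁ := by
    by_contra hc
    exact Finsupp.mem_support_iff.mp ha (hρ a (by omega))
  have h2 : |b| ≤ J := by
    by_contra hc
    exact Finsupp.mem_support_iff.mp hb (hR b (by omega))
  rw [← h] at hk
  have h3 : |b + (2 * (J : ℤ) + 1) * a| ≤ |b| + (2 * J + 1) * |a| := by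
    refine (abs_add_le _ _).trans ?_
    rw [abs_mul, abs_of_nonneg (by positivity : (0 : ℤ) ≤ 2 * (J : ℤ) + 1)]
  push_cast at hk
  nlinarith [abs_nonneg a, abs_nonneg b]

end Vale.Agent.P091.H409
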